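import Mathlib
import Vale.Agent.Lib.P084.Far.Main

/-! Gradient of a differentiable norm on a finite-dimensional space: continuity, strict
differentiability, and consequences of strict convexity. -/

namespace Vale.Agent.Lib.P084.Str

open Set Metric Filter Topology
open Vale.Agent.Lib.P084

section Grad

variable {E : Type*} [NormedAddCommGroup E] [NormedSpace ℝ E]

/-- The norm is differentiable away from the origin. -/
def Smooth (E : Type*) [NormedAddCommGroup E] [NormedSpace ℝ E] : Prop :=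
  ∀ x : E, x ≠ 0 → DifferentiableAt ℝ (fun z : E => ‖z‖) x

lemma Smooth.hasFDerivAt (hs : Smooth E) {x : E} (hx : x ≠ 0) :
    HasFDerivAt (fun z : E => ‖z‖) (chi x) x := (hs x hx).hasFDerivAt

lemma Smooth.chi_self (hs : Smooth E) {x : E} (hx : x ≠ 0) : chi x x = ‖x‖ :=
  (hs x hx).fderiv_norm_self

/-- Support inequality. -/
lemma Smooth.support (hs : Smooth E) {x : E} (hx : x ≠ 0) (v : E) :
    ‖x‖ + chi x (v - x) ≤ ‖v‖ := by
  have h1 := chi_le x v
  rw [map_sub, hs.chi_self hx]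
  linarith

lemma Smooth.chi_eq (hs : Smooth E) {x : E} (hx : x ≠ 0) {ψ : StrongDual ℝ E} (hψ : ‖ψ‖ ≤ 1)
    (h : ψ x = ‖x‖) : chi x = ψ :=
  functional_eq_of_differentiableAt (hs x hx) (chi_norm_le x) hψ (hs.chi_self hx) h

/-- Two-sided convexity estimate for the norm. -/
lemma Smooth.two_sided (hs : Smooth E) {v v' : E} (hv : v ≠ 0) (hv' : v' ≠ 0) :
    chi v (v' - v) ≤ ‖v'‖ - ‖v‖ ∧ ‖v'‖ - ‖v‖ ≤ chi v' (v' - v) := by
  constructor
  · have := hs.support hv v'
    linarith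
  · have := hs.support hv' v
    have e : chi v' (v - v') = -chi v' (v' - v) := by
      rw [← map_neg, neg_sub]
    rw [e] at this
    linarith

variable [FiniteDimensional ℝ E]

/-- The gradient of a differentiable norm is continuous. -/
lemma Smooth.chi_continuousAt (hs : Smooth E) {x : E} (hx : x ≠ 0) :
    ContinuousAt (chi : E → StrongDual ℝ E) x := by
  have hK : IsCompact (closedBall (0 : StrongDual ℝ E) 1) := isCompact_closedBall _ _
  have hmem : closedBall (0 : StrongDual ℝ E) 1 ∈ map (chi : E → StrongDual ℝ E) (𝓝 x) := by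
    refine Filter.mem_map.2 (Filter.Eventually.of_forall fun y => ?_)
    simpa using chi_norm_le y
  refine hK.le_nhds_of_unique_clusterPt hmem fun ψ hψ hcl => ?_
  have hψ1 : ‖ψ‖ ≤ 1 := by simpa using hψ
  have hval : ψ x = ‖x‖ := by
    by_contra hne
    obtain ⟨e, he⟩ : ∃ e, e = |ψ x - ‖x‖| / 4 := ⟨_, rfl⟩
    have he0 : 0 < e := by
      rw [he]
      have : 0 < |ψ x - ‖x‖| := abs_pos.2 (sub_ne_zero.2 hne)
      positivity
    have h1 : ∀ᶠ y in 𝓝 x, ‖y - x‖ < e ∧ y ≠ 0 := by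
      refine Filter.Eventually.and ?_ (isOpen_ne.mem_nhds hx)
      exact Metric.eventually_nhds_iff.2 ⟨e, he0, fun {y} hy => by rwa [dist_eq_norm] at hy⟩
    have hU : {φ : StrongDual ℝ E | |φ x - ψ x| < e} ∈ 𝓝 ψ := by
      have hc : Continuous fun φ : StrongDual ℝ E => |φ x - ψ x| := by fun_prop
      have h0 : (fun φ : StrongDual ℝ E => |φ x - ψ x|) ψ < e := by simpa using he0
      exact hc.continuousAt.eventually (gt_mem_nhds h0)
    have hV : (chi : E → StrongDual ℝ E) '' {y | ‖y - x‖ < e ∧ y ≠ 0} ∈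
        map (chi : E → StrongDual ℝ E) (𝓝 x) := Filter.image_mem_map h1
    have hne2 := (clusterPt_iff_nonempty.1 hcl) hU hV
    obtain ⟨φ, hφ1, y, ⟨hy1, hy2⟩, rfl⟩ := hne2
    have h2 : |chi y x - ψ x| < e := hφ1
    have h3 : |chi y x - ‖x‖| ≤ 2 * e := by
      have h4 : chi y x = ‖y‖ + chi y (x - y) := by
        rw [map_sub, hs.chi_self hy2]
        ring
      have h5 : |chi y (x - y)| ≤ ‖x - y‖ := abs_chi_le y _
      have h6 : |‖y‖ - ‖x‖| ≤ ‖y - x‖ := abs_norm_sub_norm_le y x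
      rw [norm_sub_rev] at h5
      rw [abs_le] at h5 h6 ⊢
      constructor <;> [linarith [h5.1, h6.1]; linarith [h5.2, h6.2]]
    have h7 : |ψ x - ‖x‖| ≤ |ψ x - chi y x| + |chi y x - ‖x‖| := abs_sub_le _ _ _
    have h9 : |ψ x - chi y x| = |chi y x - ψ x| := abs_sub_comm _ _
    have h8 : |ψ x - ‖x‖| = 4 * e := by
      rw [he]
      ring
    linarith
  exact ((hs.chi_eq hx hψ1 hval).symm)

/-- Strict differentiability of the norm, in explicit form. -/
lemma Smooth.strict_est (hs : Smooth E) {p : E} (hp : p ≠ 0) {ε : ℝ} (hε : 0 < ε) :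
    ∃ δ : ℝ, 0 < δ ∧ ∀ v v' : E, ‖v - p‖ < δ → ‖v' - p‖ < δ →
      |‖v'‖ - ‖v‖ - chi p (v' - v)| ≤ ε * ‖v' - v‖ := by
  have hc := hs.chi_continuousAt hp
  obtain ⟨δ₁, hδ₁, hb⟩ := Metric.continuousAt_iff.1 hc ε hε
  have hpn : 0 < ‖p‖ := norm_pos_iff.2 hp
  refine ⟨min δ₁ ‖p‖, lt_min hδ₁ hpn, fun v v' hv hv' => ?_⟩
  have hv0 : v ≠ 0 := by
    rintro rfl
    rw [zero_sub, norm_neg] at hv
    exact absurd (hv.trans_le (min_le_right _ _)) (lt_irrefl _)
  have hv'0 : v' ≠ 0 := by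
    rintro rfl
    rw [zero_sub, norm_neg] at hv'
    exact absurd (hv'.trans_le (min_le_right _ _)) (lt_irrefl _)
  have h1 : ‖chi v - chi p‖ < ε := by
    have := @hb v (by rw [dist_eq_norm]; exact hv.trans_le (min_le_left _ _))
    rwa [dist_eq_norm] at this
  have h2 : ‖chi v' - chi p‖ < ε := by
    have := @hb v' (by rw [dist_eq_norm]; exact hv'.trans_le (min_le_left _ _))
    rwa [dist_eq_norm] at this
  obtain ⟨h3, h4⟩ := hs.two_sided hv0 hv'0
  have h5 : |(chi v - chi p) (v' - v)| ≤ ε * ‖v' - v‖ := by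
    have := (chi v - chi p).le_opNorm (v' - v)
    rw [Real.norm_eq_abs] at this
    exact this.trans (mul_le_mul_of_nonneg_right h1.le (norm_nonneg _))
  have h6 : |(chi v' - chi p) (v' - v)| ≤ ε * ‖v' - v‖ := by
    have := (chi v' - chi p).le_opNorm (v' - v)
    rw [Real.norm_eq_abs] at this
    exact this.trans (mul_le_mul_of_nonneg_right h2.le (norm_nonneg _))
  simp only [_root_.sub_apply] at h5 h6
  rw [abs_le] at h5 h6 ⊢
  constructor <;> [linarith [h5.1]; linarith [h6.2]]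

end Grad

section Strict

variable {E : Type*} [NormedAddCommGroup E] [NormedSpace ℝ E] [StrictConvexSpace ℝ E]

/-- A norming functional norms at most one vector of a given norm. -/
lemma eq_of_norming {x v : E} {ψ : StrongDual ℝ E} (hψ : ‖ψ‖ ≤ 1) (hnv : ‖v‖ = ‖x‖)
    (hx : ψ x = ‖x‖) (hv : ψ v = ‖x‖) : v = x := by
  have h1 := Far.fle ψ hψ (v + x)
  rw [map_add, hv, hx] at h1
  have h3 : ‖v + x‖ = ‖v‖ + ‖x‖ := by
    refine le_antisymm (norm_add_le _ _) ?_
    rw [hnv]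
    linarith
  exact eq_of_norm_eq_of_norm_add_eq hnv h3

/-- Strict version of the functional inequality at a unit vector. -/
lemma chi_lt_one (hs : Smooth E) {x u : E} (hx : ‖x‖ = 1) (hu : ‖u‖ = 1) (hne : u ≠ x) :
    chi x u < 1 := by
  have hx0 : x ≠ 0 := by
    rintro rfl
    simp at hx
  refine lt_of_le_of_ne ?_ fun h => hne ?_
  · have := chi_le x u
    rwa [hu] at this
  · exact eq_of_norming (chi_norm_le x) (by rw [hu, hx]) (by rw [hs.chi_self hx0]) (by rw [h, hx])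

/-- Norming vectors of `chi x` are positive multiples of `x`. -/
lemma ray_of_chi (hs : Smooth E) {x v : E} (hx : x ≠ 0) (hv : v ≠ 0) (h : chi x v = ‖v‖) :
    v = (‖v‖ / ‖x‖) • x := by
  have hxn : 0 < ‖x‖ := norm_pos_iff.2 hx
  have hvn : 0 < ‖v‖ := norm_pos_iff.2 hv
  have h1 : (‖x‖ / ‖v‖) • v = x := by
    refine eq_of_norming (chi_norm_le x) ?_ (hs.chi_self hx) ?_
    · rw [norm_smul, Real.norm_of_nonneg (by positivity)]
      field_simp
    · rw [map_smul, h, smul_eq_mul]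
      field_simp
  have e : (‖v‖ / ‖x‖) • x = (‖v‖ / ‖x‖) • (‖x‖ / ‖v‖) • v := by rw [h1]
  rw [e, smul_smul]
  have : ‖v‖ / ‖x‖ * (‖x‖ / ‖v‖) = 1 := by
    field_simp
  rw [this, one_smul]

end Strict

end Vale.Agent.Lib.P084.Str
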