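import Mathlib
import Vale.Agent.Lib.P084.Str.Grad

/-! First order consequences of a second order expansion of a sphere isometry at a point. -/

namespace Vale.Agent.Lib.P084.Str

open Set Metric Filter Topology
open Vale.Agent.Lib.P084

section Curve

variable {E : Type*} [NormedAddCommGroup E] [NormedSpace ℝ E]

/-- The normalised line through `x₀` in the direction `w`. -/
noncomputable def curve (x₀ w : E) (ε : ℝ) : E := ‖x₀ + ε • w‖⁻¹ • (x₀ + ε • w)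

lemma line_ne {x₀ w : E} (hs : Smooth E) (hx₀ : ‖x₀‖ = 1) (hw : chi x₀ w = 0) (ε : ℝ) :
    x₀ + ε • w ≠ 0 := by
  have hx0 : x₀ ≠ 0 := by
    rintro rfl
    simp at hx₀
  intro h
  have h1 := congrArg (chi x₀) h
  rw [map_add, map_smul, hw, hs.chi_self hx0, hx₀] at h1
  simp at h1

lemma curve_unit {x₀ w : E} (hs : Smooth E) (hx₀ : ‖x₀‖ = 1) (hw : chi x₀ w = 0) (ε : ℝ) :
    ‖curve x₀ w ε‖ = 1 := unit_of_ne (line_ne hs hx₀ hw ε)

lemma curve_zero {x₀ : E} (hx₀ : ‖x₀‖ = 1) (w : E) : curve x₀ w 0 = x₀ := by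
  simp [curve, hx₀]

lemma curve_deriv {x₀ w : E} (hs : Smooth E) (hx₀ : ‖x₀‖ = 1) (hw : chi x₀ w = 0) :
    HasDerivAt (curve x₀ w) w 0 := by
  have hx0 : x₀ ≠ 0 := by
    rintro rfl
    simp at hx₀
  have hl : HasDerivAt (fun ε : ℝ => x₀ + ε • w) w 0 := by
    simpa using ((hasDerivAt_id (0 : ℝ)).smul_const w).const_add x₀
  have hn : HasDerivAt (fun ε : ℝ => ‖x₀ + ε • w‖) (chi x₀ w) 0 :=
    HasFDerivAt.comp_hasDerivAt_of_eq (0 : ℝ) (hs.hasFDerivAt hx0) hl (by simp)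
  rw [hw] at hn
  have hne : ‖x₀ + (0 : ℝ) • w‖ ≠ 0 := by simp [hx₀]
  have hi := hn.fun_inv hne
  have h := hi.smul hl
  refine h.congr_deriv ?_
  simp [hx₀]

lemma hasDerivAt_zero_of_sq {F : Type*} [NormedAddCommGroup F] [NormedSpace ℝ F] {f : ℝ → F}
    (h0 : f 0 = 0) {C : ℝ} (h : ∀ᶠ ε in 𝓝 (0 : ℝ), ‖f ε‖ ≤ C * ε ^ 2) : HasDerivAt f 0 0 := by
  rw [hasDerivAt_iff_isLittleO_nhds_zero, Asymptotics.isLittleO_iff]
  intro c hc
  have h1 : ∀ᶠ ε in 𝓝 (0 : ℝ), |C| * |ε| ≤ c := by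
    have hcont : Continuous fun ε : ℝ => |C| * |ε| := by fun_prop
    have h2 : (fun ε : ℝ => |C| * |ε|) 0 < c := by simpa using hc
    exact (hcont.continuousAt.eventually (gt_mem_nhds h2)).mono fun ε hε => hε.le
  filter_upwards [h, h1] with ε h2 h3
  simp only [h0, zero_add, sub_zero, smul_zero, Real.norm_eq_abs]
  refine h2.trans ?_
  have h4 : C * ε ^ 2 ≤ |C| * ε ^ 2 := mul_le_mul_of_nonneg_right (le_abs_self C) (by positivity)
  have h5 : |C| * ε ^ 2 = (|C| * |ε|) * |ε| := by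
    rw [mul_assoc, ← sq, sq_abs]
  rw [h5] at h4
  exact h4.trans (mul_le_mul_of_nonneg_right h3 (abs_nonneg _))

end Curve

section First

variable {X Y : Type*} [NormedAddCommGroup X] [NormedSpace ℝ X]
  [NormedAddCommGroup Y] [NormedSpace ℝ Y] {g : X → Y} {h : Y → X}

/-- A second order bound at `x₀` for a linear map `A`. -/
def BigO (g : X → Y) (x₀ : X) (A : X →L[ℝ] Y) : Prop :=
  ∃ K : ℝ, ∀ᶠ y in 𝓝 x₀, ‖y‖ = 1 → ‖g y - A y‖ ≤ K * ‖y - x₀‖ ^ 2

variable {x₀ : X} {A : X →L[ℝ] Y}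

lemma curve_isBigO (hX : Smooth X) (hx₀ : ‖x₀‖ = 1) {w : X} (hw : chi x₀ w = 0) :
    ∃ C : ℝ, ∀ᶠ ε in 𝓝 (0 : ℝ), ‖curve x₀ w ε - x₀‖ ≤ C * |ε| := by
  have h1 := (curve_deriv hX hx₀ hw).isBigO_sub
  obtain ⟨C, hC⟩ := h1.bound
  refine ⟨C, ?_⟩
  filter_upwards [hC] with ε hε
  rw [curve_zero hx₀] at hε
  simpa using hε

/-- The remainder along a curve has zero derivative. -/
lemma remainder_deriv (hX : Smooth X) (hx₀ : ‖x₀‖ = 1) (hA : A x₀ = g x₀) (hO : BigO g x₀ A)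
    {w : X} (hw : chi x₀ w = 0) :
    HasDerivAt (fun ε : ℝ => g (curve x₀ w ε) - A (curve x₀ w ε)) 0 0 := by
  obtain ⟨K, hK⟩ := hO
  obtain ⟨C, hC⟩ := curve_isBigO hX hx₀ hw
  have hc : Tendsto (curve x₀ w) (𝓝 0) (𝓝 x₀) := by
    have := (curve_deriv hX hx₀ hw).continuousAt.tendsto
    rwa [curve_zero hx₀] at this
  refine hasDerivAt_zero_of_sq (C := |K| * C ^ 2) ?_ ?_
  · rw [curve_zero hx₀, hA, sub_self]
  · filter_upwards [hc.eventually hK, hC] with ε h1 h2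
    refine (h1 (curve_unit hX hx₀ hw ε)).trans ?_
    have h3 : ‖curve x₀ w ε - x₀‖ ^ 2 ≤ (C * |ε|) ^ 2 := pow_le_pow_left₀ (norm_nonneg _) h2 2
    have h4 : (C * |ε|) ^ 2 = C ^ 2 * ε ^ 2 := by
      rw [mul_pow, sq_abs]
    rw [h4] at h3
    calc K * ‖curve x₀ w ε - x₀‖ ^ 2 ≤ |K| * ‖curve x₀ w ε - x₀‖ ^ 2 :=
          mul_le_mul_of_nonneg_right (le_abs_self K) (by positivity)
      _ ≤ |K| * (C ^ 2 * ε ^ 2) := mul_le_mul_of_nonneg_left h3 (abs_nonneg K)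
      _ = |K| * C ^ 2 * ε ^ 2 := by ring

/-- The image curve has derivative `A w`. -/
lemma image_deriv (hX : Smooth X) (hx₀ : ‖x₀‖ = 1) (hA : A x₀ = g x₀) (hO : BigO g x₀ A)
    {w : X} (hw : chi x₀ w = 0) (v : Y) :
    HasDerivAt (fun ε : ℝ => g (curve x₀ w ε) - v) (A w) 0 := by
  have h1 := remainder_deriv hX hx₀ hA hO hw
  have h2 : HasDerivAt (fun ε : ℝ => A (curve x₀ w ε)) (A w) 0 :=
    A.hasFDerivAt.comp_hasDerivAt (0 : ℝ) (curve_deriv hX hx₀ hw)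
  have h3 := (h1.fun_add h2).sub_const v
  refine (h3.congr_deriv (by simp)).congr_of_eventuallyEq ?_
  exact Filter.Eventually.of_forall fun ε => by simp

/-- **First order identity along chords.** -/
theorem first_chord (H : SphereIso g h) (hX : Smooth X) (hY : Smooth Y) (hx₀ : ‖x₀‖ = 1)
    (hA : A x₀ = g x₀) (hO : BigO g x₀ A) {u : X} (hu : ‖u‖ = 1) (hne : u ≠ x₀) {w : X}
    (hw : chi x₀ w = 0) : chi (g x₀ - g u) (A w) = chi (x₀ - u) w := by
  have hp : x₀ - u ≠ 0 := sub_ne_zero.2 hne.symm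
  have hp' : g x₀ - g u ≠ 0 := by
    rw [← norm_ne_zero_iff, H.iso _ _ hx₀ hu, norm_ne_zero_iff]
    exact hp
  have h1 : HasDerivAt (fun ε : ℝ => ‖curve x₀ w ε - u‖) (chi (x₀ - u) w) 0 := by
    have h2 := (curve_deriv hX hx₀ hw).sub_const u
    exact HasFDerivAt.comp_hasDerivAt_of_eq (0 : ℝ) (hX.hasFDerivAt hp) h2
      (by rw [curve_zero hx₀])
  have h3 : HasDerivAt (fun ε : ℝ => ‖g (curve x₀ w ε) - g u‖) (chi (g x₀ - g u) (A w)) 0 := by
    have h2 := image_deriv hX hx₀ hA hO hw (g u)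
    exact HasFDerivAt.comp_hasDerivAt_of_eq (0 : ℝ) (hY.hasFDerivAt hp') h2
      (by rw [curve_zero hx₀])
  have e : (fun ε : ℝ => ‖g (curve x₀ w ε) - g u‖) = fun ε : ℝ => ‖curve x₀ w ε - u‖ := by
    funext ε
    exact H.iso _ _ (curve_unit hX hx₀ hw ε) hu
  rw [e] at h3
  exact h3.unique h1

/-- `Φ₀ ∘ A = φ₀`. -/
theorem first_Phi [FiniteDimensional ℝ X] (H : SphereIso g h) (hX : Smooth X) (hY : Smooth Y)
    (hx₀ : ‖x₀‖ = 1) (hA : A x₀ = g x₀) (hO : BigO g x₀ A) (z : X) :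
    chi (g x₀) (A z) = chi x₀ z := by
  have hx0 : x₀ ≠ 0 := by
    rintro rfl
    simp at hx₀
  have hy₀ : ‖g x₀‖ = 1 := H.map_g _ hx₀
  have hy0 : g x₀ ≠ 0 := by
    rw [← norm_ne_zero_iff, hy₀]
    exact one_ne_zero
  have hne : -x₀ ≠ x₀ := by
    intro hc
    have h2 : (2 : ℝ) • x₀ = 0 := by
      rw [two_smul]
      nth_rewrite 1 [← hc]
      simp
    rw [smul_eq_zero] at h2
    rcases h2 with h2 | h2
    · norm_num at h2
    · exact hx0 h2
  have hP : ∀ w, chi x₀ w = 0 → chi (g x₀) (A w) = chi x₀ w := by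
    intro w hw
    have h1 := first_chord H hX hY hx₀ hA hO (u := -x₀) (by rwa [norm_neg]) hne hw
    haveI : Nontrivial X := ⟨⟨x₀, 0, hx0⟩⟩
    rw [Vale.Agent.Lib.P084.sphere_odd H hx₀] at h1
    have e1 : g x₀ - -g x₀ = (2 : ℝ) • g x₀ := by
      rw [two_smul]
      abel
    have e2 : x₀ - -x₀ = (2 : ℝ) • x₀ := by
      rw [two_smul]
      abel
    rwa [e1, e2, chi_smul two_pos, chi_smul two_pos] at h1
  have hself : chi x₀ x₀ = 1 := by rw [hX.chi_self hx0, hx₀]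
  have hself' : chi (g x₀) (g x₀) = 1 := by rw [hY.chi_self hy0, hy₀]
  have hz : chi x₀ (z - chi x₀ z • x₀) = 0 := by
    rw [map_sub, map_smul, hself]
    simp
  have h1 := hP _ hz
  rw [hz] at h1
  have e : z = (z - chi x₀ z • x₀) + chi x₀ z • x₀ := by abel
  rw [e, map_add, map_add, map_add, hz, h1, map_smul, map_smul, map_smul, hA, hself, hself']

/-- `A` preserves the norm on the tangent hyperplane. -/
theorem first_norm (H : SphereIso g h) (hX : Smooth X) (hx₀ : ‖x₀‖ = 1)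
    (hA : A x₀ = g x₀) (hO : BigO g x₀ A) {w : X} (hw : chi x₀ w = 0) : ‖A w‖ = ‖w‖ := by
  have h1 := (image_deriv hX hx₀ hA hO hw (g x₀)).tendsto_slope_zero
  have h2 := (curve_deriv hX hx₀ hw).tendsto_slope_zero
  have h3 := h1.norm
  have h4 := h2.norm
  refine tendsto_nhds_unique h3 (h4.congr fun t => ?_)
  simp only [zero_add, curve_zero hx₀, sub_self, sub_zero, norm_smul]
  rw [H.iso _ _ (curve_unit hX hx₀ hw t) hx₀]

/-- `A` is injective. -/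
theorem first_inj [FiniteDimensional ℝ X] (H : SphereIso g h) (hX : Smooth X) (hY : Smooth Y)
    (hx₀ : ‖x₀‖ = 1) (hA : A x₀ = g x₀) (hO : BigO g x₀ A) : Function.Injective A := by
  rw [injective_iff_map_eq_zero]
  intro z hz
  have h1 : chi x₀ z = 0 := by
    rw [← first_Phi H hX hY hx₀ hA hO, hz, map_zero]
  have h2 := first_norm H hX hx₀ hA hO h1
  rw [hz, norm_zero] at h2
  exact norm_eq_zero.1 h2.symm

/-- `A` has a continuous linear inverse. -/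
theorem first_inverse [FiniteDimensional ℝ X] [FiniteDimensional ℝ Y] (H : SphereIso g h)
    (hX : Smooth X) (hY : Smooth Y) (hx₀ : ‖x₀‖ = 1) (hA : A x₀ = g x₀) (hO : BigO g x₀ A) :
    ∃ Λ : Y →L[ℝ] X, (∀ x, Λ (A x) = x) ∧ ∀ y, A (Λ y) = y := by
  have hinj := first_inj H hX hY hx₀ hA hO
  have hsurj : Function.Surjective A :=
    (LinearMap.injective_iff_surjective_of_finrank_eq_finrank (f := (A : X →ₗ[ℝ] Y))
      (Far.finrank_eq H)).1 hinj
  let e : X ≃L[ℝ] Y := (LinearEquiv.ofBijective (A : X →ₗ[ℝ] Y) ⟨hinj, hsurj⟩).toContinuousLinearEquiv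
  have he : ∀ x, e x = A x := fun x => rfl
  refine ⟨(e.symm : Y →L[ℝ] X), fun x => ?_, fun y => ?_⟩
  · rw [← he]
    simp
  · rw [← he]
    simp

/-- `A` is bounded by `3`. -/
theorem first_bound [FiniteDimensional ℝ X] (H : SphereIso g h) (hX : Smooth X)
    (hx₀ : ‖x₀‖ = 1) (hA : A x₀ = g x₀) (hO : BigO g x₀ A) : ‖A‖ ≤ 3 := by
  have hx0 : x₀ ≠ 0 := by
    rintro rfl
    simp at hx₀
  have hself : chi x₀ x₀ = 1 := by rw [hX.chi_self hx0, hx₀]
  refine A.opNorm_le_bound (by norm_num) fun z => ?_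
  have hz : chi x₀ (z - chi x₀ z • x₀) = 0 := by
    rw [map_sub, map_smul, hself]
    simp
  have h1 := first_norm H hX hx₀ hA hO hz
  have h2 : |chi x₀ z| ≤ ‖z‖ := abs_chi_le x₀ z
  have h3 : ‖z - chi x₀ z • x₀‖ ≤ ‖z‖ + ‖z‖ := by
    refine (norm_sub_le _ _).trans ?_
    rw [norm_smul, hx₀, mul_one, Real.norm_eq_abs]
    linarith
  have e : A z = A (z - chi x₀ z • x₀) + chi x₀ z • g x₀ := by
    rw [map_sub, map_smul, hA]
    abel
  rw [e]
  refine (norm_add_le _ _).trans ?_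
  rw [h1, norm_smul, H.map_g _ hx₀, mul_one, Real.norm_eq_abs]
  linarith

end First

section Struct

variable {X Y : Type*} [NormedAddCommGroup X] [NormedSpace ℝ X]
  [NormedAddCommGroup Y] [NormedSpace ℝ Y]

/-- First order data at a base point. -/
structure FirstData (g : X → Y) (h : Y → X) (x₀ : X) (A : X →L[ℝ] Y) (Λ : Y →L[ℝ] X) : Prop where
  iso : SphereIso g h
  smX : Smooth X
  smY : Smooth Y
  unit : ‖x₀‖ = 1
  Ax : A x₀ = g x₀
  left : ∀ x, Λ (A x) = x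
  right : ∀ y, A (Λ y) = y
  bigO : BigO g x₀ A

variable {g : X → Y} {h : Y → X} {x₀ : X} {A : X →L[ℝ] Y} {Λ : Y →L[ℝ] X}

lemma FirstData.x0_ne (B : FirstData g h x₀ A Λ) : x₀ ≠ 0 := by
  intro h0
  have := B.unit
  rw [h0, norm_zero] at this
  exact zero_ne_one this

lemma FirstData.y_unit (B : FirstData g h x₀ A Λ) : ‖g x₀‖ = 1 := B.iso.map_g _ B.unit

lemma FirstData.y0_ne (B : FirstData g h x₀ A Λ) : g x₀ ≠ 0 := by
  intro h0
  have := B.y_unit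
  rw [h0, norm_zero] at this
  exact zero_ne_one this

lemma FirstData.phi_self (B : FirstData g h x₀ A Λ) : chi x₀ x₀ = 1 := by
  rw [B.smX.chi_self B.x0_ne, B.unit]

lemma FirstData.Phi_self (B : FirstData g h x₀ A Λ) : chi (g x₀) (g x₀) = 1 := by
  rw [B.smY.chi_self B.y0_ne, B.y_unit]

lemma FirstData.hgx (B : FirstData g h x₀ A Λ) : h (g x₀) = x₀ := B.iso.left _ B.unit

lemma FirstData.Lx (B : FirstData g h x₀ A Λ) : Λ (g x₀) = x₀ := by
  rw [← B.Ax, B.left]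

lemma FirstData.chord (B : FirstData g h x₀ A Λ) {u : X} (hu : ‖u‖ = 1) (hne : u ≠ x₀) {w : X}
    (hw : chi x₀ w = 0) : chi (g x₀ - g u) (A w) = chi (x₀ - u) w :=
  first_chord B.iso B.smX B.smY B.unit B.Ax B.bigO hu hne hw

lemma FirstData.normA (B : FirstData g h x₀ A Λ) {w : X} (hw : chi x₀ w = 0) : ‖A w‖ = ‖w‖ :=
  first_norm B.iso B.smX B.unit B.Ax B.bigO hw

lemma FirstData.iso' (B : FirstData g h x₀ A Λ) {u : X} (hu : ‖u‖ = 1) :
    ‖g x₀ - g u‖ = ‖x₀ - u‖ := B.iso.iso _ _ B.unit hu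

lemma FirstData.Phi [FiniteDimensional ℝ X] (B : FirstData g h x₀ A Λ) (z : X) :
    chi (g x₀) (A z) = chi x₀ z :=
  first_Phi B.iso B.smX B.smY B.unit B.Ax B.bigO z

lemma FirstData.PhiL [FiniteDimensional ℝ X] (B : FirstData g h x₀ A Λ) (z : Y) :
    chi x₀ (Λ z) = chi (g x₀) z := by
  rw [← B.Phi, B.right]

/-- The inverse map has the same first order data. -/
lemma FirstData.symm (B : FirstData g h x₀ A Λ) : FirstData h g (g x₀) Λ A := by
  refine ⟨B.iso.symm, B.smY, B.smX, B.y_unit, ?_, B.right, B.left, ?_⟩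
  · rw [B.Lx, B.hgx]
  · obtain ⟨K, hK⟩ := B.bigO
    obtain ⟨δ, hδ, hb⟩ := Metric.eventually_nhds_iff.1 hK
    refine ⟨‖Λ‖ * K, Metric.eventually_nhds_iff.2 ⟨δ, hδ, fun {y'} hy' hy'1 => ?_⟩⟩
    have hx1 : ‖h y'‖ = 1 := B.iso.map_h _ hy'1
    have hgy : g (h y') = y' := B.iso.right _ hy'1
    have hd : ‖h y' - x₀‖ = ‖y' - g x₀‖ := by
      have := B.iso.iso _ _ hx1 B.unit
      rw [hgy] at this
      exact this.symm
    rw [dist_eq_norm, ← hd] at hy'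
    have h2 := @hb (h y') (by rwa [dist_eq_norm]) hx1
    rw [hgy] at h2
    have e : h y' - Λ y' = -Λ (y' - A (h y')) := by
      rw [map_sub, B.left]
      abel
    rw [e, norm_neg, ← hd, mul_assoc]
    exact (Λ.le_opNorm _).trans (mul_le_mul_of_nonneg_left h2 (norm_nonneg _))

end Struct

end Vale.Agent.Lib.P084.Str
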