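import Mathlib
import Vale.Agent.Lib.P084.Str.First

/-! Minimisers of `‖y‖ - ξ y` on the tangent hyperplane `{chi x₀ = 1}`: existence, uniqueness,
continuous dependence, and the derivative of the value. -/

namespace Vale.Agent.Lib.P084.Str

open Set Metric Filter Topology
open Vale.Agent.Lib.P084

section Min

variable {E : Type*} [NormedAddCommGroup E] [NormedSpace ℝ E]

/-- `y` minimises `‖y‖ - ξ y` on `{chi x₀ = 1}`, with value `a`. -/
structure IsMin (x₀ : E) (ξ : StrongDual ℝ E) (y : E) (a : ℝ) : Prop where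
  aff : chi x₀ y = 1
  grad : chi y = ξ + a • chi x₀

variable {x₀ : E} {ξ ξ' : StrongDual ℝ E} {y y' : E} {a a' : ℝ}

lemma IsMin.ne_zero (hm : IsMin x₀ ξ y a) : y ≠ 0 := by
  rintro rfl
  have := hm.aff
  rw [map_zero] at this
  exact zero_ne_one this

lemma IsMin.apply (hm : IsMin x₀ ξ y a) (v : E) : chi y v = ξ v + a * chi x₀ v := by
  rw [hm.grad]
  simp

lemma IsMin.val (hs : Smooth E) (hm : IsMin x₀ ξ y a) : ‖y‖ - ξ y = a := by
  have h1 := hm.apply y
  rw [hs.chi_self hm.ne_zero, hm.aff] at h1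
  linarith

lemma IsMin.le (hm : IsMin x₀ ξ y a) {v : E} (hv : chi x₀ v = 1) : a ≤ ‖v‖ - ξ v := by
  have h1 := hm.apply v
  have h2 := chi_le y v
  rw [h1, hv] at h2
  linarith

/-- The functional in the gradient of a minimiser is bounded by the norm. -/
lemma IsMin.dual (hm : IsMin x₀ ξ y a) (v : E) : ξ v + a * chi x₀ v ≤ ‖v‖ := by
  rw [← hm.apply]
  exact chi_le y v

lemma IsMin.uniq [StrictConvexSpace ℝ E] (hs : Smooth E) (hm : IsMin x₀ ξ y a)
    (hm' : IsMin x₀ ξ y' a') : y' = y ∧ a' = a := by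
  have h1 := hm.le hm'.aff
  have h2 := hm'.le hm.aff
  rw [hm'.val hs] at h1
  rw [hm.val hs] at h2
  have ha : a' = a := le_antisymm h2 h1
  refine ⟨?_, ha⟩
  have h3 : chi y y' = ‖y'‖ := by
    rw [hm.grad, ← ha, ← hm'.grad, hs.chi_self hm'.ne_zero]
  have h4 := ray_of_chi hs hm.ne_zero hm'.ne_zero h3
  have h5 := congrArg (chi x₀) h4
  rw [map_smul, hm.aff, hm'.aff, smul_eq_mul, mul_one] at h5
  rw [h4, ← h5, one_smul]

/-- Existence of the minimiser. -/
theorem exists_isMin [FiniteDimensional ℝ E] (hs : Smooth E) (hx₀ : ‖x₀‖ = 1) (hξ0 : ξ x₀ = 0)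
    {θ : ℝ} (hθ : θ < 1) (hb : ∀ w, chi x₀ w = 0 → ξ w ≤ θ * ‖w‖) : ∃ y a, IsMin x₀ ξ y a := by
  have hx0 : x₀ ≠ 0 := by
    rintro rfl
    simp at hx₀
  have hself : chi x₀ x₀ = 1 := by rw [hs.chi_self hx0, hx₀]
  obtain ⟨R, hR⟩ : ∃ R, R = 3 / (1 - θ) := ⟨_, rfl⟩
  have h1θ : 0 < 1 - θ := by linarith
  have hR0 : 0 < R := by
    rw [hR]
    positivity
  let K : Set E := closedBall x₀ R ∩ {v | chi x₀ v = 1}
  have hKc : IsCompact K :=
    (isCompact_closedBall x₀ R).inter_right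
      (isClosed_eq (chi x₀).continuous continuous_const)
  have hKne : K.Nonempty := ⟨x₀, mem_closedBall_self hR0.le, hself⟩
  have hcont : ContinuousOn (fun v : E => ‖v‖ - ξ v) K := by
    refine Continuous.continuousOn ?_
    fun_prop
  obtain ⟨y, hyK, hmin⟩ := hKc.exists_isMinOn hKne hcont
  have hyaff : chi x₀ y = 1 := hyK.2
  have hy0 : y ≠ 0 := by
    rintro rfl
    rw [map_zero] at hyaff
    exact zero_ne_one hyaff
  have hyval : ‖y‖ - ξ y ≤ 1 := by
    have h1 : (fun v : E => ‖v‖ - ξ v) y ≤ (fun v : E => ‖v‖ - ξ v) x₀ :=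
      hmin ⟨mem_closedBall_self hR0.le, hself⟩
    simpa [hx₀, hξ0] using h1
  have hglobal : ∀ v, chi x₀ v = 1 → ‖y‖ - ξ y ≤ ‖v‖ - ξ v := by
    intro v hv
    by_cases hvK : ‖v - x₀‖ ≤ R
    · exact hmin ⟨by rwa [mem_closedBall, dist_eq_norm], hv⟩
    · push Not at hvK
      have hd : chi x₀ (v - x₀) = 0 := by
        rw [map_sub, hv, hself, sub_self]
      have h2 := hb _ hd
      rw [map_sub, hξ0, sub_zero] at h2
      have h3 : ‖v - x₀‖ ≤ ‖v‖ + 1 := by
        have := norm_sub_le v x₀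
        rwa [hx₀] at this
      have h4 : (1 - θ) * R < (1 - θ) * ‖v - x₀‖ := mul_lt_mul_of_pos_left hvK h1θ
      have h5 : (1 - θ) * R = 3 := by
        rw [hR]
        field_simp
      nlinarith
  have hfirst : ∀ w, chi x₀ w = 0 → chi y w = ξ w := by
    intro w hw
    have hl : HasDerivAt (fun s : ℝ => y + s • w) w 0 := by
      simpa using ((hasDerivAt_id (0 : ℝ)).smul_const w).const_add y
    have hn : HasDerivAt (fun s : ℝ => ‖y + s • w‖) (chi y w) 0 :=
      HasFDerivAt.comp_hasDerivAt_of_eq (0 : ℝ) (hs.hasFDerivAt hy0) hl (by simp)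
    have hxi : HasDerivAt (fun s : ℝ => ξ (y + s • w)) (ξ w) 0 :=
      ξ.hasFDerivAt.comp_hasDerivAt (0 : ℝ) hl
    have hd := hn.fun_sub hxi
    have hlm : IsLocalMin (fun s : ℝ => ‖y + s • w‖ - ξ (y + s • w)) 0 := by
      refine Filter.Eventually.of_forall fun s => ?_
      have := hglobal (y + s • w) (by rw [map_add, map_smul, hw, hyaff]; simp)
      simpa using this
    have h0 := hlm.hasDerivAt_eq_zero hd
    linarith
  refine ⟨y, chi y x₀, hyaff, ?_⟩
  ext z
  have hz : chi x₀ (z - chi x₀ z • x₀) = 0 := by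
    rw [map_sub, map_smul, hself]
    simp
  have h1 := hfirst _ hz
  simp only [map_sub, map_smul, hξ0, smul_eq_mul, mul_zero, sub_zero] at h1
  simp only [_root_.add_apply, _root_.smul_apply, smul_eq_mul]
  linarith

/-- Continuous dependence of the minimiser on the functional. -/
theorem IsMin.close [FiniteDimensional ℝ E] [StrictConvexSpace ℝ E] (hs : Smooth E)
    (hm : IsMin x₀ ξ y a) {δ : ℝ} (hδ : 0 < δ) :
    ∃ η : ℝ, 0 < η ∧ ∀ ξ' y' a', ‖ξ' - ξ‖ < η → IsMin x₀ ξ' y' a' → ‖y' - y‖ < δ := by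
  let S : Set E := sphere y δ ∩ {v | chi x₀ v = 1}
  have hSc : IsCompact S :=
    (isCompact_sphere y δ).inter_right (isClosed_eq (chi x₀).continuous continuous_const)
  have key : ∀ v ∈ S, 0 < ‖v‖ - ξ v - a := by
    rintro v ⟨hv1, hv2⟩
    have hv2' : chi x₀ v = 1 := hv2
    have h1 := hm.le hv2'
    refine lt_of_le_of_ne (by linarith) fun h0 => ?_
    have hv0 : v ≠ 0 := by
      rintro rfl
      rw [map_zero] at hv2'
      exact zero_ne_one hv2'
    have h3 : chi y v = ‖v‖ := by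
      rw [hm.apply, hv2']
      linarith
    have h4 := ray_of_chi hs hm.ne_zero hv0 h3
    have h5 := congrArg (chi x₀) h4
    rw [map_smul, hm.aff, hv2', smul_eq_mul, mul_one] at h5
    rw [← h5, one_smul] at h4
    rw [mem_sphere, h4, dist_self] at hv1
    exact hδ.ne hv1
  obtain ⟨μ, hμ, hμS⟩ : ∃ μ : ℝ, 0 < μ ∧ ∀ v ∈ S, μ ≤ ‖v‖ - ξ v - a := by
    rcases S.eq_empty_or_nonempty with he | hne
    · exact ⟨1, one_pos, fun v hv => by rw [he] at hv; exact absurd hv (notMem_empty v)⟩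
    · have hcont : ContinuousOn (fun v : E => ‖v‖ - ξ v - a) S := by
        refine Continuous.continuousOn ?_
        fun_prop
      obtain ⟨v₀, hv₀, hmin⟩ := hSc.exists_isMinOn hne hcont
      exact ⟨_, key v₀ hv₀, fun v hv => hmin hv⟩
  refine ⟨μ / δ, by positivity, fun ξ' y' a' hξ' hm' => ?_⟩
  by_contra hcon
  push Not at hcon
  have hd0 : 0 < ‖y' - y‖ := hδ.trans_le hcon
  obtain ⟨s, hs'⟩ : ∃ s, s = δ / ‖y' - y‖ := ⟨_, rfl⟩
  have hs0 : 0 < s := by
    rw [hs']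
    positivity
  have hs1 : s ≤ 1 := by
    rw [hs', div_le_one hd0]
    exact hcon
  obtain ⟨v, hv⟩ : ∃ v, v = (1 - s) • y + s • y' := ⟨_, rfl⟩
  have hvy : v - y = s • (y' - y) := by
    rw [hv]
    module
  have hvn : ‖v - y‖ = δ := by
    rw [hvy, norm_smul, Real.norm_of_nonneg hs0.le, hs']
    field_simp
  have hvaff : chi x₀ v = 1 := by
    rw [hv, map_add, map_smul, map_smul, hm.aff, hm'.aff]
    simp
  have hvS : v ∈ S := ⟨by rwa [mem_sphere, dist_eq_norm], hvaff⟩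
  have h1 := hμS v hvS
  have h2 := hm'.le hm.aff
  have h3 := hm'.val hs
  have h4 := hm.val hs
  have h5 : ‖v‖ ≤ (1 - s) * ‖y‖ + s * ‖y'‖ := by
    rw [hv]
    refine (norm_add_le _ _).trans ?_
    rw [norm_smul, norm_smul, Real.norm_of_nonneg hs0.le, Real.norm_of_nonneg (by linarith)]
  have h6 : ξ' v = (1 - s) * ξ' y + s * ξ' y' := by
    rw [hv, map_add, map_smul, map_smul]
    simp
  have h7 : ‖v‖ - ξ' v ≤ ‖y‖ - ξ' y := by
    have h8 : s * (‖y'‖ - ξ' y') ≤ s * (‖y‖ - ξ' y) :=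
      mul_le_mul_of_nonneg_left (by linarith) hs0.le
    rw [h6]
    nlinarith
  have h9 : (ξ' - ξ) (v - y) ≤ ‖ξ' - ξ‖ * δ := by
    have := (ξ' - ξ).le_opNorm (v - y)
    rw [hvn, Real.norm_eq_abs] at this
    exact (le_abs_self _).trans this
  have h10 : ‖ξ' - ξ‖ * δ < μ := by
    rwa [lt_div_iff₀ hδ] at hξ'
  simp only [_root_.sub_apply, map_sub] at h9
  linarith

/-- The value as a function of the functional: its derivative along a line. -/
theorem danskin [FiniteDimensional ℝ E] [StrictConvexSpace ℝ E] (hs : Smooth E)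
    {c : StrongDual ℝ E} {yf : ℝ → E} {af : ℝ → ℝ}
    (hm : ∀ᶠ s in 𝓝 (0 : ℝ), IsMin x₀ (ξ + s • c) (yf s) (af s)) :
    HasDerivAt af (-c (yf 0)) 0 := by
  have hm0 : IsMin x₀ ξ (yf 0) (af 0) := by
    have := hm.self_of_nhds
    simpa using this
  rw [hasDerivAt_iff_isLittleO_nhds_zero, Asymptotics.isLittleO_iff]
  intro e he
  obtain ⟨η, hη, hb⟩ := hm0.close hs (δ := e / (‖c‖ + 1)) (by positivity)
  have hnear : ∀ᶠ s in 𝓝 (0 : ℝ), ‖(ξ + s • c) - ξ‖ < η := by
    have hcont : Continuous fun s : ℝ => ‖(ξ + s • c) - ξ‖ := by fun_prop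
    have h0 : (fun s : ℝ => ‖(ξ + s • c) - ξ‖) 0 < η := by simpa using hη
    exact hcont.continuousAt.eventually (gt_mem_nhds h0)
  filter_upwards [hm, hnear] with s hs1 hs2
  have hclose := hb _ _ _ hs2 hs1
  have h1 := hs1.le hm0.aff
  have h2 := hm0.le hs1.aff
  have h3 := hs1.val hs
  have h4 := hm0.val hs
  simp only [_root_.add_apply, _root_.smul_apply, smul_eq_mul] at h1 h3
  rw [zero_add, Real.norm_eq_abs, Real.norm_eq_abs]
  have h5 : af s - af 0 - s • (-c (yf 0)) = af s - af 0 + s * c (yf 0) := by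
    simp only [smul_eq_mul]
    ring
  rw [h5]
  have h6 : |s * c (yf s - yf 0)| ≤ e * |s| := by
    rw [abs_mul]
    have h7 : |c (yf s - yf 0)| ≤ ‖c‖ * ‖yf s - yf 0‖ := by
      have := c.le_opNorm (yf s - yf 0)
      rwa [Real.norm_eq_abs] at this
    have h8 : ‖c‖ * ‖yf s - yf 0‖ ≤ e := by
      have h9 : ‖yf s - yf 0‖ * (‖c‖ + 1) ≤ e := by
        have := hclose.le
        rwa [le_div_iff₀ (by positivity)] at this
      nlinarith [norm_nonneg c, norm_nonneg (yf s - yf 0)]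
    calc |s| * |c (yf s - yf 0)| ≤ |s| * e :=
          mul_le_mul_of_nonneg_left (h7.trans h8) (abs_nonneg _)
      _ = e * |s| := mul_comm _ _
  rw [map_sub, mul_sub] at h6
  rw [abs_le] at h6 ⊢
  constructor <;> nlinarith [h6.1, h6.2]

end Min

end Vale.Agent.Lib.P084.Str
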