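import Mathlib
import Vale.Agent.Lib.P084.Str.Min

/-! Chords and minimisers; the second order base point; the comparison principle. -/

namespace Vale.Agent.Lib.P084.Str

open Set Metric Filter Topology
open Vale.Agent.Lib.P084

section Exit

variable {E : Type*} [NormedAddCommGroup E] [NormedSpace ℝ E] [FiniteDimensional ℝ E]

/-- A ray in the direction of a vector of the tangent hyperplane leaves the ball. -/
lemma exit_chord (hs : Smooth E) {x₀ : E} (hx₀ : ‖x₀‖ = 1) {y : E} (hy : chi x₀ y = 1) :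
    ∃ t : ℝ, 0 < t ∧ ‖x₀ - t • y‖ = 1 := by
  have hx0 : x₀ ≠ 0 := by
    rintro rfl
    simp at hx₀
  obtain ⟨δ, hδ, hb⟩ := hs.strict_est hx0 (ε := 1 / (2 * (‖y‖ + 1))) (by positivity)
  obtain ⟨r, hr⟩ : ∃ r, r = δ / (2 * (‖y‖ + 1)) := ⟨_, rfl⟩
  have hr0 : 0 < r := by
    rw [hr]
    positivity
  have hr1 : r * ‖y‖ < δ := by
    have : r * (2 * (‖y‖ + 1)) = δ := by
      rw [hr]
      field_simp
    nlinarith [norm_nonneg y]
  have h1 := hb x₀ (x₀ - r • y) (by simpa using hδ) (by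
    rw [sub_sub_cancel_left, norm_neg, norm_smul, Real.norm_of_nonneg hr0.le]
    exact hr1)
  rw [sub_sub_cancel_left, map_neg, map_smul, hy, norm_neg, norm_smul,
    Real.norm_of_nonneg hr0.le, hx₀] at h1
  have h2 := (abs_le.1 h1).2
  have h3 : 1 / (2 * (‖y‖ + 1)) * (r * ‖y‖) ≤ r / 2 := by
    have : 1 / (2 * (‖y‖ + 1)) * (r * ‖y‖) = (r / 2) * (‖y‖ / (‖y‖ + 1)) := by
      field_simp
    rw [this]
    have h4 : ‖y‖ / (‖y‖ + 1) ≤ 1 := by
      rw [div_le_one (by positivity)]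
      linarith
    nlinarith
  simp only [smul_eq_mul, mul_one] at h2
  have h5 : ‖x₀ - r • y‖ < 1 := by linarith
  obtain ⟨s, hs1, hs2, _⟩ := Far.exit_of_mem hx₀ hr0 h5
  exact ⟨s, hr0.trans hs1, hs2⟩

/-- The point of the sphere over a small tangent vector. -/
lemma exists_n (hs : Smooth E) {x₀ : E} (hx₀ : ‖x₀‖ = 1) {w : E} (hw : chi x₀ w = 0)
    (hw2 : 2 * ‖w‖ ≤ 1) : ∃ n : ℝ, 0 ≤ n ∧ n ≤ 2 * ‖w‖ ∧ ‖(1 - n) • x₀ + w‖ = 1 := by
  have hx0 : x₀ ≠ 0 := by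
    rintro rfl
    simp at hx₀
  have hself : chi x₀ x₀ = 1 := by rw [hs.chi_self hx0, hx₀]
  have hcont : ContinuousOn (fun n : ℝ => ‖(1 - n) • x₀ + w‖) (Icc 0 (2 * ‖w‖)) := by
    refine Continuous.continuousOn ?_
    fun_prop
  have h0 : 0 ≤ 2 * ‖w‖ := by positivity
  have h1 : (1 : ℝ) ≤ ‖(1 - (0 : ℝ)) • x₀ + w‖ := by
    have := chi_le x₀ ((1 - (0 : ℝ)) • x₀ + w)
    rw [map_add, map_smul, hself, hw] at this
    simpa using this
  have h2 : ‖(1 - 2 * ‖w‖) • x₀ + w‖ ≤ 1 := by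
    refine (norm_add_le _ _).trans ?_
    rw [norm_smul, hx₀, Real.norm_of_nonneg (by linarith)]
    linarith [norm_nonneg w]
  obtain ⟨n, hn, hn1⟩ := intermediate_value_Icc' h0 hcont ⟨h2, h1⟩
  exact ⟨n, hn.1, hn.2, hn1⟩

end Exit

section Base

variable {X Y : Type*} [NormedAddCommGroup X] [NormedSpace ℝ X]
  [NormedAddCommGroup Y] [NormedSpace ℝ Y]

/-- A second order base point: `g` agrees with `A` up to `o(‖y - x₀‖²)` on the sphere, and the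
sphere is curved at `x₀`. -/
structure Base (g : X → Y) (h : Y → X) (x₀ : X) (A : X →L[ℝ] Y) (Λ : Y →L[ℝ] X) : Prop
    extends FirstData g h x₀ A Λ where
  bp1 : ∀ ε : ℝ, 0 < ε → ∀ᶠ y in 𝓝 x₀, ‖y‖ = 1 → ‖g y - A y‖ ≤ ε * ‖y - x₀‖ ^ 2
  bp2 : ∃ c : ℝ, 0 < c ∧ ∀ᶠ y in 𝓝 x₀, ‖y‖ = 1 → c * ‖y - x₀‖ ^ 2 ≤ 1 - chi x₀ y

variable {g : X → Y} {h : Y → X} {x₀ : X} {A : X →L[ℝ] Y} {Λ : Y →L[ℝ] X}

/-- The inverse map at the image point is again a base point. -/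
lemma Base.symm [FiniteDimensional ℝ X] (B : Base g h x₀ A Λ) : Base h g (g x₀) Λ A := by
  refine { toFirstData := B.toFirstData.symm, bp1 := ?_, bp2 := ?_ }
  · intro ε hε
    obtain ⟨δ, hδ, hb⟩ := Metric.eventually_nhds_iff.1 (B.bp1 (ε / (‖Λ‖ + 1)) (by positivity))
    refine Metric.eventually_nhds_iff.2 ⟨δ, hδ, fun {y'} hy' hy'1 => ?_⟩
    have hx1 : ‖h y'‖ = 1 := B.iso.map_h _ hy'1
    have hgy : g (h y') = y' := B.iso.right _ hy'1
    have hd : ‖h y' - x₀‖ = ‖y' - g x₀‖ := by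
      have := B.iso.iso _ _ hx1 B.unit
      rw [hgy] at this
      exact this.symm
    rw [dist_eq_norm, ← hd] at hy'
    have h2 := @hb (h y') (by rwa [dist_eq_norm]) hx1
    rw [hgy] at h2
    have e : h y' - Λ y' = -Λ (y' - A (h y')) := by
      rw [map_sub, B.left]
      abel
    rw [e, norm_neg, ← hd]
    refine (Λ.le_opNorm _).trans ?_
    have h3 : ‖Λ‖ * ‖y' - A (h y')‖ ≤ (‖Λ‖ + 1) * (ε / (‖Λ‖ + 1) * ‖h y' - x₀‖ ^ 2) :=
      mul_le_mul (by linarith) h2 (norm_nonneg _) (by positivity)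
    have h4 : (‖Λ‖ + 1) * (ε / (‖Λ‖ + 1) * ‖h y' - x₀‖ ^ 2) = ε * ‖h y' - x₀‖ ^ 2 := by
      field_simp
    linarith
  · obtain ⟨c, hc, hcb⟩ := B.bp2
    obtain ⟨δ₁, hδ₁, hb₁⟩ := Metric.eventually_nhds_iff.1 hcb
    obtain ⟨δ₂, hδ₂, hb₂⟩ := Metric.eventually_nhds_iff.1 (B.bp1 (c / 2) (by positivity))
    refine ⟨c / 2, by positivity, Metric.eventually_nhds_iff.2
      ⟨min δ₁ δ₂, lt_min hδ₁ hδ₂, fun {y'} hy' hy'1 => ?_⟩⟩
    have hx1 : ‖h y'‖ = 1 := B.iso.map_h _ hy'1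
    have hgy : g (h y') = y' := B.iso.right _ hy'1
    have hd : ‖h y' - x₀‖ = ‖y' - g x₀‖ := by
      have := B.iso.iso _ _ hx1 B.unit
      rw [hgy] at this
      exact this.symm
    rw [dist_eq_norm, ← hd] at hy'
    have h1 := @hb₁ (h y') (by rw [dist_eq_norm]; exact hy'.trans_le (min_le_left _ _)) hx1
    have h2 := @hb₂ (h y') (by rw [dist_eq_norm]; exact hy'.trans_le (min_le_right _ _)) hx1
    rw [hgy] at h2
    rw [← hd]
    have h3 : chi (g x₀) y' = chi x₀ (h y') + chi (g x₀) (y' - A (h y')) := by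
      rw [map_sub, B.Phi]
      ring
    have h4 : |chi (g x₀) (y' - A (h y'))| ≤ ‖y' - A (h y')‖ := abs_chi_le _ _
    have h5 := (abs_le.1 h4).2
    rw [h3]
    have h6 : c / 2 * ‖h y' - x₀‖ ^ 2 + c / 2 * ‖h y' - x₀‖ ^ 2 = c * ‖h y' - x₀‖ ^ 2 := by ring
    linarith

variable [FiniteDimensional ℝ X] [FiniteDimensional ℝ Y] [StrictConvexSpace ℝ X]
  [StrictConvexSpace ℝ Y]

/-- A chord in the direction of a minimiser produces the minimiser of the transported problem. -/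
theorem isMin_chord (B : FirstData g h x₀ A Λ) {ξ : StrongDual ℝ X} (hξ0 : ξ x₀ = 0) {y : X}
    {a : ℝ} (hm : IsMin x₀ ξ y a) {t : ℝ} (ht : 0 < t) {u : X} (hu : ‖u‖ = 1)
    (hut : x₀ - u = t • y) :
    u ≠ x₀ ∧ ∃ (t₂ : ℝ) (y₂ : Y) (b : ℝ), 0 < t₂ ∧ g x₀ - g u = t₂ • y₂ ∧
      IsMin (g x₀) (ξ.comp Λ) y₂ b ∧ chi (g x₀ - g u) (g x₀) = b := by
  have hne : u ≠ x₀ := by
    rintro rfl
    rw [sub_self] at hut
    exact (smul_ne_zero ht.ne' hm.ne_zero) hut.symm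
  refine ⟨hne, ?_⟩
  have hgu : ‖g u‖ = 1 := B.iso.map_g _ hu
  have hguy : g u ≠ g x₀ := by
    intro hc
    have := congrArg h hc
    rw [B.iso.left _ hu, B.iso.left _ B.unit] at this
    exact hne this
  obtain ⟨p', hp'⟩ : ∃ p', p' = g x₀ - g u := ⟨_, rfl⟩
  rw [← hp']
  have hp'0 : p' ≠ 0 := by
    rw [hp']
    exact sub_ne_zero.2 hguy.symm
  have hlt := chi_lt_one B.smY B.y_unit hgu hguy
  obtain ⟨t₂, ht₂⟩ : ∃ t₂, t₂ = chi (g x₀) p' := ⟨_, rfl⟩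
  have ht₂0 : 0 < t₂ := by
    rw [ht₂, hp', map_sub, B.Phi_self]
    linarith
  obtain ⟨b, hb⟩ : ∃ b, b = chi p' (g x₀) := ⟨_, rfl⟩
  have hgrad : ∀ v : Y, chi p' v = ξ (Λ v) + b * chi (g x₀) v := by
    intro v
    obtain ⟨z, hz⟩ : ∃ z, z = Λ v := ⟨_, rfl⟩
    have hv : v = A z := by rw [hz, B.right]
    have hw : chi x₀ (z - chi x₀ z • x₀) = 0 := by
      rw [map_sub, map_smul, B.phi_self]
      simp
    have h1 := B.chord hu hne hw
    rw [← hp', hut, chi_smul ht, hm.apply, hw, mul_zero, add_zero] at h1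
    have e1 : A (z - chi x₀ z • x₀) = A z - chi x₀ z • g x₀ := by
      rw [map_sub, map_smul, B.Ax]
    have e2 : ξ (z - chi x₀ z • x₀) = ξ z := by
      rw [map_sub, map_smul, hξ0]
      simp
    rw [e1, e2, map_sub, map_smul, smul_eq_mul, ← hb] at h1
    rw [hv, B.Phi, B.left]
    linarith
  refine ⟨t₂, t₂⁻¹ • p', b, ht₂0, ?_, ⟨?_, ?_⟩, hb.symm⟩
  · rw [smul_smul, mul_inv_cancel₀ ht₂0.ne', one_smul]
  · rw [map_smul, ← ht₂, smul_eq_mul, inv_mul_cancel₀ ht₂0.ne']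
  · rw [chi_smul (inv_pos.2 ht₂0)]
    ext v
    rw [hgrad]
    simp

/-- Scaling a short chord through `x₀` in the direction `k`. -/
lemma exists_scale (B : Base g h x₀ A Λ) {k : X} (hk : chi x₀ k = 0) (hk0 : k ≠ 0) {e δ : ℝ}
    (he : 0 < e) (hδ : 0 < δ) : ∃ (θ : ℝ) (R : Y), 0 < θ ∧ θ < δ ∧ ‖R‖ ≤ e * θ ∧
      ‖A k - θ • g x₀ + R‖ = ‖k - θ • x₀‖ := by
  have hF := B.toFirstData
  obtain ⟨c, hc, hcb⟩ := B.bp2
  have hcont : Tendsto (curve x₀ k) (𝓝[>] 0) (𝓝 x₀) := by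
    have h1 := (curve_deriv hF.smX hF.unit hk).continuousAt.tendsto
    rw [curve_zero hF.unit] at h1
    exact h1.mono_left nhdsWithin_le_nhds
  have hl : HasDerivAt (fun r : ℝ => x₀ + r • k) k 0 := by
    simpa using ((hasDerivAt_id (0 : ℝ)).smul_const k).const_add x₀
  have hn : HasDerivAt (fun r : ℝ => ‖x₀ + r • k‖) (chi x₀ k) 0 :=
    HasFDerivAt.comp_hasDerivAt_of_eq (0 : ℝ) (hF.smX.hasFDerivAt hF.x0_ne) hl (by simp)
  rw [hk] at hn
  have hθ : Tendsto (fun r : ℝ => (‖x₀ + r • k‖ - 1) / r) (𝓝[>] 0) (𝓝 0) := by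
    have h1 := hn.tendsto_slope_zero_right
    simp only [zero_add, zero_smul, add_zero, hF.unit, smul_eq_mul] at h1
    refine h1.congr fun r => ?_
    rw [div_eq_inv_mul]
  have hev := ((hcont.eventually (hcb.and (B.bp1 (c * e) (by positivity)))).and
    (hθ.eventually (gt_mem_nhds hδ))).and self_mem_nhdsWithin
  obtain ⟨r, ⟨⟨⟨hr1, hr2⟩, hr3⟩, hr0⟩⟩ := hev.exists
  have hr0' : 0 < r := hr0
  have hyu := curve_unit hF.smX hF.unit hk r
  have h1 := hr1 hyu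
  have h2 := hr2 hyu
  obtain ⟨s, hs⟩ : ∃ s, s = ‖x₀ + r • k‖ := ⟨_, rfl⟩
  have hlne := line_ne hF.smX hF.unit hk r
  have hs0 : 0 < s := by
    rw [hs]
    exact norm_pos_iff.2 hlne
  obtain ⟨y, hy⟩ : ∃ y, y = curve x₀ k r := ⟨_, rfl⟩
  rw [← hy] at h1 h2 hyu
  have hyform : y = s⁻¹ • (x₀ + r • k) := by
    rw [hy, curve, hs]
  have hyaff : chi x₀ y = s⁻¹ := by
    rw [hyform, map_smul, map_add, map_smul, hk, hF.phi_self]
    simp
  obtain ⟨θ, hθdef⟩ : ∃ θ, θ = (s - 1) / r := ⟨_, rfl⟩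
  rw [← hs, ← hθdef] at hr3
  have hz : (s / r) • (y - x₀) = k - θ • x₀ := by
    rw [hyform, hθdef]
    have e3 : s / r * s⁻¹ = r⁻¹ := by
      field_simp
    rw [smul_sub, smul_smul, e3, smul_add, smul_smul, inv_mul_cancel₀ hr0'.ne', one_smul]
    have e4 : (s - 1) / r = s / r - r⁻¹ := by
      field_simp
    rw [e4, sub_smul]
    abel
  have hyne : y ≠ x₀ := by
    intro hc2
    have h5 := congrArg (chi x₀) hc2
    rw [hyaff, hF.phi_self] at h5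
    have hs1 : s = 1 := by
      rwa [inv_eq_one] at h5
    rw [hyform, hs1, inv_one, one_smul] at hc2
    have h6 : r • k = 0 := by
      have := hc2
      rwa [add_eq_left] at this
    exact (smul_ne_zero hr0'.ne' hk0) h6
  have hzpos : 0 < ‖y - x₀‖ := norm_pos_iff.2 (sub_ne_zero.2 hyne)
  have hzq : c * ‖y - x₀‖ ^ 2 * s ≤ s - 1 := by
    have h5 : (1 - chi x₀ y) * s = s - 1 := by
      rw [hyaff]
      field_simp
    rw [← h5]
    exact mul_le_mul_of_nonneg_right h1 hs0.le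
  have hs1 : 1 < s := by
    have : 0 < c * ‖y - x₀‖ ^ 2 * s := by positivity
    linarith
  have hθ0 : 0 < θ := by
    rw [hθdef]
    exact div_pos (by linarith) hr0'
  refine ⟨θ, (s / r) • (g y - A y), hθ0, hr3, ?_, ?_⟩
  · rw [norm_smul, Real.norm_of_nonneg (by positivity)]
    have h5 : s / r * ‖g y - A y‖ ≤ s / r * (c * e * ‖y - x₀‖ ^ 2) :=
      mul_le_mul_of_nonneg_left h2 (by positivity)
    refine h5.trans ?_
    have h6 : s / r * (c * e * ‖y - x₀‖ ^ 2) = e / r * (c * ‖y - x₀‖ ^ 2 * s) := by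
      ring
    rw [h6, hθdef]
    have h7 : e / r * (c * ‖y - x₀‖ ^ 2 * s) ≤ e / r * (s - 1) :=
      mul_le_mul_of_nonneg_left hzq (by positivity)
    refine h7.trans (le_of_eq ?_)
    ring
  · have h5 := hF.iso.iso _ _ hyu hF.unit
    have h6 : (s / r) • (g y - g x₀) = A k - θ • g x₀ + (s / r) • (g y - A y) := by
      have h7 : A k - θ • g x₀ = (s / r) • (A y - g x₀) := by
        have := congrArg A hz
        rw [map_smul, map_sub, map_sub, map_smul, hF.Ax] at this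
        exact this.symm
      rw [h7, ← smul_add]
      congr 1
      abel
    rw [← h6, ← hz, norm_smul, norm_smul, h5]

lemma kappa_arith {a n ψ Ψ r₁ Rn S θ e ε₁ : ℝ} (E1 : |a - n - -(θ * ψ)| ≤ ε₁ * θ)
    (E2 : |a - n - (r₁ - θ * Ψ)| ≤ ε₁ * S) (hS : S ≤ Rn + θ) (hr : |r₁| ≤ Rn)
    (hRn : Rn ≤ e / 4 * θ) (hθ : 0 < θ) (h1 : 0 < ε₁) (h2 : ε₁ ≤ e / 4) (h3 : ε₁ ≤ 1) :
    |Ψ - ψ| ≤ e := by
  have hRn0 : 0 ≤ Rn := (abs_nonneg _).trans hr
  have hS2 : ε₁ * S ≤ ε₁ * (Rn + θ) := mul_le_mul_of_nonneg_left hS h1.le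
  have h4 : ε₁ * Rn ≤ Rn := by nlinarith
  have h5 : ε₁ * θ ≤ e / 4 * θ := mul_le_mul_of_nonneg_right h2 hθ.le
  have E3 := abs_le.1 E1
  have E4 := abs_le.1 E2
  have E5 := abs_le.1 hr
  have h8 : |θ * (Ψ - ψ)| ≤ θ * e := by
    rw [abs_le]
    constructor <;> nlinarith [E3.1, E3.2, E4.1, E4.2, E5.1, E5.2]
  rw [abs_mul, abs_of_pos hθ] at h8
  exact le_of_mul_le_mul_left h8 hθ

/-- **Value at infinity.** The base point forces `chi (A k) y₀ = chi k x₀`. -/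
theorem kappa_zero (B : Base g h x₀ A Λ) {k : X} (hk : chi x₀ k = 0) (hk0 : k ≠ 0) :
    chi (A k) (g x₀) = chi k x₀ := by
  have hF := B.toFirstData
  have hAk0 : A k ≠ 0 := by
    rw [← norm_ne_zero_iff, hF.normA hk, norm_ne_zero_iff]
    exact hk0
  have hmain : ∀ e : ℝ, 0 < e → |chi (A k) (g x₀) - chi k x₀| ≤ e := by
    intro e he
    obtain ⟨ε₁, hε₁⟩ : ∃ ε₁, ε₁ = min (e / 4) 1 := ⟨_, rfl⟩
    have hε₁0 : 0 < ε₁ := by
      rw [hε₁]
      positivity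
    have hε₁1 : ε₁ ≤ e / 4 := hε₁ ▸ min_le_left _ _
    have hε₁2 : ε₁ ≤ 1 := hε₁ ▸ min_le_right _ _
    obtain ⟨δ₁, hδ₁, hb₁⟩ := hF.smX.strict_est hk0 hε₁0
    obtain ⟨δ₂, hδ₂, hb₂⟩ := hF.smY.strict_est hAk0 hε₁0
    obtain ⟨θ, R, hθ0, hθ1, hRb, hiso⟩ := exists_scale B hk hk0 (e := e / 4) (by positivity)
      (δ := min δ₁ (δ₂ / (e / 4 + 2))) (by positivity)
    have hθ2 : θ < δ₁ := hθ1.trans_le (min_le_left _ _)
    have hθ3 : θ * (e / 4 + 2) < δ₂ := by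
      have := hθ1.trans_le (min_le_right _ _)
      rwa [lt_div_iff₀ (by positivity)] at this
    have hnθ : ‖θ • x₀‖ = θ := by
      rw [norm_smul, hF.unit, mul_one, Real.norm_of_nonneg hθ0.le]
    have hnθ' : ‖θ • g x₀‖ = θ := by
      rw [norm_smul, hF.y_unit, mul_one, Real.norm_of_nonneg hθ0.le]
    have E1 := hb₁ k (k - θ • x₀) (by simpa using hδ₁) (by
      rw [sub_sub_cancel_left, norm_neg, hnθ]
      exact hθ2)
    have E2 := hb₂ (A k) (A k - θ • g x₀ + R) (by simpa using hδ₂) (by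
      have e5 : A k - θ • g x₀ + R - A k = R - θ • g x₀ := by abel
      rw [e5]
      refine (norm_sub_le _ _).trans_lt ?_
      rw [hnθ']
      nlinarith)
    have e6 : k - θ • x₀ - k = -(θ • x₀) := by abel
    have e7 : A k - θ • g x₀ + R - A k = R - θ • g x₀ := by abel
    rw [e6, norm_neg, hnθ, map_neg, map_smul, smul_eq_mul] at E1
    rw [e7, map_sub, map_smul, smul_eq_mul, hiso, hF.normA hk] at E2
    have hnR : ‖R - θ • g x₀‖ ≤ ‖R‖ + θ := by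
      refine (norm_sub_le _ _).trans ?_
      rw [hnθ']
    exact kappa_arith E1 E2 hnR (abs_chi_le _ _) hRb hθ0 hε₁0 hε₁1 hε₁2
  have h0 : chi (A k) (g x₀) - chi k x₀ = 0 := by
    by_contra hne
    have h2 := abs_pos.2 hne
    have h1 := hmain (|chi (A k) (g x₀) - chi k x₀| / 2) (by positivity)
    linarith
  linarith

end Base

end Vale.Agent.Lib.P084.Str
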