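import Mathlib
import Vale.Agent.Lib.P084.Str.Chord

/-! The comparison principle at a base point, and an abstract lemma on rays. -/

namespace Vale.Agent.Lib.P084.Str

open Set Metric Filter Topology
open Vale.Agent.Lib.P084

section Compare

variable {X Y : Type*} [NormedAddCommGroup X] [NormedSpace ℝ X]
  [NormedAddCommGroup Y] [NormedSpace ℝ Y] {g : X → Y} {h : Y → X} {x₀ : X} {A : X →L[ℝ] Y}
  {Λ : Y →L[ℝ] X}

/-- Points of the sphere near the base point, over a small tangent vector. -/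
lemma near_point [FiniteDimensional ℝ X] (B : Base g h x₀ A Λ) {e : ℝ} (he : 0 < e) :
    ∃ δ : ℝ, 0 < δ ∧ ∀ w, chi x₀ w = 0 → ‖w‖ < δ → ∃ (n : ℝ) (R : Y), 0 ≤ n ∧ n ≤ 2 * ‖w‖ ∧
      ‖R‖ ≤ e * n ∧ ‖(1 - n) • x₀ + w‖ = 1 ∧ g ((1 - n) • x₀ + w) = (1 - n) • g x₀ + A w + R := by
  have hF := B.toFirstData
  obtain ⟨c, hc, hcb⟩ := B.bp2
  obtain ⟨ρ, hρ, hb⟩ := Metric.eventually_nhds_iff.1 (hcb.and (B.bp1 (c * e) (by positivity)))
  refine ⟨min (1 / 2) (ρ / 3), by positivity, fun w hw hwδ => ?_⟩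
  have hw1 : ‖w‖ < 1 / 2 := hwδ.trans_le (min_le_left _ _)
  have hw2 : ‖w‖ < ρ / 3 := hwδ.trans_le (min_le_right _ _)
  obtain ⟨n, hn0, hn1, hn2⟩ := exists_n hF.smX hF.unit hw (by linarith)
  obtain ⟨y, hy⟩ : ∃ y, y = (1 - n) • x₀ + w := ⟨_, rfl⟩
  rw [← hy] at hn2
  have hz : y - x₀ = w - n • x₀ := by
    rw [hy, sub_smul, one_smul]
    abel
  have hzn : ‖y - x₀‖ < ρ := by
    rw [hz]
    refine (norm_sub_le _ _).trans_lt ?_
    rw [norm_smul, hF.unit, mul_one, Real.norm_of_nonneg hn0]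
    linarith
  obtain ⟨h1, h2⟩ := @hb y (by rwa [dist_eq_norm])
  have h3 := h1 hn2
  have h4 := h2 hn2
  have h5 : chi x₀ y = 1 - n := by
    rw [hy, map_add, map_smul, hF.phi_self, hw]
    simp
  rw [h5] at h3
  refine ⟨n, g y - A y, hn0, hn1, ?_, by rw [← hy]; exact hn2, ?_⟩
  · refine h4.trans ?_
    have h6 : c * e * ‖y - x₀‖ ^ 2 = e * (c * ‖y - x₀‖ ^ 2) := by ring
    rw [h6]
    exact mul_le_mul_of_nonneg_left (by linarith) he.le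
  · rw [← hy]
    have h6 : A y = (1 - n) • g x₀ + A w := by
      rw [hy, map_add, map_smul, hF.Ax]
    rw [h6]
    abel

lemma compare_arith {a P₁ P₂ ψ Ψ r Rn S n e ε₁ : ℝ} (E1 : |a - P₁ - -(n * ψ)| ≤ ε₁ * n)
    (E2 : |a - P₂ - (r - n * Ψ)| ≤ ε₁ * S) (hS : S ≤ Rn + n) (hr : |r| ≤ Rn)
    (hRn : Rn ≤ e / 8 * n) (hn : 0 ≤ n) (h1 : 0 < ε₁) (h2 : ε₁ ≤ e / 8) (h3 : ε₁ ≤ 1)
    (hκ : Ψ - ψ = -e) (he : 0 < e) : P₂ ≤ P₁ := by
  have hRn0 : 0 ≤ Rn := (abs_nonneg _).trans hr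
  have hS2 : ε₁ * S ≤ ε₁ * (Rn + n) := mul_le_mul_of_nonneg_left hS h1.le
  have h4 : ε₁ * Rn ≤ Rn := by nlinarith
  have h5 : ε₁ * n ≤ e / 8 * n := mul_le_mul_of_nonneg_right h2 hn
  have E3 := abs_le.1 E1
  have E4 := abs_le.1 E2
  have E5 := abs_le.1 hr
  have h6 : n * Ψ - n * ψ = -e * n := by
    rw [← mul_sub, hκ]
    ring
  nlinarith [E3.1, E3.2, E4.1, E4.2, E5.1, E5.2, mul_nonneg he.le hn]

variable [FiniteDimensional ℝ X] [FiniteDimensional ℝ Y]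

/-- **Comparison principle.** If the chord defect is negative, then the norm of the image of a
short tangent perturbation of the chord is at most the norm of the perturbed chord. -/
theorem comparison (B : Base g h x₀ A Λ) {u : X} (hu : ‖u‖ = 1) (hne : u ≠ x₀)
    (hκ : chi (g x₀ - g u) (g x₀) < chi (x₀ - u) x₀) :
    ∃ δ : ℝ, 0 < δ ∧ ∀ w, chi x₀ w = 0 → ‖w‖ < δ → ‖g x₀ - g u + A w‖ ≤ ‖x₀ - u + w‖ := by
  have hF := B.toFirstData
  obtain ⟨p, hp⟩ : ∃ p, p = x₀ - u := ⟨_, rfl⟩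
  obtain ⟨p', hp'⟩ : ∃ p', p' = g x₀ - g u := ⟨_, rfl⟩
  have hp0 : p ≠ 0 := by
    rw [hp]
    exact sub_ne_zero.2 hne.symm
  have hp'0 : p' ≠ 0 := by
    rw [← norm_ne_zero_iff, hp', hF.iso' hu, ← hp, norm_ne_zero_iff]
    exact hp0
  rw [← hp, ← hp'] at hκ ⊢
  obtain ⟨e, hedef⟩ : ∃ e, e = chi p x₀ - chi p' (g x₀) := ⟨_, rfl⟩
  have he : 0 < e := by
    rw [hedef]
    linarith
  obtain ⟨ε₁, hε₁⟩ : ∃ ε₁, ε₁ = min (e / 8) 1 := ⟨_, rfl⟩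
  have hε₁0 : 0 < ε₁ := by
    rw [hε₁]
    positivity
  have hε₁1 : ε₁ ≤ e / 8 := hε₁ ▸ min_le_left _ _
  have hε₁2 : ε₁ ≤ 1 := hε₁ ▸ min_le_right _ _
  obtain ⟨δ₀, hδ₀, hb₀⟩ := near_point B (e := e / 8) (by positivity)
  obtain ⟨δ₁, hδ₁, hb₁⟩ := hF.smX.strict_est hp0 hε₁0
  obtain ⟨δ₂, hδ₂, hb₂⟩ := hF.smY.strict_est hp'0 hε₁0
  refine ⟨min δ₀ (min (δ₁ / 3) (δ₂ / (3 + e))), by positivity, fun w hw hwδ => ?_⟩
  have hw0 : ‖w‖ < δ₀ := hwδ.trans_le (min_le_left _ _)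
  have hw1 : ‖w‖ < δ₁ / 3 := (hwδ.trans_le (min_le_right _ _)).trans_le (min_le_left _ _)
  have hw2 : ‖w‖ * (3 + e) < δ₂ := by
    have := (hwδ.trans_le (min_le_right _ _)).trans_le (min_le_right _ _)
    rwa [lt_div_iff₀ (by positivity)] at this
  obtain ⟨n, R, hn0, hn1, hRb, hy1, hgy⟩ := hb₀ w hw hw0
  obtain ⟨y, hy⟩ : ∃ y, y = (1 - n) • x₀ + w := ⟨_, rfl⟩
  rw [← hy] at hy1 hgy
  have hiso := hF.iso.iso _ _ hy1 hu
  have e1 : g y - g u = p' + A w + (R - n • g x₀) := by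
    rw [hgy, hp', sub_smul, one_smul]
    abel
  have e2 : y - u = p + w - n • x₀ := by
    rw [hy, hp, sub_smul, one_smul]
    abel
  rw [e1, e2] at hiso
  have hnx : ‖n • x₀‖ = n := by
    rw [norm_smul, hF.unit, mul_one, Real.norm_of_nonneg hn0]
  have hny : ‖n • g x₀‖ = n := by
    rw [norm_smul, hF.y_unit, mul_one, Real.norm_of_nonneg hn0]
  have E1 := hb₁ (p + w) (p + w - n • x₀) (by
      rw [add_sub_cancel_left]
      linarith) (by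
      have e3 : p + w - n • x₀ - p = w - n • x₀ := by abel
      rw [e3]
      refine (norm_sub_le _ _).trans_lt ?_
      rw [hnx]
      linarith)
  have hnR : ‖R‖ ≤ e / 8 * (2 * ‖w‖) := hRb.trans (mul_le_mul_of_nonneg_left hn1 (by positivity))
  have hAw := hF.normA hw
  have E2 := hb₂ (p' + A w) (p' + A w + (R - n • g x₀)) (by
      rw [add_sub_cancel_left, hAw]
      nlinarith [norm_nonneg w]) (by
      have e3 : p' + A w + (R - n • g x₀) - p' = A w + (R - n • g x₀) := by abel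
      rw [e3]
      refine (norm_add_le _ _).trans_lt ?_
      have e4 : ‖R - n • g x₀‖ ≤ ‖R‖ + n := by
        refine (norm_sub_le _ _).trans ?_
        rw [hny]
      rw [hAw]
      nlinarith [norm_nonneg w])
  have e5 : p + w - n • x₀ - (p + w) = -(n • x₀) := by abel
  have e6 : p' + A w + (R - n • g x₀) - (p' + A w) = R - n • g x₀ := by abel
  rw [e5, norm_neg, hnx, map_neg, map_smul, smul_eq_mul] at E1
  rw [e6, map_sub, map_smul, smul_eq_mul, hiso] at E2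
  have hS : ‖R - n • g x₀‖ ≤ ‖R‖ + n := by
    refine (norm_sub_le _ _).trans ?_
    rw [hny]
  refine compare_arith E1 E2 hS (abs_chi_le _ _) hRb hn0 hε₁0 hε₁1 hε₁2 ?_ he
  rw [hedef]
  ring

end Compare

section RayLemma

/-- **Abstract ray lemma.** -/
theorem ray_lemma {α β : ℝ → ℝ} (hα : ContinuousOn α (Ioo 0 1)) (hβ : ContinuousOn β (Ioo 0 1))
    (hanti : ∀ τ₁ τ₂ : ℝ, 0 < τ₁ → τ₁ < τ₂ → τ₂ < 1 → α τ₂ / τ₂ < α τ₁ / τ₁)
    (h0 : Tendsto (fun τ : ℝ => (β τ - α τ) / τ) (𝓝[>] 0) (𝓝 0))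
    (h1 : Tendsto (fun τ : ℝ => (β τ - α τ) / τ) (𝓝[<] 1) (𝓝 0))
    (hloc : ∀ τ ∈ Ioo (0 : ℝ) 1, β τ < α τ → ∃ r c : ℝ, β τ = r * α τ + c * τ ∧
      ∀ᶠ τ' in 𝓝 τ, β τ' ≤ r * α τ' + c * τ') :
    ∀ τ ∈ Ioo (0 : ℝ) 1, α τ ≤ β τ := by
  intro τ₀ hτ₀
  by_contra hcon
  push Not at hcon
  obtain ⟨q, hq⟩ : ∃ q : ℝ → ℝ, q = fun τ : ℝ => (β τ - α τ) / τ := ⟨_, rfl⟩
  rw [← hq] at h0 h1
  have hqv : ∀ τ, q τ = (β τ - α τ) / τ := fun τ => by rw [hq]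
  have hq0 : q τ₀ < 0 := by
    rw [hqv]
    exact div_neg_of_neg_of_pos (by linarith) hτ₀.1
  have hqc : ContinuousOn q (Ioo 0 1) := by
    rw [hq]
    refine (hβ.sub hα).div continuousOn_id fun τ hτ => ?_
    exact hτ.1.ne'
  -- compact core
  have hev0 : ∀ᶠ τ in 𝓝[>] (0 : ℝ), q τ₀ < q τ := h0.eventually (lt_mem_nhds hq0)
  have hev1 : ∀ᶠ τ in 𝓝[<] (1 : ℝ), q τ₀ < q τ := h1.eventually (lt_mem_nhds hq0)
  obtain ⟨a₀, ha₀, ha₁⟩ := (mem_nhdsGT_iff_exists_Ioo_subset.1 hev0)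
  obtain ⟨b₀, hb₀, hb₁⟩ := (mem_nhdsLT_iff_exists_Ioo_subset.1 hev1)
  obtain ⟨a, ha⟩ : ∃ a, a = min τ₀ (a₀ / 2) := ⟨_, rfl⟩
  obtain ⟨b, hb⟩ : ∃ b, b = max τ₀ ((1 + b₀) / 2) := ⟨_, rfl⟩
  have ha₀' : 0 < a₀ := ha₀
  have hb₀' : b₀ < 1 := hb₀
  have hapos : 0 < a := by
    rw [ha]
    exact lt_min hτ₀.1 (by positivity)
  have haτ : a ≤ τ₀ := ha ▸ min_le_left _ _
  have haa : a < a₀ := by
    have : a ≤ a₀ / 2 := ha ▸ min_le_right _ _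
    linarith
  have hτb : τ₀ ≤ b := hb ▸ le_max_left _ _
  have hb1 : b < 1 := by
    rw [hb]
    exact max_lt hτ₀.2 (by linarith)
  have hbb : b₀ < b := by
    have : (1 + b₀) / 2 ≤ b := hb ▸ le_max_right _ _
    linarith
  have hsub : Icc a b ⊆ Ioo 0 1 := fun τ hτ => ⟨hapos.trans_le hτ.1, hτ.2.trans_lt hb1⟩
  have hne : (Icc a b).Nonempty := ⟨τ₀, haτ, hτb⟩
  obtain ⟨τs, hτs, hmin⟩ := isCompact_Icc.exists_isMinOn hne (hqc.mono hsub)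
  have hmin' : ∀ τ ∈ Icc a b, q τs ≤ q τ := fun τ hτ => hmin hτ
  obtain ⟨v, hv⟩ : ∃ v, v = q τs := ⟨_, rfl⟩
  have hvτ₀ : v ≤ q τ₀ := by
    rw [hv]
    exact hmin' τ₀ ⟨haτ, hτb⟩
  have hvneg : v < 0 := hvτ₀.trans_lt hq0
  -- outside the core `q` is larger
  have hout : ∀ τ ∈ Ioo (0 : ℝ) 1, q τ = v → τ ∈ Icc a b := by
    intro τ hτ hqτ
    constructor
    · by_contra hc
      push Not at hc
      have := ha₁ (show τ ∈ Ioo 0 a₀ from ⟨hτ.1, hc.trans haa⟩)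
      have h3 : q τ₀ < q τ := this
      linarith
    · by_contra hc
      push Not at hc
      have := hb₁ (show τ ∈ Ioo b₀ 1 from ⟨hbb.trans hc, hτ.2⟩)
      have h3 : q τ₀ < q τ := this
      linarith
  have hge : ∀ τ ∈ Ioo (0 : ℝ) 1, v ≤ q τ := by
    intro τ hτ
    by_cases hI : τ ∈ Icc a b
    · rw [hv]
      exact hmin' τ hI
    · by_contra hc
      push Not at hc
      rw [mem_Icc] at hI
      push Not at hI
      by_cases hτa : a ≤ τ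
      · have := hb₁ (show τ ∈ Ioo b₀ 1 from ⟨hbb.trans (hI hτa), hτ.2⟩)
        have h3 : q τ₀ < q τ := this
        linarith
      · push Not at hτa
        have := ha₁ (show τ ∈ Ioo 0 a₀ from ⟨hτ.1, hτa.trans haa⟩)
        have h3 : q τ₀ < q τ := this
        linarith
  -- the least point of the minimum set
  let M : Set ℝ := Icc a b ∩ {τ | q τ = v}
  have hMc : IsCompact M := by
    have h3 : M = Icc a b ∩ (q ⁻¹' {v}) := rfl
    rw [h3]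
    exact isCompact_Icc.of_isClosed_subset
      ((hqc.mono hsub).preimage_isClosed_of_isClosed isClosed_Icc isClosed_singleton)
      inter_subset_left
  have hMne : M.Nonempty := ⟨τs, hτs, hv.symm⟩
  obtain ⟨τ₂, hτ₂, hleast⟩ : ∃ τ₂ ∈ M, ∀ τ ∈ M, τ₂ ≤ τ := by
    obtain ⟨τ₂, hτ₂, hl⟩ := hMc.exists_isMinOn hMne (continuousOn_id)
    exact ⟨τ₂, hτ₂, fun τ hτ => hl hτ⟩
  have hτ₂I : τ₂ ∈ Ioo (0 : ℝ) 1 := hsub hτ₂.1
  have hqτ₂ : q τ₂ = v := hτ₂.2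
  have hlt : β τ₂ < α τ₂ := by
    rw [hqv] at hqτ₂
    have h3 : (β τ₂ - α τ₂) / τ₂ < 0 := by rw [hqτ₂]; exact hvneg
    by_contra hc
    push Not at hc
    have h4 : 0 ≤ (β τ₂ - α τ₂) / τ₂ := div_nonneg (by linarith) hτ₂I.1.le
    linarith
  obtain ⟨r, c, hrc, hev⟩ := hloc τ₂ hτ₂I hlt
  have hform : ∀ τ : ℝ, 0 < τ → β τ ≤ r * α τ + c * τ → q τ ≤ (r - 1) * (α τ / τ) + c := by
    intro τ hτ hle
    rw [hqv, div_le_iff₀ hτ]
    have e : ((r - 1) * (α τ / τ) + c) * τ = (r - 1) * α τ + c * τ := by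
      field_simp
    rw [e]
    linarith
  have hval : v = (r - 1) * (α τ₂ / τ₂) + c := by
    have hτne : τ₂ ≠ 0 := hτ₂I.1.ne'
    rw [← hqτ₂, hqv, hrc]
    field_simp
    ring
  have hnear : ∀ᶠ τ in 𝓝 τ₂, τ ∈ Ioo (0 : ℝ) 1 ∧ β τ ≤ r * α τ + c * τ :=
    Filter.Eventually.and (isOpen_Ioo.mem_nhds hτ₂I) hev
  obtain ⟨ε, hε, hball⟩ := Metric.eventually_nhds_iff.1 hnear
  obtain ⟨h1a, h1b⟩ := @hball (τ₂ - ε / 2) (by
    rw [Real.dist_eq, abs_lt]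
    constructor <;> linarith)
  obtain ⟨h3a, h3b⟩ := @hball (τ₂ + ε / 2) (by
    rw [Real.dist_eq, abs_lt]
    constructor <;> linarith)
  have hq1 := hform _ h1a.1 h1b
  have hq3 := hform _ h3a.1 h3b
  have hg1 := hge _ h1a
  have hg3 := hge _ h3a
  have ha1 := hanti (τ₂ - ε / 2) τ₂ h1a.1 (by linarith) hτ₂I.2
  have ha3 := hanti τ₂ (τ₂ + ε / 2) hτ₂I.1 (by linarith) h3a.2
  have hr1 : r = 1 := by
    apply le_antisymm
    · by_contra hc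
      push Not at hc
      have : (r - 1) * (α (τ₂ + ε / 2) / (τ₂ + ε / 2)) < (r - 1) * (α τ₂ / τ₂) :=
        mul_lt_mul_of_pos_left ha3 (by linarith)
      linarith
    · by_contra hc
      push Not at hc
      have : (r - 1) * (α (τ₂ - ε / 2) / (τ₂ - ε / 2)) < (r - 1) * (α τ₂ / τ₂) :=
        mul_lt_mul_of_neg_left ha1 (by linarith)
      linarith
  have hfin : q (τ₂ - ε / 2) = v := by
    refine le_antisymm ?_ hg1
    rw [hr1] at hq1 hval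
    linarith
  have hmem := hleast (τ₂ - ε / 2) ⟨hout _ h1a hfin, hfin⟩
  linarith

end RayLemma

end Vale.Agent.Lib.P084.Str
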