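import Mathlib
import Vale.Agent.Lib.P084.Str.Compare

/-! The minimisation problem along a ray of functionals. -/

namespace Vale.Agent.Lib.P084.Str

open Set Metric Filter Topology
open Vale.Agent.Lib.P084

section RayE

variable {E : Type*} [NormedAddCommGroup E] [NormedSpace ℝ E] [FiniteDimensional ℝ E]
  [StrictConvexSpace ℝ E]

/-- The trivial minimiser. -/
lemma isMin_zero (hs : Smooth E) {x₀ : E} (hx₀ : ‖x₀‖ = 1) : IsMin x₀ 0 x₀ 1 := by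
  have hx0 : x₀ ≠ 0 := by
    rintro rfl
    simp at hx₀
  exact ⟨by rw [hs.chi_self hx0, hx₀], by simp⟩

variable {x₀ : E} {ξ₁ : StrongDual ℝ E} {y : ℝ → E} {α : ℝ → ℝ}

/-- Continuity of the minimiser along a ray. -/
lemma ray_tendsto (hs : Smooth E) (hm : ∀ τ ∈ Ioo (0 : ℝ) 1, IsMin x₀ (τ • ξ₁) (y τ) (α τ))
    {τ : ℝ} (hτ : τ ∈ Ioo (0 : ℝ) 1) : Tendsto y (𝓝 τ) (𝓝 (y τ)) := by
  rw [Metric.tendsto_nhds]
  intro δ hδ
  obtain ⟨η, hη, hb⟩ := (hm τ hτ).close hs hδ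
  have hcont : Continuous fun s : ℝ => ‖s • ξ₁ - τ • ξ₁‖ := by fun_prop
  have h0 : (fun s : ℝ => ‖s • ξ₁ - τ • ξ₁‖) τ < η := by simpa using hη
  filter_upwards [hcont.continuousAt.eventually (gt_mem_nhds h0), isOpen_Ioo.mem_nhds hτ]
    with s h1 h2
  rw [dist_eq_norm]
  exact hb _ _ _ h1 (hm s h2)

/-- Continuity of the value along a ray. -/
lemma ray_cont (hs : Smooth E) (hm : ∀ τ ∈ Ioo (0 : ℝ) 1, IsMin x₀ (τ • ξ₁) (y τ) (α τ)) :
    ContinuousOn α (Ioo 0 1) := by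
  intro τ hτ
  refine ContinuousAt.continuousWithinAt ?_
  have h1 := ray_tendsto hs hm hτ
  have h2 : ContinuousAt (fun s : ℝ => ‖y s‖ - s * ξ₁ (y s)) τ := by
    have h3 : ContinuousAt y τ := h1
    have h4 : ContinuousAt (fun s : ℝ => ξ₁ (y s)) τ := ξ₁.continuous.continuousAt.comp h3
    exact h3.norm.sub (continuousAt_id.mul h4)
  refine h2.congr ?_
  filter_upwards [isOpen_Ioo.mem_nhds hτ] with s hsI
  have := (hm s hsI).val hs
  simpa using this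

omit [FiniteDimensional ℝ E] [StrictConvexSpace ℝ E] in
/-- `α / τ` is strictly decreasing. -/
lemma ray_anti (hs : Smooth E) (hm : ∀ τ ∈ Ioo (0 : ℝ) 1, IsMin x₀ (τ • ξ₁) (y τ) (α τ))
    (τ₁ τ₂ : ℝ) (h1 : 0 < τ₁) (h2 : τ₁ < τ₂) (h3 : τ₂ < 1) : α τ₂ / τ₂ < α τ₁ / τ₁ := by
  have hτ₁ : τ₁ ∈ Ioo (0 : ℝ) 1 := ⟨h1, h2.trans h3⟩
  have hτ₂ : τ₂ ∈ Ioo (0 : ℝ) 1 := ⟨h1.trans h2, h3⟩
  have h4 := (hm τ₂ hτ₂).le (hm τ₁ hτ₁).aff
  have h5 := (hm τ₁ hτ₁).val hs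
  have h6 : 0 < ‖y τ₁‖ := norm_pos_iff.2 (hm τ₁ hτ₁).ne_zero
  have h0 : 0 < τ₂ := h1.trans h2
  simp only [_root_.smul_apply, smul_eq_mul] at h4 h5
  rw [div_lt_div_iff₀ h0 h1]
  have h7 : τ₁ * ‖y τ₁‖ < τ₂ * ‖y τ₁‖ := mul_lt_mul_of_pos_right h2 h6
  rw [← h5]
  nlinarith

/-- Behaviour of the value at the origin of the ray. -/
lemma ray_limit_zero (hs : Smooth E) (hx₀ : ‖x₀‖ = 1) (hξ : ξ₁ x₀ = 0)
    (hm : ∀ τ ∈ Ioo (0 : ℝ) 1, IsMin x₀ (τ • ξ₁) (y τ) (α τ)) :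
    Tendsto (fun τ : ℝ => (α τ - 1) / τ) (𝓝[>] 0) (𝓝 0) := by
  rw [Metric.tendsto_nhds]
  intro ε hε
  obtain ⟨η, hη, hb⟩ := (isMin_zero hs hx₀).close hs (δ := ε / (‖ξ₁‖ + 1)) (by positivity)
  have h1 : ∀ᶠ τ in 𝓝[>] (0 : ℝ), τ < min 1 (η / (‖ξ₁‖ + 1)) := by
    refine nhdsWithin_le_nhds (gt_mem_nhds ?_)
    positivity
  filter_upwards [h1, self_mem_nhdsWithin] with τ hτ1 hτ0
  have hτ0' : 0 < τ := hτ0
  have hτI : τ ∈ Ioo (0 : ℝ) 1 := ⟨hτ0', hτ1.trans_le (min_le_left _ _)⟩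
  have hτ2 : τ * (‖ξ₁‖ + 1) < η := by
    have := hτ1.trans_le (min_le_right _ _)
    rwa [lt_div_iff₀ (by positivity)] at this
  have hm1 := hm τ hτI
  have hclose : ‖y τ - x₀‖ < ε / (‖ξ₁‖ + 1) := by
    refine hb (τ • ξ₁) _ _ ?_ hm1
    rw [sub_zero, norm_smul, Real.norm_of_nonneg hτ0'.le]
    nlinarith [norm_nonneg ξ₁]
  have h2 := hm1.le (v := x₀) (by
    have hx0 : x₀ ≠ 0 := by
      rintro rfl
      simp at hx₀
    rw [hs.chi_self hx0, hx₀])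
  simp only [_root_.smul_apply, smul_eq_mul, hξ, mul_zero, sub_zero, hx₀] at h2
  have h3 := hm1.val hs
  simp only [_root_.smul_apply, smul_eq_mul] at h3
  have h4 : chi x₀ (y τ) ≤ ‖y τ‖ := chi_le _ _
  rw [hm1.aff] at h4
  have h5 : ξ₁ (y τ) = ξ₁ (y τ - x₀) := by
    rw [map_sub, hξ, sub_zero]
  have h6 : |ξ₁ (y τ - x₀)| < ε := by
    have h7 := ξ₁.le_opNorm (y τ - x₀)
    rw [Real.norm_eq_abs] at h7
    refine h7.trans_lt ?_
    have h8 : ‖y τ - x₀‖ * (‖ξ₁‖ + 1) < ε := by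
      rwa [lt_div_iff₀ (by positivity)] at hclose
    nlinarith [norm_nonneg ξ₁, norm_nonneg (y τ - x₀)]
  rw [Real.dist_eq, sub_zero, abs_lt]
  have h9 := abs_lt.1 h6
  rw [h5] at h3
  have h10 : -(τ * ε) < α τ - 1 := by nlinarith [h9.2]
  have h11 : α τ - 1 ≤ 0 := by linarith
  constructor
  · rw [lt_div_iff₀ hτ0']
    linarith
  · exact (div_nonpos_of_nonpos_of_nonneg h11 hτ0'.le).trans_lt hε

/-- Behaviour of the value at the far end of the ray. -/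
lemma ray_limit_one (hs : Smooth E) {k : E} (hk : ‖k‖ = 1) (hk0 : chi x₀ k = 0)
    (hxk : ξ₁ k = 1) (hξ : ξ₁ x₀ = 0) (hx₀ : ‖x₀‖ = 1)
    (hm : ∀ τ ∈ Ioo (0 : ℝ) 1, IsMin x₀ (τ • ξ₁) (y τ) (α τ)) :
    Tendsto α (𝓝[<] 1) (𝓝 (chi k x₀)) := by
  have hx0 : x₀ ≠ 0 := by
    rintro rfl
    simp at hx₀
  have hk00 : k ≠ 0 := by
    rintro rfl
    simp at hk
  have hself : chi x₀ x₀ = 1 := by rw [hs.chi_self hx0, hx₀]
  rw [Metric.tendsto_nhds]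
  intro ε hε
  obtain ⟨δ, hδ, hb⟩ := hs.strict_est hk00 (ε := ε / 3) (by positivity)
  obtain ⟨r, hr⟩ : ∃ r, r = δ / 2 := ⟨_, rfl⟩
  have hr0 : 0 < r := by
    rw [hr]
    positivity
  have hrδ : r < δ := by
    rw [hr]
    linarith
  have hnr : ‖r • x₀‖ = r := by
    rw [norm_smul, hx₀, mul_one, Real.norm_of_nonneg hr0.le]
  have E1 := hb k (k + r • x₀) (by simpa using hδ) (by
    rw [add_sub_cancel_left, hnr]
    exact hrδ)
  have E2 := hb k (k - r • x₀) (by simpa using hδ) (by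
    rw [sub_sub_cancel_left, norm_neg, hnr]
    exact hrδ)
  rw [add_sub_cancel_left, hnr, map_smul, smul_eq_mul, hk] at E1
  rw [sub_sub_cancel_left, norm_neg, hnr, map_neg, map_smul, smul_eq_mul, hk] at E2
  obtain ⟨s, hsdef⟩ : ∃ s, s = r⁻¹ := ⟨_, rfl⟩
  have hs0 : 0 < s := by
    rw [hsdef]
    positivity
  have hsr : s * r = 1 := by
    rw [hsdef]
    field_simp
  have en1 : ‖x₀ + s • k‖ = s * ‖k + r • x₀‖ := by
    have e : x₀ + s • k = s • (k + r • x₀) := by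
      rw [smul_add, smul_smul, hsr, one_smul, add_comm]
    rw [e, norm_smul, Real.norm_of_nonneg hs0.le]
  have en2 : ‖s • k - x₀‖ = s * ‖k - r • x₀‖ := by
    have e : s • k - x₀ = s • (k - r • x₀) := by
      rw [smul_sub, smul_smul, hsr, one_smul]
    rw [e, norm_smul, Real.norm_of_nonneg hs0.le]
  have U : ‖x₀ + s • k‖ - s ≤ chi k x₀ + ε / 3 := by
    rw [en1]
    have h1 := (abs_le.1 E1).2
    have h2 : s * (‖k + r • x₀‖ - 1 - r * chi k x₀) ≤ s * (ε / 3 * r) :=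
      mul_le_mul_of_nonneg_left h1 hs0.le
    have h3 : s * (ε / 3 * r) = ε / 3 := by
      rw [mul_comm (ε / 3), ← mul_assoc, hsr, one_mul]
    have h4 : s * (r * chi k x₀) = chi k x₀ := by
      rw [← mul_assoc, hsr, one_mul]
    nlinarith
  have L : chi k x₀ - ε / 3 ≤ s - ‖s • k - x₀‖ := by
    rw [en2]
    have h1 := (abs_le.1 E2).2
    have h2 : s * (‖k - r • x₀‖ - 1 - -(r * chi k x₀)) ≤ s * (ε / 3 * r) :=
      mul_le_mul_of_nonneg_left h1 hs0.le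
    have h3 : s * (ε / 3 * r) = ε / 3 := by
      rw [mul_comm (ε / 3), ← mul_assoc, hsr, one_mul]
    have h4 : s * (r * chi k x₀) = chi k x₀ := by
      rw [← mul_assoc, hsr, one_mul]
    nlinarith
  have hnear : ∀ᶠ τ in 𝓝[<] (1 : ℝ), 1 - ε / (3 * s) < τ := by
    refine nhdsWithin_le_nhds (lt_mem_nhds ?_)
    have : 0 < ε / (3 * s) := by positivity
    linarith
  have hpos : ∀ᶠ τ in 𝓝[<] (1 : ℝ), 0 < τ := nhdsWithin_le_nhds (lt_mem_nhds one_pos)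
  filter_upwards [hnear, hpos, self_mem_nhdsWithin] with τ h1 h2 h3
  have hτI : τ ∈ Ioo (0 : ℝ) 1 := ⟨h2, h3⟩
  have hτ1 : τ < 1 := h3
  have hm1 := hm τ hτI
  have h4 := hm1.le (v := x₀ + s • k) (by rw [map_add, map_smul, hk0, hself]; simp)
  have h5 := hm1.dual (s • k - x₀)
  simp only [_root_.smul_apply, smul_eq_mul, map_add, map_sub, map_smul, hξ, hxk, hk0, hself,
    mul_zero, mul_one, zero_add, sub_zero, add_zero, zero_sub] at h4 h5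
  have h6 : (1 - τ) * s < ε / 3 := by
    have h7 : 1 - τ < ε / (3 * s) := by linarith
    rw [lt_div_iff₀ (by positivity)] at h7
    nlinarith
  rw [Real.dist_eq, abs_lt]
  constructor <;> nlinarith

end RayE

end Vale.Agent.Lib.P084.Str
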