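import Mathlib
import Vale.Agent.Lib.P084.Str.Ray

/-! The exact first order relation along all chords from a second order base point. -/

namespace Vale.Agent.Lib.P084.Str

open Set Metric Filter Topology
open Vale.Agent.Lib.P084

section Exact

variable {X Y : Type*} [NormedAddCommGroup X] [NormedSpace ℝ X]
  [NormedAddCommGroup Y] [NormedSpace ℝ Y] {g : X → Y} {h : Y → X} {x₀ : X} {A : X →L[ℝ] Y}
  {Λ : Y →L[ℝ] X} [FiniteDimensional ℝ X] [FiniteDimensional ℝ Y] [StrictConvexSpace ℝ X]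
  [StrictConvexSpace ℝ Y]

/-- Test point argument for the local inequality. -/
lemma ray_test (B : FirstData g h x₀ A Λ) {ξ₁ : StrongDual ℝ X} {τ' t t₂ β' : ℝ} {y' y₁ : X}
    {y₂ y₂' : Y} (ht₂ : 0 < t₂) (hyaff : chi x₀ y' = 1) (hy₁aff : chi x₀ y₁ = 1)
    (hy₂aff : chi (g x₀) y₂ = 1)
    (hm : IsMin (g x₀) (τ' • ξ₁.comp Λ) y₂' β')
    (hcmp : ‖t₂ • y₂ + A (t • (y' - y₁))‖ ≤ ‖t • y₁ + t • (y' - y₁)‖) (ht : 0 < t) :
    β' ≤ t / t₂ * (‖y'‖ - τ' * ξ₁ y') + (t / t₂ * ξ₁ y₁ - ξ₁ (Λ y₂)) * τ' := by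
  obtain ⟨w, hw⟩ : ∃ w, w = t • (y' - y₁) := ⟨_, rfl⟩
  rw [← hw] at hcmp
  have hw0 : chi x₀ w = 0 := by
    rw [hw, map_smul, map_sub, hyaff, hy₁aff]
    simp
  have h1 : t • y₁ + w = t • y' := by
    rw [hw, smul_sub]
    abel
  rw [h1, norm_smul, Real.norm_of_nonneg ht.le] at hcmp
  obtain ⟨v, hv⟩ : ∃ v, v = y₂ + t₂⁻¹ • A w := ⟨_, rfl⟩
  have hvaff : chi (g x₀) v = 1 := by
    rw [hv, map_add, map_smul, B.Phi, hw0, hy₂aff]
    simp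
  have h2 := hm.le hvaff
  have h3 : t₂ • v = t₂ • y₂ + A w := by
    rw [hv, smul_add, smul_smul, mul_inv_cancel₀ ht₂.ne', one_smul]
  have h4 : ‖v‖ * t₂ ≤ t * ‖y'‖ := by
    have := hcmp
    rw [← h3, norm_smul, Real.norm_of_nonneg ht₂.le, mul_comm] at this
    exact this
  have h5 : ‖v‖ ≤ t / t₂ * ‖y'‖ := by
    rw [div_mul_eq_mul_div, le_div_iff₀ ht₂]
    exact h4
  have h6 : (τ' • ξ₁.comp Λ) v = τ' * (ξ₁ (Λ y₂) + t / t₂ * (ξ₁ y' - ξ₁ y₁)) := by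
    simp only [_root_.smul_apply, ContinuousLinearMap.comp_apply, smul_eq_mul]
    rw [hv, map_add, map_smul, B.left, map_add, map_smul, hw, map_smul, map_sub, smul_eq_mul,
      smul_eq_mul]
    field_simp
  rw [h6] at h2
  nlinarith

/-- The local inequality at a point of the ray where the second value is smaller. -/
lemma ray_loc (B : Base g h x₀ A Λ) {ξ₁ : StrongDual ℝ X} (hξ : ξ₁ x₀ = 0) {y : ℝ → X}
    {y' : ℝ → Y} {α β : ℝ → ℝ}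
    (hm : ∀ τ ∈ Ioo (0 : ℝ) 1, IsMin x₀ (τ • ξ₁) (y τ) (α τ))
    (hm' : ∀ τ ∈ Ioo (0 : ℝ) 1, IsMin (g x₀) (τ • ξ₁.comp Λ) (y' τ) (β τ))
    {τ : ℝ} (hτ : τ ∈ Ioo (0 : ℝ) 1) (hlt : β τ < α τ) :
    ∃ r c : ℝ, β τ = r * α τ + c * τ ∧ ∀ᶠ τ' in 𝓝 τ, β τ' ≤ r * α τ' + c * τ' := by
  have hF := B.toFirstData
  obtain ⟨t, ht, hu⟩ := exit_chord hF.smX hF.unit (hm τ hτ).aff
  obtain ⟨u, hudef⟩ : ∃ u, u = x₀ - t • y τ := ⟨_, rfl⟩
  rw [← hudef] at hu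
  have hut : x₀ - u = t • y τ := by
    rw [hudef, sub_sub_cancel]
  have hξτ : (τ • ξ₁) x₀ = 0 := by
    simp [hξ]
  obtain ⟨hne, t₂, y₂, b, ht₂, hp', hm₂, hb⟩ := isMin_chord hF hξτ (hm τ hτ) ht hu hut
  have hcomp : (τ • ξ₁).comp Λ = τ • ξ₁.comp Λ := by
    ext v
    simp
  rw [hcomp] at hm₂
  obtain ⟨hy₂, hb₂⟩ := (hm' τ hτ).uniq hF.smY hm₂
  -- the defect is negative
  have hval : chi (x₀ - u) x₀ = α τ := by
    rw [hut, chi_smul ht, (hm τ hτ).apply, hF.phi_self]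
    simp [hξ]
  have hκ : chi (g x₀ - g u) (g x₀) < chi (x₀ - u) x₀ := by
    rw [hval, hb, hb₂]
    exact hlt
  obtain ⟨δ, hδ, hcmp⟩ := comparison B hu hne hκ
  refine ⟨t / t₂, t / t₂ * ξ₁ (y τ) - ξ₁ (Λ y₂), ?_, ?_⟩
  · have h1 := (hm τ hτ).val hF.smX
    have h2 := hm₂.val hF.smY
    have h3 : ‖g x₀ - g u‖ = ‖x₀ - u‖ := hF.iso' hu
    rw [hp', hut, norm_smul, norm_smul, Real.norm_of_nonneg ht.le,
      Real.norm_of_nonneg ht₂.le] at h3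
    simp only [_root_.smul_apply, ContinuousLinearMap.comp_apply, smul_eq_mul] at h1 h2
    rw [← hb₂, ← h2, ← h1]
    have h4 : ‖y₂‖ = t / t₂ * ‖y τ‖ := by
      rw [div_mul_eq_mul_div, eq_div_iff ht₂.ne']
      linarith
    rw [h4]
    ring
  · have h1 := ray_tendsto hF.smX hm hτ
    have h2 : Tendsto (fun s : ℝ => ‖t • (y s - y τ)‖) (𝓝 τ) (𝓝 0) := by
      have h3 : Tendsto (fun s : ℝ => t • (y s - y τ)) (𝓝 τ) (𝓝 (t • (y τ - y τ))) :=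
        (h1.sub_const _).const_smul t
      rw [sub_self, smul_zero] at h3
      simpa using h3.norm
    filter_upwards [h2.eventually (gt_mem_nhds hδ), isOpen_Ioo.mem_nhds hτ] with s hs1 hs2
    have hw0 : chi x₀ (t • (y s - y τ)) = 0 := by
      rw [map_smul, map_sub, (hm s hs2).aff, (hm τ hτ).aff]
      simp
    have h3 := hcmp _ hw0 hs1
    rw [hp', hut] at h3
    have h4 := ray_test hF ht₂ (hm s hs2).aff (hm τ hτ).aff hm₂.aff (hm' s hs2) h3 ht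
    have h5 := (hm s hs2).val hF.smX
    simp only [_root_.smul_apply, smul_eq_mul] at h5
    rw [h5] at h4
    exact h4

/-- Along a ray, the value of the first problem is at most that of the second. -/
theorem ray_ge (B : Base g h x₀ A Λ) {ξ₁ : StrongDual ℝ X} (hξ : ξ₁ x₀ = 0) {k : X}
    (hk : ‖k‖ = 1) (hk0 : chi x₀ k = 0) (hxk : ξ₁ k = 1) {y : ℝ → X}
    {y' : ℝ → Y} {α β : ℝ → ℝ}
    (hm : ∀ τ ∈ Ioo (0 : ℝ) 1, IsMin x₀ (τ • ξ₁) (y τ) (α τ))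
    (hm' : ∀ τ ∈ Ioo (0 : ℝ) 1, IsMin (g x₀) (τ • ξ₁.comp Λ) (y' τ) (β τ)) :
    ∀ τ ∈ Ioo (0 : ℝ) 1, α τ ≤ β τ := by
  have hF := B.toFirstData
  have hξ' : (ξ₁.comp Λ) (g x₀) = 0 := by
    simp [hF.Lx, hξ]
  have hk00 : k ≠ 0 := by
    rintro rfl
    simp at hk
  have hAk : ‖A k‖ = 1 := by rw [hF.normA hk0, hk]
  have hAk0 : chi (g x₀) (A k) = 0 := by rw [hF.Phi, hk0]
  have hxAk : (ξ₁.comp Λ) (A k) = 1 := by
    simp [hF.left, hxk]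
  refine ray_lemma (ray_cont hF.smX hm) (ray_cont hF.smY hm') (ray_anti hF.smX hm) ?_ ?_
    (fun τ hτ hlt => ray_loc B hξ hm hm' hτ hlt)
  · have h1 := ray_limit_zero hF.smX hF.unit hξ hm
    have h2 := ray_limit_zero hF.smY hF.y_unit hξ' hm'
    have h3 := h2.sub h1
    rw [sub_self] at h3
    refine h3.congr fun τ => ?_
    ring
  · have h1 := ray_limit_one hF.smX hk hk0 hxk hξ hF.unit hm
    have h2 := ray_limit_one hF.smY hAk hAk0 hxAk hξ' hF.y_unit hm'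
    have h3 := (h2.sub h1).div (tendsto_id.mono_left nhdsWithin_le_nhds) one_ne_zero
    rw [kappa_zero B hk0 hk00, sub_self, zero_div] at h3
    exact h3

/-- Along a ray, both values coincide. -/
theorem ray_eq (B : Base g h x₀ A Λ) {ξ₁ : StrongDual ℝ X} (hξ : ξ₁ x₀ = 0) {k : X}
    (hk : ‖k‖ = 1) (hk0 : chi x₀ k = 0) (hxk : ξ₁ k = 1) {y : ℝ → X}
    {y' : ℝ → Y} {α β : ℝ → ℝ}
    (hm : ∀ τ ∈ Ioo (0 : ℝ) 1, IsMin x₀ (τ • ξ₁) (y τ) (α τ))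
    (hm' : ∀ τ ∈ Ioo (0 : ℝ) 1, IsMin (g x₀) (τ • ξ₁.comp Λ) (y' τ) (β τ)) :
    ∀ τ ∈ Ioo (0 : ℝ) 1, α τ = β τ := by
  have hF := B.toFirstData
  intro τ hτ
  refine le_antisymm (ray_ge B hξ hk hk0 hxk hm hm' τ hτ) ?_
  have hcomp : (ξ₁.comp Λ).comp A = ξ₁ := by
    ext v
    simp [hF.left]
  refine ray_ge B.symm (ξ₁ := ξ₁.comp Λ) (k := A k) (by simp [hF.Lx, hξ]) (by rw [hF.normA hk0, hk])
    (by rw [hF.Phi, hk0]) (by simp [hF.left, hxk]) (y := y') (y' := y) (α := β) (β := α) hm' ?_ τ hτ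
  intro s hs
  rw [hcomp, hF.hgx]
  exact hm s hs

end Exact

end Vale.Agent.Lib.P084.Str
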