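import Mathlib
import Vale.Agent.Lib.P084.Str.Exact

/-! From a second order base point to a linear isometry. -/

namespace Vale.Agent.Lib.P084.Str

open Set Metric Filter Topology
open Vale.Agent.Lib.P084

section Top

variable {E : Type*} [NormedAddCommGroup E] [NormedSpace ℝ E] [FiniteDimensional ℝ E]

/-- A nonzero functional vanishing at `x₀` and dominated by the norm on the tangent hyperplane is
a multiple of a gradient on the tangent hyperplane. -/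
lemma exists_top (hs : Smooth E) {x₀ : E} (hx₀ : ‖x₀‖ = 1) {ξ : StrongDual ℝ E} (hξ0 : ξ x₀ = 0)
    (hξne : ξ ≠ 0) (hstrict : ∀ k, chi x₀ k = 0 → ‖k‖ = 1 → ξ k < 1) :
    ∃ (τ : ℝ) (k : E), τ ∈ Ioo (0 : ℝ) 1 ∧ ‖k‖ = 1 ∧ chi x₀ k = 0 ∧
      ξ = τ • (chi k - chi k x₀ • chi x₀) := by
  have hx0 : x₀ ≠ 0 := by
    rintro rfl
    simp at hx₀
  have hself : chi x₀ x₀ = 1 := by rw [hs.chi_self hx0, hx₀]
  have hproj : ∀ z, chi x₀ (z - chi x₀ z • x₀) = 0 := by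
    intro z
    rw [map_sub, map_smul, hself]
    simp
  have hξproj : ∀ z, ξ (z - chi x₀ z • x₀) = ξ z := by
    intro z
    rw [map_sub, map_smul, hξ0]
    simp
  -- a tangent unit vector with `ξ > 0`
  obtain ⟨w₀, hw₀, hw₀1, hw₀pos⟩ : ∃ w₀, chi x₀ w₀ = 0 ∧ ‖w₀‖ = 1 ∧ 0 < ξ w₀ := by
    obtain ⟨z, hz⟩ : ∃ z, ξ z ≠ 0 := by
      by_contra hcon
      push Not at hcon
      exact hξne (ContinuousLinearMap.ext hcon)
    obtain ⟨w, hw⟩ : ∃ w, w = z - chi x₀ z • x₀ := ⟨_, rfl⟩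
    have hwP : chi x₀ w = 0 := by rw [hw]; exact hproj z
    have hξw : ξ w ≠ 0 := by rw [hw, hξproj]; exact hz
    have hw00 : w ≠ 0 := by
      rintro rfl
      simp at hξw
    have hwn : 0 < ‖w‖ := norm_pos_iff.2 hw00
    rcases lt_or_gt_of_ne hξw with hneg | hpos
    · refine ⟨-(‖w‖⁻¹ • w), ?_, ?_, ?_⟩
      · simp [hwP]
      · rw [norm_neg]
        exact unit_of_ne hw00
      · simp only [map_neg, map_smul, smul_eq_mul]
        have : ‖w‖⁻¹ * ξ w < 0 := mul_neg_of_pos_of_neg (by positivity) hneg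
        linarith
    · refine ⟨‖w‖⁻¹ • w, ?_, unit_of_ne hw00, ?_⟩
      · simp [hwP]
      · simp only [map_smul, smul_eq_mul]
        positivity
  -- the maximum
  let S : Set E := sphere (0 : E) 1 ∩ {v | chi x₀ v = 0}
  have hSc : IsCompact S :=
    (isCompact_sphere _ _).inter_right (isClosed_eq (chi x₀).continuous continuous_const)
  have hSne : S.Nonempty := ⟨w₀, by simpa using hw₀1, hw₀⟩
  obtain ⟨k, hkS, hmax⟩ := hSc.exists_isMaxOn hSne ξ.continuous.continuousOn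
  have hk1 : ‖k‖ = 1 := by simpa using hkS.1
  have hkP : chi x₀ k = 0 := hkS.2
  have hk0 : k ≠ 0 := by
    rintro rfl
    simp at hk1
  obtain ⟨τ, hτ⟩ : ∃ τ, τ = ξ k := ⟨_, rfl⟩
  have hτ0 : 0 < τ := by
    rw [hτ]
    refine hw₀pos.trans_le (hmax ⟨by simpa using hw₀1, hw₀⟩)
  have hτ1 : τ < 1 := by
    rw [hτ]
    exact hstrict k hkP hk1
  have hbound : ∀ w, chi x₀ w = 0 → ξ w ≤ τ * ‖w‖ := by
    intro w hw
    by_cases hw00 : w = 0
    · simp [hw00]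
    have hwn : 0 < ‖w‖ := norm_pos_iff.2 hw00
    have h1 : ξ (‖w‖⁻¹ • w) ≤ ξ k := hmax ⟨by simpa using unit_of_ne hw00, by simp [hw]⟩
    rw [map_smul, smul_eq_mul, inv_mul_le_iff₀ hwn, ← hτ] at h1
    linarith
  have hfirst : ∀ w, chi x₀ w = 0 → ξ w = τ * chi k w := by
    intro w hw
    have hl : HasDerivAt (fun s : ℝ => k + s • w) w 0 := by
      simpa using ((hasDerivAt_id (0 : ℝ)).smul_const w).const_add k
    have hn : HasDerivAt (fun s : ℝ => ‖k + s • w‖) (chi k w) 0 :=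
      HasFDerivAt.comp_hasDerivAt_of_eq (0 : ℝ) (hs.hasFDerivAt hk0) hl (by simp)
    have hxi : HasDerivAt (fun s : ℝ => ξ (k + s • w)) (ξ w) 0 :=
      ξ.hasFDerivAt.comp_hasDerivAt (0 : ℝ) hl
    have hd := (hn.const_mul τ).fun_sub hxi
    have hlm : IsLocalMin (fun s : ℝ => τ * ‖k + s • w‖ - ξ (k + s • w)) 0 := by
      refine Filter.Eventually.of_forall fun s => ?_
      have h1 := hbound (k + s • w) (by rw [map_add, map_smul, hkP, hw]; simp)
      simp only [zero_smul, add_zero, hk1, mul_one, ← hτ, sub_self]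
      linarith
    have h0 := hlm.hasDerivAt_eq_zero hd
    linarith
  refine ⟨τ, k, ⟨hτ0, hτ1⟩, hk1, hkP, ?_⟩
  ext z
  have h1 := hfirst _ (hproj z)
  rw [hξproj, map_sub, map_smul, smul_eq_mul] at h1
  rw [h1]
  simp only [_root_.smul_apply, _root_.sub_apply, smul_eq_mul]
  ring

end Top

section Final

variable {X Y : Type*} [NormedAddCommGroup X] [NormedSpace ℝ X]
  [NormedAddCommGroup Y] [NormedSpace ℝ Y] {g : X → Y} {h : Y → X} {x₀ : X} {A : X →L[ℝ] Y}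
  {Λ : Y →L[ℝ] X} [FiniteDimensional ℝ X] [FiniteDimensional ℝ Y] [StrictConvexSpace ℝ X]
  [StrictConvexSpace ℝ Y]

/-- Families of minimisers along a ray. -/
lemma exists_families (B : FirstData g h x₀ A Λ) {ξ₁ : StrongDual ℝ X} (hξ : ξ₁ x₀ = 0)
    (hb : ∀ w, chi x₀ w = 0 → ξ₁ w ≤ ‖w‖) :
    ∃ (y : ℝ → X) (y' : ℝ → Y) (α β : ℝ → ℝ),
      (∀ τ ∈ Ioo (0 : ℝ) 1, IsMin x₀ (τ • ξ₁) (y τ) (α τ)) ∧
      (∀ τ ∈ Ioo (0 : ℝ) 1, IsMin (g x₀) (τ • ξ₁.comp Λ) (y' τ) (β τ)) := by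
  have hex : ∀ τ : ℝ, ∃ q : X × Y × ℝ × ℝ, τ ∈ Ioo (0 : ℝ) 1 →
      IsMin x₀ (τ • ξ₁) q.1 q.2.2.1 ∧ IsMin (g x₀) (τ • ξ₁.comp Λ) q.2.1 q.2.2.2 := by
    intro τ
    by_cases hτ : τ ∈ Ioo (0 : ℝ) 1
    · have hξτ : (τ • ξ₁) x₀ = 0 := by simp [hξ]
      obtain ⟨y, a, hm⟩ := exists_isMin B.smX B.unit hξτ hτ.2 (fun w hw => by
        simp only [_root_.smul_apply, smul_eq_mul]
        exact mul_le_mul_of_nonneg_left (hb w hw) hτ.1.le)
      obtain ⟨t, ht, hu⟩ := exit_chord B.smX B.unit hm.aff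
      obtain ⟨_, t₂, y₂, b, _, _, hm₂, _⟩ := isMin_chord B hξτ hm ht hu (by rw [sub_sub_cancel])
      have hcomp : (τ • ξ₁).comp Λ = τ • ξ₁.comp Λ := by
        ext v
        simp
      rw [hcomp] at hm₂
      exact ⟨⟨y, y₂, a, b⟩, fun _ => ⟨hm, hm₂⟩⟩
    · exact ⟨⟨0, 0, 0, 0⟩, fun h' => absurd h' hτ⟩
  choose q hq using hex
  exact ⟨fun τ => (q τ).1, fun τ => (q τ).2.1, fun τ => (q τ).2.2.1, fun τ => (q τ).2.2.2,
    fun τ hτ => (hq τ hτ).1, fun τ hτ => (hq τ hτ).2⟩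

/-- The two values coincide at the point of a ray. -/
lemma value_eq (B : Base g h x₀ A Λ) {ξ₁ : StrongDual ℝ X} (hξ : ξ₁ x₀ = 0) {k : X}
    (hk : ‖k‖ = 1) (hk0 : chi x₀ k = 0) (hxk : ξ₁ k = 1) (hb : ∀ w, chi x₀ w = 0 → ξ₁ w ≤ ‖w‖)
    {τ : ℝ} (hτ : τ ∈ Ioo (0 : ℝ) 1) {y : X} {a : ℝ} {y₂ : Y} {b : ℝ}
    (h1 : IsMin x₀ (τ • ξ₁) y a) (h2 : IsMin (g x₀) (τ • ξ₁.comp Λ) y₂ b) : a = b := by
  have hF := B.toFirstData
  obtain ⟨yf, yf', α, β, hm, hm'⟩ := exists_families hF hξ hb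
  have h3 := ray_eq B hξ hk hk0 hxk hm hm' τ hτ
  rw [((hm τ hτ).uniq hF.smX h1).2, ((hm' τ hτ).uniq hF.smY h2).2, h3]

/-- **Exact relation along all chords from a base point.** -/
theorem exact_of_base (B : Base g h x₀ A Λ) {u : X} (hu : ‖u‖ = 1) (hne : u ≠ x₀) (z : X) :
    chi (g x₀ - g u) (A z) = chi (x₀ - u) z := by
  have hF := B.toFirstData
  obtain ⟨p, hp⟩ : ∃ p, p = x₀ - u := ⟨_, rfl⟩
  have hp0 : p ≠ 0 := by
    rw [hp]
    exact sub_ne_zero.2 hne.symm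
  have hφp : 0 < chi x₀ p := by
    have := chi_lt_one hF.smX hF.unit hu hne
    rw [hp, map_sub, hF.phi_self]
    linarith
  obtain ⟨a, ha⟩ : ∃ a, a = chi p x₀ := ⟨_, rfl⟩
  obtain ⟨ξ, hξdef⟩ : ∃ ξ, ξ = chi p - a • chi x₀ := ⟨_, rfl⟩
  have hξ0 : ξ x₀ = 0 := by
    rw [hξdef]
    simp [hF.phi_self, ha]
  have hm : IsMin x₀ ξ ((chi x₀ p)⁻¹ • p) a := by
    refine ⟨by rw [map_smul, smul_eq_mul, inv_mul_cancel₀ hφp.ne'], ?_⟩
    rw [chi_smul (inv_pos.2 hφp), hξdef]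
    simp
  obtain ⟨_, t₂, y₂, b, _, _, hm₂, hb⟩ := isMin_chord hF hξ0 hm hφp hu (by
    rw [smul_smul, mul_inv_cancel₀ hφp.ne', one_smul, hp])
  have hab : a = b := by
    by_cases hξne : ξ = 0
    · rw [hξne] at hm hm₂
      have h1 := ((isMin_zero hF.smX hF.unit).uniq hF.smX hm).2
      have h2 : IsMin (g x₀) 0 y₂ b := by simpa using hm₂
      have h3 := ((isMin_zero hF.smY hF.y_unit).uniq hF.smY h2).2
      rw [h1, h3]
    · have hstrict : ∀ k, chi x₀ k = 0 → ‖k‖ = 1 → ξ k < 1 := by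
        intro k hk hk1
        have hk00 : k ≠ 0 := by
          rintro rfl
          simp at hk1
        have h1 : ξ k = chi p k := by
          rw [hξdef]
          simp [hk]
        rw [h1]
        refine lt_of_le_of_ne ?_ fun hc => ?_
        · have := chi_le p k
          rwa [hk1] at this
        · have h2 := ray_of_chi hF.smX hp0 hk00 (by rw [hc, hk1])
          have h3 := congrArg (chi x₀) h2
          rw [map_smul, hk, smul_eq_mul, hk1] at h3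
          have h4 : 0 < 1 / ‖p‖ * chi x₀ p := by
            have : 0 < ‖p‖ := norm_pos_iff.2 hp0
            positivity
          linarith
      obtain ⟨τ, k, hτ, hk1, hkP, hform⟩ := exists_top hF.smX hF.unit hξ0 hξne hstrict
      have hk00 : k ≠ 0 := by
        rintro rfl
        simp at hk1
      obtain ⟨ξ₁, hξ₁⟩ : ∃ ξ₁, ξ₁ = chi k - chi k x₀ • chi x₀ := ⟨_, rfl⟩
      rw [← hξ₁] at hform
      rw [hform] at hm hm₂
      have hcomp : (τ • ξ₁).comp Λ = τ • ξ₁.comp Λ := by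
        ext v
        simp
      rw [hcomp] at hm₂
      refine value_eq B (ξ₁ := ξ₁) (k := k) ?_ hk1 hkP ?_ ?_ hτ hm hm₂
      · rw [hξ₁]
        simp [hF.phi_self]
      · rw [hξ₁]
        simp [hkP, hF.smX.chi_self hk00, hk1]
      · intro w hw
        rw [hξ₁]
        simp only [_root_.sub_apply, _root_.smul_apply, hw, smul_eq_mul, mul_zero, sub_zero]
        exact chi_le k w
  have hw : chi x₀ (z - chi x₀ z • x₀) = 0 := by
    rw [map_sub, map_smul, hF.phi_self]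
    simp
  have h1 := hF.chord hu hne hw
  have e1 : A (z - chi x₀ z • x₀) = A z - chi x₀ z • g x₀ := by
    rw [map_sub, map_smul, hF.Ax]
  rw [e1, map_sub, map_smul, map_sub, map_smul, hb, ← hp, ← ha, ← hab, smul_eq_mul] at h1
  rw [← hp]
  linarith

/-- **From a base point to a linear isometry.** -/
theorem linear_of_base (B : Base g h x₀ A Λ) : ∃ T : X ≃ₗᵢ[ℝ] Y, ∀ x, ‖x‖ = 1 → T x = g x := by
  have hF := B.toFirstData
  have : Nontrivial X := ⟨⟨x₀, 0, hF.x0_ne⟩⟩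
  have hL : ∀ u φ Φ, Far.IsChord g x₀ u φ Φ → ∀ z, Φ (A z) = φ z := by
    intro u φ Φ hc z
    have hne : u ≠ x₀ := by
      rintro rfl
      have h1 := hc.mid
      rw [← two_smul ℝ, norm_smul, hF.unit] at h1
      norm_num at h1
    have hp0 : x₀ - u ≠ 0 := sub_ne_zero.2 hne.symm
    have hp'0 : g x₀ - g u ≠ 0 := by
      rw [← norm_ne_zero_iff, hF.iso' hc.unit, norm_ne_zero_iff]
      exact hp0
    rw [← hF.smX.chi_eq hp0 hc.φle hc.φval, ← hF.smY.chi_eq hp'0 hc.Φle hc.Φval]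
    exact exact_of_base B hc.unit hne z
  have hsurj : Function.Surjective A := fun y => ⟨Λ y, hF.right y⟩
  have hE := Far.dense_goodDir_of_strictConvex (X := X)
  refine exists_linearIsometryEquiv_of_agree hF.iso (A : X →ₗ[ℝ] Y) fun u hu => ?_
  have h1 := Far.form_all hF.iso hF.unit hL hsurj hE hu
  rw [map_sub, hF.Ax] at h1
  simp only [ContinuousLinearMap.coe_coe]
  rw [h1]
  abel

end Final

end Vale.Agent.Lib.P084.Str
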