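import Mathlib
import Vale.Agent.Lib.P084.Str.Lin

/-! Second order (Peano) data at a point, and their first consequences. -/

namespace Vale.Agent.Lib.P084.Str

open Set Metric Filter Topology
open Vale.Agent.Lib.P084

section Taylor

variable {E F : Type*} [NormedAddCommGroup E] [NormedSpace ℝ E] [NormedAddCommGroup F]
  [NormedSpace ℝ F]

/-- Taylor expansion to second order with Peano remainder. -/
theorem peano_taylor {f : E → F} {B : E → E →L[ℝ] F} {B' : E →L[ℝ] E →L[ℝ] F} {x₀ : E}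
    (h1 : ∀ᶠ z in 𝓝 x₀, HasFDerivAt f (B z) z) (h2 : HasFDerivAt B B' x₀) {ε : ℝ} (hε : 0 < ε) :
    ∀ᶠ z in 𝓝 x₀, ‖f z - f x₀ - B x₀ (z - x₀) - (1 / 2 : ℝ) • B' (z - x₀) (z - x₀)‖ ≤
      ε * ‖z - x₀‖ ^ 2 := by
  have h3 := (hasFDerivAt_iff_isLittleO_nhds_zero.1 h2)
  have h4 := Asymptotics.isLittleO_iff.1 h3 hε
  have h5 : ∀ᶠ z in 𝓝 x₀, ‖B z - B x₀ - B' (z - x₀)‖ ≤ ε * ‖z - x₀‖ := by
    have hc : Tendsto (fun z : E => z - x₀) (𝓝 x₀) (𝓝 0) := by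
      have : Continuous fun z : E => z - x₀ := by fun_prop
      simpa using this.tendsto x₀
    filter_upwards [hc.eventually h4] with z hz
    simpa using hz
  obtain ⟨r, hr, hb⟩ := Metric.eventually_nhds_iff.1 (h1.and h5)
  refine Metric.eventually_nhds_iff.2 ⟨r, hr, fun {z} hz => ?_⟩
  obtain ⟨h, hh⟩ : ∃ h, h = z - x₀ := ⟨_, rfl⟩
  rw [← hh]
  have hhr : ‖h‖ < r := by
    rw [hh, ← dist_eq_norm]
    exact hz
  have hseg : ∀ s ∈ Icc (0 : ℝ) 1, dist (x₀ + s • h) x₀ < r := by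
    intro s hs
    rw [dist_eq_norm, add_sub_cancel_left, norm_smul, Real.norm_of_nonneg hs.1]
    have : s * ‖h‖ ≤ 1 * ‖h‖ := mul_le_mul_of_nonneg_right hs.2 (norm_nonneg _)
    linarith
  obtain ⟨ρ, hρ⟩ : ∃ ρ : ℝ → F, ρ = fun s : ℝ =>
      f (x₀ + s • h) - s • B x₀ h - (s ^ 2 / 2) • B' h h := ⟨_, rfl⟩
  obtain ⟨ρ', hρ'⟩ : ∃ ρ' : ℝ → F, ρ' = fun s : ℝ =>
      B (x₀ + s • h) h - B x₀ h - s • B' h h := ⟨_, rfl⟩
  have hderiv : ∀ s ∈ Icc (0 : ℝ) 1, HasDerivWithinAt ρ (ρ' s) (Icc 0 1) s := by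
    intro s hs
    refine HasDerivAt.hasDerivWithinAt ?_
    have hl : HasDerivAt (fun s : ℝ => x₀ + s • h) h s := by
      simpa using ((hasDerivAt_id s).smul_const h).const_add x₀
    have h6 := (hb (hseg s hs)).1
    have h7 : HasDerivAt (fun s : ℝ => f (x₀ + s • h)) (B (x₀ + s • h) h) s :=
      h6.comp_hasDerivAt s hl
    have h8 : HasDerivAt (fun s : ℝ => s • B x₀ h) (B x₀ h) s := by
      simpa using (hasDerivAt_id s).smul_const (B x₀ h)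
    have h9 : HasDerivAt (fun s : ℝ => (s ^ 2 / 2) • B' h h) (s • B' h h) s := by
      have h10 : HasDerivAt (fun s : ℝ => s ^ 2 / 2) s s := by
        have := (hasDerivAt_pow 2 s).div_const 2
        simpa using this
      exact h10.smul_const (B' h h)
    rw [hρ, hρ']
    exact (h7.sub h8).sub h9
  have hbound : ∀ s ∈ Ico (0 : ℝ) 1, ‖ρ' s‖ ≤ ε * ‖h‖ ^ 2 := by
    intro s hs
    have hsI : s ∈ Icc (0 : ℝ) 1 := ⟨hs.1, hs.2.le⟩
    have h6 := (hb (hseg s hsI)).2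
    rw [add_sub_cancel_left, norm_smul, Real.norm_of_nonneg hs.1] at h6
    have e : ρ' s = (B (x₀ + s • h) - B x₀ - B' (s • h)) h := by
      rw [hρ']
      simp
    rw [e]
    refine ((B (x₀ + s • h) - B x₀ - B' (s • h)).le_opNorm h).trans ?_
    have h7 : ε * (s * ‖h‖) ≤ ε * ‖h‖ := by
      have : s * ‖h‖ ≤ 1 * ‖h‖ := mul_le_mul_of_nonneg_right hs.2.le (norm_nonneg _)
      exact mul_le_mul_of_nonneg_left (by linarith) hε.le
    calc _ ≤ ε * ‖h‖ * ‖h‖ := mul_le_mul_of_nonneg_right (h6.trans h7) (norm_nonneg _)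
      _ = ε * ‖h‖ ^ 2 := by ring
  have hmv := norm_image_sub_le_of_norm_deriv_le_segment_01' hderiv hbound
  have e1 : ρ 1 - ρ 0 = f z - f x₀ - B x₀ h - (1 / 2 : ℝ) • B' h h := by
    rw [hρ]
    simp only [one_smul, zero_smul, add_zero, one_pow, zero_pow, ne_eq, OfNat.ofNat_ne_zero,
      not_false_eq_true, zero_div, sub_zero]
    have hz' : x₀ + h = z := by
      rw [hh]
      abel
    rw [hz']
    norm_num
    abel
  rw [← e1]
  exact hmv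

end Taylor

section Peano

variable {X Y : Type*} [NormedAddCommGroup X] [NormedSpace ℝ X]
  [NormedAddCommGroup Y] [NormedSpace ℝ Y]

/-- Second order data at a base point. -/
structure Peano (g : X → Y) (h : Y → X) (x₀ : X) (A : X →L[ℝ] Y) (Λ : Y →L[ℝ] X)
    (BB : X →L[ℝ] X →L[ℝ] Y) (HH : X →L[ℝ] X →L[ℝ] ℝ) : Prop extends FirstData g h x₀ A Λ where
  B_sym : ∀ a b, BB a b = BB b a
  B_x : ∀ b, BB x₀ b = 0
  H_sym : ∀ a b, HH a b = HH b a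
  H_x : ∀ b, HH x₀ b = 0
  H_pos : ∀ w, chi x₀ w = 0 → w ≠ 0 → 0 < HH w w
  T_exp : ∀ ε : ℝ, 0 < ε → ∀ᶠ y in 𝓝 x₀, ‖y‖ = 1 →
    ‖g y - A y - (1 / 2 : ℝ) • BB (y - x₀) (y - x₀)‖ ≤ ε * ‖y - x₀‖ ^ 2
  chi_exp : HasFDerivAt (chi : X → StrongDual ℝ X) HH x₀

variable {g : X → Y} {h : Y → X} {x₀ : X} {A : X →L[ℝ] Y} {Λ : Y →L[ℝ] X}
  {BB : X →L[ℝ] X →L[ℝ] Y} {HH : X →L[ℝ] X →L[ℝ] ℝ}

lemma Peano.B_x' (P : Peano g h x₀ A Λ BB HH) (a : X) : BB a x₀ = 0 := by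
  rw [P.B_sym, P.B_x]

lemma Peano.H_x' (P : Peano g h x₀ A Λ BB HH) (a : X) : HH a x₀ = 0 := by
  rw [P.H_sym, P.H_x]

/-- The decomposition of a vector into its tangent and normal parts. -/
lemma Peano.B_tan (P : Peano g h x₀ A Λ BB HH) (n : ℝ) (w : X) :
    BB (w - n • x₀) (w - n • x₀) = BB w w := by
  simp only [map_sub, map_smul, _root_.sub_apply, _root_.smul_apply, P.B_x, P.B_x', smul_zero,
    sub_zero]

lemma Peano.H_tan (P : Peano g h x₀ A Λ BB HH) (n : ℝ) (w : X) :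
    HH (w - n • x₀) (w - n • x₀) = HH w w := by
  simp only [map_sub, map_smul, _root_.sub_apply, _root_.smul_apply, P.H_x, P.H_x', smul_zero,
    sub_zero]

/-- Second order expansion of the norm. -/
lemma Peano.N_exp (P : Peano g h x₀ A Λ BB HH) {ε : ℝ} (hε : 0 < ε) :
    ∀ᶠ z in 𝓝 x₀, |‖z‖ - chi x₀ z - (1 / 2 : ℝ) * HH (z - x₀) (z - x₀)| ≤ ε * ‖z - x₀‖ ^ 2 := by
  have hev : ∀ᶠ z in 𝓝 x₀, HasFDerivAt (fun z : X => ‖z‖) (chi z) z := by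
    filter_upwards [isOpen_ne.mem_nhds P.x0_ne] with z hz
    exact P.smX.hasFDerivAt hz
  filter_upwards [peano_taylor hev P.chi_exp hε] with z hz
  rw [Real.norm_eq_abs, P.unit, map_sub, P.phi_self, smul_eq_mul] at hz
  have e : ‖z‖ - 1 - (chi x₀ z - 1) - 1 / 2 * HH (z - x₀) (z - x₀) =
      ‖z‖ - chi x₀ z - 1 / 2 * HH (z - x₀) (z - x₀) := by ring
  rwa [e] at hz

/-- Expansions at the points of the sphere near the base point. -/
lemma Peano.sphere_exp (P : Peano g h x₀ A Λ BB HH) {e : ℝ} (he : 0 < e) :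
    ∃ ρ : ℝ, 0 < ρ ∧ ∀ y, ‖y‖ = 1 → ‖y - x₀‖ < ρ →
      |1 - chi x₀ y - (1 / 2 : ℝ) * HH (y - chi x₀ y • x₀) (y - chi x₀ y • x₀)| ≤ e * ‖y - x₀‖ ^ 2 ∧
      ‖g y - A y - (1 / 2 : ℝ) • BB (y - chi x₀ y • x₀) (y - chi x₀ y • x₀)‖ ≤ e * ‖y - x₀‖ ^ 2 := by
  obtain ⟨ρ, hρ, hb⟩ := Metric.eventually_nhds_iff.1 ((P.N_exp he).and (P.T_exp e he))
  refine ⟨ρ, hρ, fun y hy hyρ => ?_⟩
  obtain ⟨h1, h2⟩ := @hb y (by rwa [dist_eq_norm])
  have h3 := h2 hy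
  rw [hy] at h1
  have e1 : y - x₀ = (y - chi x₀ y • x₀) - (1 - chi x₀ y) • x₀ := by
    rw [sub_smul, one_smul]
    abel
  have e2 : HH (y - x₀) (y - x₀) = HH (y - chi x₀ y • x₀) (y - chi x₀ y • x₀) := by
    conv_lhs => rw [e1]
    exact P.H_tan _ _
  have e3 : BB (y - x₀) (y - x₀) = BB (y - chi x₀ y • x₀) (y - chi x₀ y • x₀) := by
    conv_lhs => rw [e1]
    exact P.B_tan _ _
  rw [e2] at h1
  rw [e3] at h3
  exact ⟨h1, h3⟩

/-- A tangent form `Q` vanishing to second order along the sphere at the base point is zero on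
the tangent hyperplane. -/
lemma tangent_limit (hX : Smooth X) (hx₀ : ‖x₀‖ = 1) {Q : X → ℝ} (hQ : Continuous Q)
    (hhom : ∀ (s : ℝ) (v : X), Q (s • v) = s ^ 2 * Q v)
    (hsmall : ∀ e : ℝ, 0 < e → ∀ᶠ y in 𝓝 x₀, ‖y‖ = 1 → |Q (y - x₀)| ≤ e * ‖y - x₀‖ ^ 2)
    {a : X} (ha : chi x₀ a = 0) : Q a = 0 := by
  have hd := curve_deriv hX hx₀ ha
  have hsl := hd.tendsto_slope_zero
  simp only [zero_add, curve_zero hx₀] at hsl
  have hc : Tendsto (curve x₀ a) (𝓝[≠] 0) (𝓝 x₀) := by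
    have h1 := hd.continuousAt.tendsto
    rw [curve_zero hx₀] at h1
    exact h1.mono_left nhdsWithin_le_nhds
  have hle : ∀ e : ℝ, 0 < e → |Q a| ≤ e * ‖a‖ ^ 2 := by
    intro e he
    have h1 : Tendsto (fun t : ℝ => |Q (t⁻¹ • (curve x₀ a t - x₀))|) (𝓝[≠] 0) (𝓝 |Q a|) :=
      ((hQ.tendsto a).comp hsl).abs
    have h2 : Tendsto (fun t : ℝ => e * ‖t⁻¹ • (curve x₀ a t - x₀)‖ ^ 2) (𝓝[≠] 0)
        (𝓝 (e * ‖a‖ ^ 2)) := ((hsl.norm).pow 2).const_mul e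
    refine le_of_tendsto_of_tendsto h1 h2 ?_
    filter_upwards [hc.eventually (hsmall e he), self_mem_nhdsWithin] with t ht ht0
    have ht1 := ht (curve_unit hX hx₀ ha t)
    have ht0' : t ≠ 0 := ht0
    rw [hhom, abs_mul, norm_smul, mul_pow, abs_of_nonneg (by positivity : (0 : ℝ) ≤ t⁻¹ ^ 2),
      Real.norm_eq_abs, sq_abs]
    have h3 : t⁻¹ ^ 2 * |Q (curve x₀ a t - x₀)| ≤ t⁻¹ ^ 2 * (e * ‖curve x₀ a t - x₀‖ ^ 2) :=
      mul_le_mul_of_nonneg_left ht1 (by positivity)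
    calc _ ≤ _ := h3
      _ = _ := by ring
  by_contra hne
  have hpos : 0 < |Q a| := abs_pos.2 hne
  have h1 := hle (|Q a| / (2 * (‖a‖ ^ 2 + 1))) (by positivity)
  have h2 : |Q a| / (2 * (‖a‖ ^ 2 + 1)) * ‖a‖ ^ 2 ≤ |Q a| / 2 := by
    have e1 : |Q a| / (2 * (‖a‖ ^ 2 + 1)) * ‖a‖ ^ 2 =
        |Q a| / 2 * (‖a‖ ^ 2 / (‖a‖ ^ 2 + 1)) := by
      field_simp
    rw [e1]
    have h3 : ‖a‖ ^ 2 / (‖a‖ ^ 2 + 1) ≤ 1 := by
      rw [div_le_one (by positivity)]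
      linarith
    nlinarith
  linarith

end Peano

end Vale.Agent.Lib.P084.Str
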