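import Mathlib
import Vale.Agent.Lib.P084.Str.Peano

/-! The midpoint argument: the second derivative of the map takes tangent values. -/

namespace Vale.Agent.Lib.P084.Str

open Set Metric Filter Topology
open Vale.Agent.Lib.P084

section Mid

variable {X Y : Type*} [NormedAddCommGroup X] [NormedSpace ℝ X]
  [NormedAddCommGroup Y] [NormedSpace ℝ Y] {g : X → Y} {h : Y → X} {x₀ : X} {A : X →L[ℝ] Y}
  {Λ : Y →L[ℝ] X} {BB : X →L[ℝ] X →L[ℝ] Y} {HH : X →L[ℝ] X →L[ℝ] ℝ}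

/-- The vector identity behind the midpoint argument. -/
lemma mid_identity (A : X →L[ℝ] Y) (BB : X →L[ℝ] X →L[ℝ] Y) {x₀ y : X} {y₀ gy gm R₁ R₂ : Y}
    {s : ℝ} (hs : 0 < s) (hA : A x₀ = y₀)
    (h1 : gy = A y + (1 / 2 : ℝ) • BB (y - x₀) (y - x₀) + R₁)
    (h2 : gm = A (s⁻¹ • ((1 / 2 : ℝ) • (y + x₀))) +
      (1 / 2 : ℝ) • (((2 * s)⁻¹) ^ 2 • BB (y - x₀) (y - x₀)) + R₂) :
    (1 / 2 : ℝ) • (gy + y₀) = s • gm + (1 / 8 : ℝ) • BB (y - x₀) (y - x₀) +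
      (((1 / 8 : ℝ) - (8 * s)⁻¹) • BB (y - x₀) (y - x₀) + (1 / 2 : ℝ) • R₁ - s • R₂) := by
  have e1 : A (s⁻¹ • ((1 / 2 : ℝ) • (y + x₀))) = s⁻¹ • ((1 / 2 : ℝ) • (A y + y₀)) := by
    rw [map_smul, map_smul, map_add, hA]
  rw [h1, h2, e1]
  have e2 : s * (1 / 2 * ((2 * s)⁻¹) ^ 2) = (8 * s)⁻¹ := by
    field_simp
    ring
  have e3 : s * s⁻¹ = 1 := mul_inv_cancel₀ hs.ne'
  simp only [smul_add, smul_sub, smul_smul, e2, e3]
  have e4 : s * s⁻¹ * (1 / 2) = 1 / 2 := by rw [e3]; ring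
  rw [show s * (s⁻¹ * (1 / 2)) = 1 / 2 by rw [← mul_assoc, e3]; ring]
  module

variable [FiniteDimensional ℝ X]

/-- Data of the midpoint construction. -/
lemma mid_est (P : Peano g h x₀ A Λ BB HH) {e₁ : ℝ} (he₁ : 0 < e₁) :
    ∃ ρ : ℝ, 0 < ρ ∧ ∀ y, ‖y‖ = 1 → ‖y - x₀‖ < ρ → ∃ (E v₂ : Y),
      ‖E‖ ≤ (‖BB‖ * ‖y - x₀‖ + 4 * e₁) * ‖y - x₀‖ ^ 2 ∧
      (1 / 2 : ℝ) • (g y + g x₀) = v₂ + (1 / 8 : ℝ) • BB (y - x₀) (y - x₀) + E ∧
      ‖v₂‖ = ‖(1 / 2 : ℝ) • (g y + g x₀)‖ ∧ ‖v₂ - g x₀‖ ≤ 2 * ‖y - x₀‖ := by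
  have hF := P.toFirstData
  have : Nontrivial X := ⟨⟨x₀, 0, hF.x0_ne⟩⟩
  obtain ⟨ρ₁, hρ₁, hb⟩ := Metric.eventually_nhds_iff.1 (P.T_exp e₁ he₁)
  refine ⟨min (1 / 2) (ρ₁ / 2), by positivity, fun y hy hyρ => ?_⟩
  have hz1 : ‖y - x₀‖ < 1 / 2 := hyρ.trans_le (min_le_left _ _)
  have hz2 : ‖y - x₀‖ < ρ₁ / 2 := hyρ.trans_le (min_le_right _ _)
  obtain ⟨z, hz⟩ : ∃ z, z = y - x₀ := ⟨_, rfl⟩
  rw [← hz] at hz1 hz2 ⊢
  have hzn : 0 ≤ ‖z‖ := norm_nonneg z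
  obtain ⟨m, hm⟩ : ∃ m, m = (1 / 2 : ℝ) • (y + x₀) := ⟨_, rfl⟩
  have hm2 : m = x₀ + (1 / 2 : ℝ) • z := by
    rw [hm, hz]
    module
  obtain ⟨s, hs⟩ : ∃ s, s = ‖m‖ := ⟨_, rfl⟩
  have hs1 : |s - 1| ≤ ‖z‖ / 2 := by
    have h1 := abs_norm_sub_norm_le m x₀
    rw [hF.unit, ← hs, hm2, add_sub_cancel_left, norm_smul] at h1
    norm_num at h1
    linarith
  have hs1' := abs_le.1 hs1
  have hs0 : 0 < s := by linarith [hs1'.1]
  have hs34 : 3 / 4 ≤ s := by linarith [hs1'.1]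
  have hs54 : s ≤ 5 / 4 := by linarith [hs1'.2]
  have hm0 : m ≠ 0 := by
    rw [← norm_pos_iff, ← hs]
    exact hs0
  obtain ⟨ym, hym⟩ : ∃ ym, ym = s⁻¹ • m := ⟨_, rfl⟩
  have hym1 : ‖ym‖ = 1 := by
    rw [hym, hs]
    exact unit_of_ne hm0
  have hinv : s⁻¹ ≤ 4 / 3 := by
    rw [inv_le_comm₀ hs0 (by norm_num)]
    linarith
  have hinv0 : 0 < s⁻¹ := inv_pos.2 hs0
  have hzm : ym - x₀ = (s⁻¹ - 1) • x₀ + (2 * s)⁻¹ • z := by
    rw [hym, hm2, smul_add, smul_smul, sub_smul, one_smul]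
    have : s⁻¹ * (1 / 2) = (2 * s)⁻¹ := by
      field_simp
    rw [this]
    abel
  have hs_inv : |s⁻¹ - 1| ≤ (2 / 3) * ‖z‖ := by
    have e : s⁻¹ - 1 = -(s⁻¹ * (s - 1)) := by
      field_simp
      ring
    rw [e, abs_neg, abs_mul, abs_of_pos hinv0]
    have := mul_le_mul hinv hs1 (abs_nonneg _) (by norm_num)
    linarith
  have hzmn : ‖ym - x₀‖ ≤ (4 / 3) * ‖z‖ := by
    rw [hzm]
    refine (norm_add_le _ _).trans ?_
    rw [norm_smul, norm_smul, hF.unit, mul_one, Real.norm_eq_abs, Real.norm_eq_abs,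
      abs_of_pos (by positivity : (0 : ℝ) < (2 * s)⁻¹)]
    have h1 : (2 * s)⁻¹ ≤ 2 / 3 := by
      have e : (2 * s)⁻¹ = s⁻¹ / 2 := by
        field_simp
      rw [e]
      linarith
    have h2 := mul_le_mul_of_nonneg_right h1 hzn
    linarith
  have hBm : BB (ym - x₀) (ym - x₀) = ((2 * s)⁻¹) ^ 2 • BB z z := by
    rw [hzm]
    simp only [map_add, map_smul, _root_.add_apply, _root_.smul_apply, P.B_x, P.B_x', smul_zero,
      zero_add, add_zero, smul_smul]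
    congr 1
    ring
  -- the two expansions
  have hy1 := @hb y (by rw [dist_eq_norm, ← hz]; linarith) hy
  have hym2 := @hb ym (by rw [dist_eq_norm]; linarith) hym1
  rw [← hz] at hy1
  rw [hBm] at hym2
  obtain ⟨R₁, hR₁⟩ : ∃ R₁, R₁ = g y - A y - (1 / 2 : ℝ) • BB z z := ⟨_, rfl⟩
  obtain ⟨R₂, hR₂⟩ : ∃ R₂, R₂ = g ym - A ym - (1 / 2 : ℝ) • (((2 * s)⁻¹) ^ 2 • BB z z) := ⟨_, rfl⟩
  rw [← hR₁] at hy1
  rw [← hR₂] at hym2
  have hR₂b : ‖R₂‖ ≤ e₁ * ((16 / 9) * ‖z‖ ^ 2) := by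
    refine hym2.trans (mul_le_mul_of_nonneg_left ?_ he₁.le)
    have := pow_le_pow_left₀ (norm_nonneg _) hzmn 2
    nlinarith
  have hident := mid_identity A BB (x₀ := x₀) (y := y) (y₀ := g x₀) (gy := g y) (gm := g ym)
    (R₁ := R₁) (R₂ := R₂) (s := s) hs0 hF.Ax
    (by rw [hR₁, ← hz]; abel)
    (by rw [hR₂, ← hz, ← hm, ← hym]; abel)
  rw [← hz] at hident
  refine ⟨_, s • g ym, ?_, hident, ?_, ?_⟩
  · -- the size of the error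
    refine (norm_sub_le _ _).trans ?_
    refine (add_le_add (norm_add_le _ _) le_rfl).trans ?_
    rw [norm_smul, norm_smul, norm_smul, Real.norm_of_nonneg hs0.le]
    have h1 : ‖BB z z‖ ≤ ‖BB‖ * ‖z‖ ^ 2 := by
      have h2 := (BB z).le_opNorm z
      have h3 := BB.le_opNorm z
      have h4 : ‖BB z‖ * ‖z‖ ≤ ‖BB‖ * ‖z‖ * ‖z‖ := mul_le_mul_of_nonneg_right h3 hzn
      nlinarith
    have h5 : ‖(1 / 8 : ℝ) - (8 * s)⁻¹‖ ≤ ‖z‖ := by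
      rw [Real.norm_eq_abs]
      have e : (1 / 8 : ℝ) - (8 * s)⁻¹ = -(1 / 8 * (s⁻¹ - 1)) := by
        field_simp
        ring
      rw [e, abs_neg, abs_mul, abs_of_pos (by norm_num : (0 : ℝ) < 1 / 8)]
      nlinarith [abs_nonneg (s⁻¹ - 1)]
    have h6 : ‖(1 / 2 : ℝ)‖ = 1 / 2 := by norm_num
    rw [h6]
    have h7 : ‖(1 / 8 : ℝ) - (8 * s)⁻¹‖ * ‖BB z z‖ ≤ ‖z‖ * (‖BB‖ * ‖z‖ ^ 2) :=
      mul_le_mul h5 h1 (norm_nonneg _) hzn
    have h8 : s * ‖R₂‖ ≤ (5 / 4) * (e₁ * ((16 / 9) * ‖z‖ ^ 2)) :=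
      mul_le_mul hs54 hR₂b (norm_nonneg _) (by norm_num)
    have h9 : 0 ≤ e₁ * ‖z‖ ^ 2 := by positivity
    nlinarith
  · rw [norm_smul, norm_smul, hF.iso.map_g _ hym1, mul_one, Real.norm_of_nonneg hs0.le, hs, hm,
      Far.norm_add_image hF.iso hy hF.unit, norm_smul]
  · have e : s • g ym - g x₀ = (s - 1) • g ym + (g ym - g x₀) := by
      rw [sub_smul, one_smul]
      abel
    rw [e]
    refine (norm_add_le _ _).trans ?_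
    rw [norm_smul, hF.iso.map_g _ hym1, mul_one, hF.iso.iso _ _ hym1 hF.unit, Real.norm_eq_abs]
    linarith

lemma phi_arith {q ψE nE nBB nz e e₁ C S : ℝ} (hC : C = nBB + 2) (hnBB : 0 ≤ nBB) (hnz : 0 ≤ nz)
    (he : 0 < e) (he₁0 : 0 < e₁) (hE : nE ≤ (nBB * nz + 4 * e₁) * nz ^ 2) (he₁1 : e₁ ≤ 1)
    (he₁2 : e₁ ≤ e / 100) (hz1 : nz < 1) (hze : nz * (100 * (nBB + 1)) < e)
    (hψE : |ψE| ≤ nE) (hS : S ≤ 1 / 8 * (nBB * nz ^ 2) + nE)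
    (hest : |1 / 8 * q + ψE| ≤ e / (100 * C) * S) : |q| ≤ e * nz ^ 2 := by
  have hC0 : 0 < C := by
    rw [hC]
    positivity
  have hzsq : 0 ≤ nz ^ 2 := by positivity
  have hBz : (nBB + 1) * nz ≤ e / 100 := by nlinarith
  have hE2 : nE ≤ (5 * e / 100) * nz ^ 2 := by
    refine hE.trans (mul_le_mul_of_nonneg_right ?_ hzsq)
    nlinarith
  have hE3 : nE ≤ (nBB + 4) * nz ^ 2 := by
    refine hE.trans (mul_le_mul_of_nonneg_right ?_ hzsq)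
    nlinarith
  have hsum : S ≤ 2 * C * nz ^ 2 := by
    rw [hC]
    nlinarith
  have hest2 : e / (100 * C) * S ≤ e / 50 * nz ^ 2 := by
    have h2 := mul_le_mul_of_nonneg_left hsum (by positivity : 0 ≤ e / (100 * C))
    refine h2.trans (le_of_eq ?_)
    field_simp
    ring
  have h3 := abs_le.1 (hest.trans hest2)
  have h4 := abs_le.1 hψE
  rw [abs_le]
  constructor <;> nlinarith [h3.1, h3.2, h4.1, h4.2, mul_nonneg he.le hzsq]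

/-- `Φ₀ (B z z)` vanishes to second order on the sphere. -/
lemma Phi_small [FiniteDimensional ℝ Y] (P : Peano g h x₀ A Λ BB HH) {e : ℝ} (he : 0 < e) :
    ∀ᶠ y in 𝓝 x₀, ‖y‖ = 1 → |chi (g x₀) (BB (y - x₀) (y - x₀))| ≤ e * ‖y - x₀‖ ^ 2 := by
  have hF := P.toFirstData
  obtain ⟨C, hC⟩ : ∃ C, C = ‖BB‖ + 2 := ⟨_, rfl⟩
  have hC0 : 0 < C := by
    rw [hC]
    positivity
  obtain ⟨e₁, he₁⟩ : ∃ e₁, e₁ = min 1 (e / 100) := ⟨_, rfl⟩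
  have he₁0 : 0 < e₁ := by
    rw [he₁]
    positivity
  have he₁1 : e₁ ≤ 1 := by rw [he₁]; exact min_le_left _ _
  have he₁2 : e₁ ≤ e / 100 := by rw [he₁]; exact min_le_right _ _
  obtain ⟨ρ, hρ, hb⟩ := mid_est P he₁0
  obtain ⟨δ, hδ, hbδ⟩ := hF.smY.strict_est hF.y0_ne (ε := e / (100 * C)) (by positivity)
  obtain ⟨r, hr⟩ : ∃ r, r = min ρ (min 1 (min (δ / 3) (e / (100 * (‖BB‖ + 1))))) := ⟨_, rfl⟩
  have hr0 : 0 < r := by
    rw [hr]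
    positivity
  have hr1 : r ≤ ρ := by rw [hr]; exact min_le_left _ _
  have hr2 : r ≤ 1 := by rw [hr]; exact (min_le_right _ _).trans (min_le_left _ _)
  have hr3 : r ≤ δ / 3 := by
    rw [hr]
    exact (min_le_right _ _).trans ((min_le_right _ _).trans (min_le_left _ _))
  have hr4 : r ≤ e / (100 * (‖BB‖ + 1)) := by
    rw [hr]
    exact (min_le_right _ _).trans ((min_le_right _ _).trans (min_le_right _ _))
  refine Metric.eventually_nhds_iff.2 ⟨r, hr0, fun {y} hy hy1 => ?_⟩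
  rw [dist_eq_norm] at hy
  obtain ⟨E, v₂, hE, hv, hnv, hdv⟩ := hb y hy1 (hy.trans_le hr1)
  have hye : ‖y - x₀‖ * (100 * (‖BB‖ + 1)) < e := by
    have h1 : ‖y - x₀‖ < e / (100 * (‖BB‖ + 1)) := hy.trans_le hr4
    rwa [lt_div_iff₀ (by positivity)] at h1
  obtain ⟨z, hz⟩ : ∃ z, z = y - x₀ := ⟨_, rfl⟩
  rw [← hz] at hE hv hdv hy hye ⊢
  obtain ⟨v₁, hv₁⟩ : ∃ v₁, v₁ = (1 / 2 : ℝ) • (g y + g x₀) := ⟨_, rfl⟩
  rw [← hv₁] at hv hnv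
  have hd1 : ‖v₁ - g x₀‖ ≤ ‖z‖ := by
    have e1 : v₁ - g x₀ = (1 / 2 : ℝ) • (g y - g x₀) := by
      rw [hv₁]
      module
    rw [e1, norm_smul, hF.iso.iso _ _ hy1 hF.unit, ← hz]
    norm_num
    linarith [norm_nonneg z]
  have hest := hbδ v₁ v₂ (by linarith) (by linarith)
  rw [hnv, sub_self, zero_sub, abs_neg] at hest
  have hdiff : v₂ - v₁ = -((1 / 8 : ℝ) • BB z z + E) := by
    rw [hv]
    abel
  have h1 : ‖BB z z‖ ≤ ‖BB‖ * ‖z‖ ^ 2 := by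
    have h2 := (BB z).le_opNorm z
    have h3 := BB.le_opNorm z
    have h4 : ‖BB z‖ * ‖z‖ ≤ ‖BB‖ * ‖z‖ * ‖z‖ := mul_le_mul_of_nonneg_right h3 (norm_nonneg z)
    nlinarith
  rw [hdiff, map_neg, abs_neg, norm_neg, map_add, map_smul, smul_eq_mul] at hest
  have hS : ‖(1 / 8 : ℝ) • BB z z + E‖ ≤ 1 / 8 * (‖BB‖ * ‖z‖ ^ 2) + ‖E‖ := by
    refine (norm_add_le _ _).trans ?_
    rw [norm_smul]
    norm_num
    linarith
  exact phi_arith hC (norm_nonneg BB) (norm_nonneg z) he he₁0 hE he₁1 he₁2 (hy.trans_le hr2) hye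
    (abs_chi_le _ _) hS hest

/-- `Φ₀ ∘ B` vanishes on the tangent hyperplane. -/
theorem Phi_B [FiniteDimensional ℝ Y] (P : Peano g h x₀ A Λ BB HH) {a b : X} (ha : chi x₀ a = 0)
    (hb : chi x₀ b = 0) : chi (g x₀) (BB a b) = 0 := by
  have hF := P.toFirstData
  have hQ : ∀ v, chi x₀ v = 0 → chi (g x₀) (BB v v) = 0 := by
    intro v hv
    refine tangent_limit (Q := fun v => chi (g x₀) (BB v v)) hF.smX hF.unit ?_ ?_
      (fun e he => Phi_small P he) hv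
    · fun_prop
    · intro s v
      simp only [map_smul, _root_.smul_apply, smul_eq_mul]
      ring
  have h1 := hQ (a + b) (by rw [map_add, ha, hb, add_zero])
  simp only [map_add, _root_.add_apply, hQ a ha, hQ b hb, P.B_sym b a] at h1
  linarith

end Mid

end Vale.Agent.Lib.P084.Str
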