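import Mathlib
import Vale.Agent.Lib.P084.Str.Mid

/-! The second order relation along short chords. -/

namespace Vale.Agent.Lib.P084.Str

open Set Metric Filter Topology
open Vale.Agent.Lib.P084

section Second

variable {X Y : Type*} [NormedAddCommGroup X] [NormedSpace ℝ X]
  [NormedAddCommGroup Y] [NormedSpace ℝ Y] {g : X → Y} {h : Y → X} {x₀ : X} {A : X →L[ℝ] Y}
  {Λ : Y →L[ℝ] X} {BB : X →L[ℝ] X →L[ℝ] Y} {HH : X →L[ℝ] X →L[ℝ] ℝ}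

variable [FiniteDimensional ℝ X]

/-- The point of the sphere over a small tangent vector, with its expansions. -/
lemma chart (P : Peano g h x₀ A Λ BB HH) {e : ℝ} (he : 0 < e) :
    ∃ δ : ℝ, 0 < δ ∧ ∀ w, chi x₀ w = 0 → ‖w‖ < δ → ∃ n : ℝ, 0 ≤ n ∧ n ≤ 2 * ‖w‖ ∧
      ‖(1 - n) • x₀ + w‖ = 1 ∧ |n - (1 / 2 : ℝ) * HH w w| ≤ e * ‖w‖ ^ 2 ∧
      ‖g ((1 - n) • x₀ + w) - (1 - n) • g x₀ - A w - (1 / 2 : ℝ) • BB w w‖ ≤ e * ‖w‖ ^ 2 := by
  have hF := P.toFirstData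
  obtain ⟨ρ, hρ, hb⟩ := P.sphere_exp (e := e / 9) (by positivity)
  refine ⟨min (1 / 2) (ρ / 3), by positivity, fun w hw hwδ => ?_⟩
  have hw1 : ‖w‖ < 1 / 2 := hwδ.trans_le (min_le_left _ _)
  have hw2 : ‖w‖ < ρ / 3 := hwδ.trans_le (min_le_right _ _)
  obtain ⟨n, hn0, hn1, hn2⟩ := exists_n hF.smX hF.unit hw (by linarith)
  refine ⟨n, hn0, hn1, hn2, ?_⟩
  obtain ⟨y, hy⟩ : ∃ y, y = (1 - n) • x₀ + w := ⟨_, rfl⟩
  rw [← hy] at hn2 ⊢
  have hz : y - x₀ = w - n • x₀ := by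
    rw [hy, sub_smul, one_smul]
    abel
  have hzn : ‖y - x₀‖ ≤ 3 * ‖w‖ := by
    rw [hz]
    refine (norm_sub_le _ _).trans ?_
    rw [norm_smul, hF.unit, mul_one, Real.norm_of_nonneg hn0]
    linarith
  obtain ⟨h1, h2⟩ := hb y hn2 (by linarith)
  have h5 : chi x₀ y = 1 - n := by
    rw [hy, map_add, map_smul, hF.phi_self, hw]
    simp
  have h6 : y - (1 - n) • x₀ = w := by
    rw [hy]
    abel
  rw [h5, h6] at h1
  rw [h5, h6] at h2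
  have h7 : ‖y - x₀‖ ^ 2 ≤ 9 * ‖w‖ ^ 2 := by
    have := pow_le_pow_left₀ (norm_nonneg _) hzn 2
    nlinarith
  have h8 : e / 9 * ‖y - x₀‖ ^ 2 ≤ e * ‖w‖ ^ 2 := by
    have := mul_le_mul_of_nonneg_left h7 (by positivity : 0 ≤ e / 9)
    linarith
  constructor
  · have e1 : n - 1 / 2 * HH w w = 1 - (1 - n) - 1 / 2 * HH w w := by ring
    rw [e1]
    exact h1.trans h8
  · have e1 : g y - (1 - n) • g x₀ - A w - (1 / 2 : ℝ) • BB w w =
        g y - A y - (1 / 2 : ℝ) • BB w w := by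
      rw [hy, map_add, map_smul, hF.Ax]
      abel
    rw [e1]
    exact h2.trans h8

/-- Scaling of a short chord. -/
lemma second_scale (P : Peano g h x₀ A Λ BB HH) {a b : X} (ha : chi x₀ a = 0) (hb : chi x₀ b = 0)
    {e δ : ℝ} (he : 0 < e) (hδ : 0 < δ) :
    ∃ (ε θ : ℝ) (ρ : Y), 0 < ε ∧ ε < δ ∧ ‖A (a - b) + ρ‖ = ‖(a - b) - θ • x₀‖ ∧
      |θ - ε / 2 * HH (a + b) (a - b)| ≤ e * ε ∧
      ‖ρ + θ • g x₀ - (ε / 2) • BB (a + b) (a - b)‖ ≤ e * ε := by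
  have hF := P.toFirstData
  obtain ⟨M, hM⟩ : ∃ M, M = ‖a‖ ^ 2 + ‖b‖ ^ 2 + 1 := ⟨_, rfl⟩
  have hM0 : 0 < M := by
    rw [hM]
    positivity
  obtain ⟨δ₀, hδ₀, hc⟩ := chart P (e := e / M) (by positivity)
  obtain ⟨ε, hε⟩ : ∃ ε, ε = min (δ / 2) (δ₀ / (2 * (‖a‖ + ‖b‖ + 1))) := ⟨_, rfl⟩
  have hε0 : 0 < ε := by
    rw [hε]
    positivity
  have hε1 : ε < δ := by
    have : ε ≤ δ / 2 := by rw [hε]; exact min_le_left _ _
    linarith
  have hε2 : ε * (2 * (‖a‖ + ‖b‖ + 1)) ≤ δ₀ := by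
    have : ε ≤ δ₀ / (2 * (‖a‖ + ‖b‖ + 1)) := by rw [hε]; exact min_le_right _ _
    rwa [le_div_iff₀ (by positivity)] at this
  have hεa : ‖ε • a‖ < δ₀ := by
    rw [norm_smul, Real.norm_of_nonneg hε0.le]
    nlinarith [norm_nonneg a, norm_nonneg b]
  have hεb : ‖ε • b‖ < δ₀ := by
    rw [norm_smul, Real.norm_of_nonneg hε0.le]
    nlinarith [norm_nonneg a, norm_nonneg b]
  obtain ⟨na, _, _, hya, hna, hga⟩ := hc (ε • a) (by rw [map_smul, ha]; simp) hεa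
  obtain ⟨nb, _, _, hyb, hnb, hgb⟩ := hc (ε • b) (by rw [map_smul, hb]; simp) hεb
  have hna2 : ‖ε • a‖ ^ 2 = ε ^ 2 * ‖a‖ ^ 2 := by
    rw [norm_smul, Real.norm_of_nonneg hε0.le, mul_pow]
  have hnb2 : ‖ε • b‖ ^ 2 = ε ^ 2 * ‖b‖ ^ 2 := by
    rw [norm_smul, Real.norm_of_nonneg hε0.le, mul_pow]
  rw [hna2] at hna hga
  rw [hnb2] at hnb hgb
  obtain ⟨θ, hθ⟩ : ∃ θ, θ = (na - nb) / ε := ⟨_, rfl⟩
  have hθε : ε * θ = na - nb := by
    rw [hθ]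
    field_simp
  -- the error terms
  obtain ⟨Ea, hEa⟩ : ∃ Ea, Ea = g ((1 - na) • x₀ + ε • a) - (1 - na) • g x₀ - A (ε • a) -
      (1 / 2 : ℝ) • BB (ε • a) (ε • a) := ⟨_, rfl⟩
  obtain ⟨Eb, hEb⟩ : ∃ Eb, Eb = g ((1 - nb) • x₀ + ε • b) - (1 - nb) • g x₀ - A (ε • b) -
      (1 / 2 : ℝ) • BB (ε • b) (ε • b) := ⟨_, rfl⟩
  rw [← hEa] at hga
  rw [← hEb] at hgb
  have hBab : BB (a + b) (a - b) = BB a a - BB b b := by
    simp only [map_add, map_sub, _root_.add_apply, P.B_sym b a]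
    abel
  have hHab : HH (a + b) (a - b) = HH a a - HH b b := by
    simp only [map_add, map_sub, _root_.add_apply, P.H_sym b a]
    ring
  have hdiffg : g ((1 - na) • x₀ + ε • a) - g ((1 - nb) • x₀ + ε • b) =
      ε • (A (a - b) + (-(θ • g x₀) + (ε / 2) • BB (a + b) (a - b) + ε⁻¹ • (Ea - Eb))) := by
    have e1 : g ((1 - na) • x₀ + ε • a) = (1 - na) • g x₀ + A (ε • a) +
        (1 / 2 : ℝ) • BB (ε • a) (ε • a) + Ea := by
      rw [hEa]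
      abel
    have e2 : g ((1 - nb) • x₀ + ε • b) = (1 - nb) • g x₀ + A (ε • b) +
        (1 / 2 : ℝ) • BB (ε • b) (ε • b) + Eb := by
      rw [hEb]
      abel
    rw [e1, e2, hBab, map_sub]
    simp only [map_smul, _root_.smul_apply, smul_add, smul_sub, smul_neg, smul_smul, hθε]
    rw [mul_inv_cancel₀ hε0.ne', one_smul, one_smul]
    have e3 : ε * (ε / 2) = 1 / 2 * ε * ε := by ring
    have e4 : 1 / 2 * (ε * ε) = 1 / 2 * ε * ε := by ring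
    rw [e3, e4]
    module
  have hdiffy : ((1 - na) • x₀ + ε • a) - ((1 - nb) • x₀ + ε • b) = ε • ((a - b) - θ • x₀) := by
    rw [smul_sub, smul_sub, smul_smul, hθε]
    module
  refine ⟨ε, θ, -(θ • g x₀) + (ε / 2) • BB (a + b) (a - b) + ε⁻¹ • (Ea - Eb), hε0, hε1, ?_, ?_, ?_⟩
  · have h1 := hF.iso.iso _ _ hya hyb
    rw [hdiffg, hdiffy, norm_smul, norm_smul] at h1
    exact mul_left_cancel₀ (by simpa using hε0.ne') h1
  · have e1 : θ - ε / 2 * HH (a + b) (a - b) =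
        ((na - 1 / 2 * HH (ε • a) (ε • a)) - (nb - 1 / 2 * HH (ε • b) (ε • b))) / ε := by
      rw [hHab, hθ]
      simp only [map_smul, _root_.smul_apply, smul_eq_mul]
      field_simp
      ring
    rw [e1, abs_div, abs_of_pos hε0, div_le_iff₀ hε0]
    refine (abs_sub _ _).trans ?_
    have h1 : e / M * (ε ^ 2 * ‖a‖ ^ 2) + e / M * (ε ^ 2 * ‖b‖ ^ 2) ≤ e * ε * ε := by
      have e2 : e / M * (ε ^ 2 * ‖a‖ ^ 2) + e / M * (ε ^ 2 * ‖b‖ ^ 2) =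
          e * ε * ε * ((‖a‖ ^ 2 + ‖b‖ ^ 2) / M) := by
        field_simp
      rw [e2]
      have h2 : (‖a‖ ^ 2 + ‖b‖ ^ 2) / M ≤ 1 := by
        rw [div_le_one hM0, hM]
        linarith
      have h3 : 0 ≤ e * ε * ε := by positivity
      nlinarith
    linarith
  · have e1 : -(θ • g x₀) + (ε / 2) • BB (a + b) (a - b) + ε⁻¹ • (Ea - Eb) + θ • g x₀ -
        (ε / 2) • BB (a + b) (a - b) = ε⁻¹ • (Ea - Eb) := by abel
    rw [e1, norm_smul, norm_inv, Real.norm_of_nonneg hε0.le, inv_mul_le_iff₀ hε0]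
    refine (norm_sub_le _ _).trans ?_
    have h1 : e / M * (ε ^ 2 * ‖a‖ ^ 2) + e / M * (ε ^ 2 * ‖b‖ ^ 2) ≤ ε * (e * ε) := by
      have e2 : e / M * (ε ^ 2 * ‖a‖ ^ 2) + e / M * (ε ^ 2 * ‖b‖ ^ 2) =
          ε * (e * ε) * ((‖a‖ ^ 2 + ‖b‖ ^ 2) / M) := by
        field_simp
      rw [e2]
      have h2 : (‖a‖ ^ 2 + ‖b‖ ^ 2) / M ≤ 1 := by
        rw [div_le_one hM0, hM]
        linarith
      have h3 : 0 ≤ ε * (e * ε) := by positivity
      nlinarith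
    linarith

lemma second_arith {a n ψ Ψ₀ H Bq r₁ nB nρ ε θ e e₂ ε₁ K Pρ : ℝ} (hK : K = |H| + nB + 2)
    (hnB : 0 ≤ nB) (hε : 0 < ε) (he₂0 : 0 < e₂) (he₂1 : e₂ ≤ 1 / 2) (he₂ : e₂ ≤ e / 12)
    (hε₁0 : 0 < ε₁) (hε₁ : ε₁ * K ≤ e / 8)
    (E1 : |a - n - -(θ * ψ)| ≤ ε₁ * |θ|) (E2 : |a - n - Pρ| ≤ ε₁ * nρ)
    (hP : Pρ = -(θ * Ψ₀) + ε / 2 * Bq + r₁) (hr : |r₁| ≤ e₂ * ε)
    (ht : |θ - ε / 2 * H| ≤ e₂ * ε) (hρ : nρ ≤ |θ| + ε / 2 * nB + e₂ * ε)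
    (hψ : |ψ| ≤ 1) (hΨ : |Ψ₀| ≤ 1) : |Bq - H * (Ψ₀ - ψ)| ≤ e := by
  have hK0 : 0 < K := by
    rw [hK]
    positivity
  obtain ⟨κ, hκ⟩ : ∃ κ, κ = Ψ₀ - ψ := ⟨_, rfl⟩
  rw [← hκ]
  have hκ2 : |κ| ≤ 2 := by
    rw [hκ]
    refine (abs_sub _ _).trans ?_
    linarith
  obtain ⟨t, htd⟩ : ∃ t, t = θ - ε / 2 * H := ⟨_, rfl⟩
  rw [← htd] at ht
  have hθ1 : |θ| ≤ ε * (|H| + 1) := by
    have e1 : θ = t + ε / 2 * H := by rw [htd]; ring
    rw [e1]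
    refine (abs_add_le _ _).trans ?_
    rw [abs_mul, abs_of_pos (by positivity : 0 < ε / 2)]
    nlinarith [abs_nonneg H]
  have hsum : |θ| + nρ ≤ 2 * ε * K := by
    rw [hK]
    nlinarith [abs_nonneg H]
  have h1 : |Pρ + θ * ψ| ≤ ε₁ * (|θ| + nρ) := by
    have e1 : Pρ + θ * ψ = (a - n - -(θ * ψ)) - (a - n - Pρ) := by ring
    rw [e1]
    refine (abs_sub _ _).trans ?_
    rw [mul_add]
    linarith
  have h2 : ε₁ * (|θ| + nρ) ≤ 2 * ε * (e / 8) := by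
    have h3 := mul_le_mul_of_nonneg_left hsum hε₁0.le
    have h4 : ε₁ * (2 * ε * K) = 2 * ε * (ε₁ * K) := by ring
    rw [h4] at h3
    exact h3.trans (mul_le_mul_of_nonneg_left hε₁ (by positivity))
  have h5 : ε / 2 * (Bq - H * κ) = (Pρ + θ * ψ) - r₁ + t * κ := by
    rw [hP, htd, hκ]
    ring
  have h6 : |ε / 2 * (Bq - H * κ)| ≤ ε / 2 * e := by
    rw [h5]
    refine (abs_add_le _ _).trans ?_
    have h7 := abs_sub (Pρ + θ * ψ) r₁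
    rw [abs_mul]
    have h8 : |t| * |κ| ≤ (e₂ * ε) * 2 :=
      mul_le_mul ht hκ2 (abs_nonneg _) (by positivity)
    have h9 : e₂ * ε ≤ e / 12 * ε := mul_le_mul_of_nonneg_right he₂ hε.le
    nlinarith
  rw [abs_mul, abs_of_pos (by positivity : 0 < ε / 2)] at h6
  exact le_of_mul_le_mul_left h6 (by positivity)

/-- **The second order relation along short chords.** -/
theorem second_rel [FiniteDimensional ℝ Y] (P : Peano g h x₀ A Λ BB HH) {u w : X} (hu : chi x₀ u = 0) (hu0 : u ≠ 0)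
    (hw : chi x₀ w = 0) :
    chi (A u) (BB w u) = HH w u * (chi (A u) (g x₀) - chi u x₀) := by
  have hF := P.toFirstData
  have hAu0 : A u ≠ 0 := by
    rw [← norm_ne_zero_iff, hF.normA hu, norm_ne_zero_iff]
    exact hu0
  obtain ⟨a, ha⟩ : ∃ a, a = (1 / 2 : ℝ) • (w + u) := ⟨_, rfl⟩
  obtain ⟨b, hb⟩ : ∃ b, b = (1 / 2 : ℝ) • (w - u) := ⟨_, rfl⟩
  have hsub : a - b = u := by
    rw [ha, hb]
    module
  have hadd : a + b = w := by
    rw [ha, hb]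
    module
  have haP : chi x₀ a = 0 := by
    rw [ha, map_smul, map_add, hw, hu]
    simp
  have hbP : chi x₀ b = 0 := by
    rw [hb, map_smul, map_sub, hw, hu]
    simp
  have hmain : ∀ e : ℝ, 0 < e →
      |chi (A u) (BB w u) - HH w u * (chi (A u) (g x₀) - chi u x₀)| ≤ e := by
    intro e he
    obtain ⟨K, hK⟩ : ∃ K, K = |HH w u| + ‖BB w u‖ + 2 := ⟨_, rfl⟩
    have hK0 : 0 < K := by
      rw [hK]
      positivity
    obtain ⟨e₂, he₂⟩ : ∃ e₂, e₂ = min (1 / 2) (e / 12) := ⟨_, rfl⟩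
    have he₂0 : 0 < e₂ := by
      rw [he₂]
      positivity
    have he₂1 : e₂ ≤ 1 / 2 := by rw [he₂]; exact min_le_left _ _
    have he₂2 : e₂ ≤ e / 12 := by rw [he₂]; exact min_le_right _ _
    obtain ⟨ε₁, hε₁⟩ : ∃ ε₁, ε₁ = e / (8 * K) := ⟨_, rfl⟩
    have hε₁0 : 0 < ε₁ := by
      rw [hε₁]
      positivity
    have hε₁K : ε₁ * K ≤ e / 8 := by
      rw [hε₁]
      apply le_of_eq
      field_simp
    obtain ⟨δ₁, hδ₁, hb₁⟩ := hF.smX.strict_est hu0 hε₁0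
    obtain ⟨δ₂, hδ₂, hb₂⟩ := hF.smY.strict_est hAu0 hε₁0
    obtain ⟨ε, θ, ρ, hε0, hεδ, hiso, ht, hρ⟩ := second_scale P haP hbP (e := e₂) (δ :=
      min δ₁ δ₂ / (2 * K)) he₂0 (by positivity)
    rw [hsub] at hiso
    rw [hsub, hadd] at ht hρ
    have hεK : ε * (2 * K) < min δ₁ δ₂ := by rwa [lt_div_iff₀ (by positivity)] at hεδ
    have hεK1 : ε * (2 * K) < δ₁ := hεK.trans_le (min_le_left _ _)
    have hεK2 : ε * (2 * K) < δ₂ := hεK.trans_le (min_le_right _ _)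
    have hθ1 : |θ| ≤ ε * (|HH w u| + 1) := by
      have e1 : θ = (θ - ε / 2 * HH w u) + ε / 2 * HH w u := by ring
      rw [e1]
      refine (abs_add_le _ _).trans ?_
      rw [abs_mul, abs_of_pos (by positivity : 0 < ε / 2)]
      nlinarith [abs_nonneg (HH w u)]
    have hnθ : ‖θ • x₀‖ = |θ| := by
      rw [norm_smul, hF.unit, mul_one, Real.norm_eq_abs]
    have hnθ' : ‖θ • g x₀‖ = |θ| := by
      rw [norm_smul, hF.y_unit, mul_one, Real.norm_eq_abs]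
    have hρn : ‖ρ‖ ≤ |θ| + ε / 2 * ‖BB w u‖ + e₂ * ε := by
      have e1 : ρ = (ρ + θ • g x₀ - (ε / 2) • BB w u) - θ • g x₀ + (ε / 2) • BB w u := by abel
      rw [e1]
      refine (norm_add_le _ _).trans ?_
      have h1 := norm_sub_le (ρ + θ • g x₀ - (ε / 2) • BB w u) (θ • g x₀)
      rw [norm_smul (ε / 2), Real.norm_of_nonneg (by positivity : 0 ≤ ε / 2), hnθ'] at *
      linarith
    have hK1 : |HH w u| + 1 ≤ K := by
      rw [hK]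
      linarith [norm_nonneg (BB w u)]
    have hθK : |θ| ≤ ε * K := hθ1.trans (mul_le_mul_of_nonneg_left hK1 hε0.le)
    have hρK : ‖ρ‖ ≤ ε * (2 * K) := by
      have h1 : ε / 2 * ‖BB w u‖ + e₂ * ε ≤ ε * K := by
        rw [hK]
        nlinarith [abs_nonneg (HH w u), norm_nonneg (BB w u)]
      nlinarith
    have E1 := hb₁ u (u - θ • x₀) (by simpa using hδ₁) (by
      rw [sub_sub_cancel_left, norm_neg, hnθ]
      nlinarith)
    have E2 := hb₂ (A u) (A u + ρ) (by simpa using hδ₂) (by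
      rw [add_sub_cancel_left]
      linarith)
    rw [sub_sub_cancel_left, norm_neg, hnθ, map_neg, map_smul, smul_eq_mul, ← hiso] at E1
    rw [add_sub_cancel_left, hF.normA hu] at E2
    refine second_arith (Ψ₀ := chi (A u) (g x₀)) (ψ := chi u x₀) (H := HH w u)
      (Bq := chi (A u) (BB w u)) (r₁ := chi (A u) (ρ + θ • g x₀ - (ε / 2) • BB w u))
      (nB := ‖BB w u‖) (nρ := ‖ρ‖) (Pρ := chi (A u) ρ) (e₂ := e₂) (ε₁ := ε₁) (K := K) hK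
      (norm_nonneg _) hε0 he₂0 he₂1 he₂2 hε₁0 hε₁K E1 E2 ?_ ?_ ht hρn ?_ ?_
    · rw [map_sub, map_add, map_smul, map_smul, smul_eq_mul, smul_eq_mul]
      ring
    · refine (abs_chi_le _ _).trans hρ
    · have := abs_chi_le u x₀
      rwa [hF.unit] at this
    · have := abs_chi_le (A u) (g x₀)
      rwa [hF.y_unit] at this
  by_contra hne
  have hpos := abs_pos.2 (sub_ne_zero.2 hne)
  have h1 := hmain _ (half_pos hpos)
  linarith

end Second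

end Vale.Agent.Lib.P084.Str
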