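import Mathlib

/-! A function whose gradient is a quadratic form up to higher order terms: the associated trilinear
form is totally symmetric. -/

namespace Vale.Agent.Lib.P084.Str

open Set Metric Filter Topology

section TwoPath

variable {V : Type*} [NormedAddCommGroup V] [NormedSpace ℝ V]

/-- Expansion of a trilinear form on a line. -/
lemma tri_line (C : V →L[ℝ] V →L[ℝ] V →L[ℝ] ℝ) (hC : ∀ a b c, C a b c = C b a c) (a b : V)
    (ε s : ℝ) :
    C (ε • a + s • (ε • b)) (ε • a + s • (ε • b)) (ε • b) =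
      ε ^ 3 * (C a a b + 2 * s * C a b b + s ^ 2 * C b b b) := by
  simp only [map_add, map_smul, _root_.add_apply, _root_.smul_apply, smul_eq_mul, hC b a b]
  ring

/-- Mean value estimate along a segment. -/
lemma path_est {ω : V → ℝ} (C : V →L[ℝ] V →L[ℝ] V →L[ℝ] ℝ) (hC : ∀ a b c, C a b c = C b a c)
    {D : V → V → ℝ} {r₀ : ℝ} (hD : ∀ η c, ‖η‖ < r₀ → HasDerivAt (fun s : ℝ => ω (η + s • c)) (D η c) 0)
    {e r : ℝ} (he : 0 ≤ e) (hest : ∀ η c, ‖η‖ < r → |D η c + C η η c| ≤ e * ‖η‖ ^ 2 * ‖c‖)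
    (a b : V) {ε : ℝ} (hε : 0 < ε) (h1 : ε * (‖a‖ + ‖b‖) < r₀) (h2 : ε * (‖a‖ + ‖b‖) < r) :
    |ω (ε • a + ε • b) - ω (ε • a) +
        ε ^ 3 * (C a a b + C a b b + 1 / 3 * C b b b)| ≤
      e * (ε * (‖a‖ + ‖b‖)) ^ 2 * (ε * ‖b‖) := by
  obtain ⟨ρ, hρ⟩ : ∃ ρ : ℝ → ℝ, ρ = fun s : ℝ => ω (ε • a + s • (ε • b)) +
      ε ^ 3 * (s * C a a b + s ^ 2 * C a b b + s ^ 3 / 3 * C b b b) := ⟨_, rfl⟩
  obtain ⟨ρ', hρ'⟩ : ∃ ρ' : ℝ → ℝ, ρ' = fun s : ℝ => D (ε • a + s • (ε • b)) (ε • b) +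
      ε ^ 3 * (C a a b + 2 * s * C a b b + s ^ 2 * C b b b) := ⟨_, rfl⟩
  have hnorm : ∀ s ∈ Icc (0 : ℝ) 1, ‖ε • a + s • (ε • b)‖ ≤ ε * (‖a‖ + ‖b‖) := by
    intro s hs
    refine (norm_add_le _ _).trans ?_
    rw [norm_smul, norm_smul, norm_smul, Real.norm_of_nonneg hε.le, Real.norm_of_nonneg hs.1]
    have h3 : s * (ε * ‖b‖) ≤ 1 * (ε * ‖b‖) := mul_le_mul_of_nonneg_right hs.2 (by positivity)
    linarith
  have hderiv : ∀ s ∈ Icc (0 : ℝ) 1, HasDerivWithinAt ρ (ρ' s) (Icc 0 1) s := by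
    intro s hs
    refine HasDerivAt.hasDerivWithinAt ?_
    have h3 := hD (ε • a + s • (ε • b)) (ε • b) ((hnorm s hs).trans_lt h1)
    have h4 : HasDerivAt (fun s' : ℝ => ω (ε • a + s' • (ε • b))) (D (ε • a + s • (ε • b)) (ε • b))
        s := by
      have h5 : HasDerivAt (fun t : ℝ => ω ((ε • a + s • (ε • b)) + t • (ε • b)))
          (D (ε • a + s • (ε • b)) (ε • b)) (s - s) := by
        rw [sub_self]
        exact h3
      have h6 := h5.comp_sub_const s s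
      refine h6.congr_of_eventuallyEq (Filter.Eventually.of_forall fun s' => ?_)
      simp only
      congr 1
      rw [add_assoc, ← add_smul]
      congr 2
      ring
    have h7 : HasDerivAt (fun s : ℝ => s * C a a b + s ^ 2 * C a b b + s ^ 3 / 3 * C b b b)
        (C a a b + 2 * s * C a b b + s ^ 2 * C b b b) s := by
      have h8 : HasDerivAt (fun s : ℝ => s * C a a b) (C a a b) s := by
        simpa using (hasDerivAt_id s).mul_const (C a a b)
      have h9 : HasDerivAt (fun s : ℝ => s ^ 2 * C a b b) (2 * s * C a b b) s := by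
        simpa using (hasDerivAt_pow 2 s).mul_const (C a b b)
      have h10 : HasDerivAt (fun s : ℝ => s ^ 3 / 3 * C b b b) (s ^ 2 * C b b b) s := by
        have := ((hasDerivAt_pow 3 s).div_const 3).mul_const (C b b b)
        refine this.congr_deriv ?_
        norm_num
      exact (h8.fun_add h9).fun_add h10
    rw [hρ, hρ']
    exact h4.fun_add (h7.const_mul (ε ^ 3))
  have hbound : ∀ s ∈ Ico (0 : ℝ) 1, ‖ρ' s‖ ≤ e * (ε * (‖a‖ + ‖b‖)) ^ 2 * (ε * ‖b‖) := by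
    intro s hs
    have hsI : s ∈ Icc (0 : ℝ) 1 := ⟨hs.1, hs.2.le⟩
    have h3 := hnorm s hsI
    have h4 := hest (ε • a + s • (ε • b)) (ε • b) (h3.trans_lt h2)
    rw [tri_line C hC] at h4
    rw [hρ', Real.norm_eq_abs]
    refine h4.trans ?_
    rw [norm_smul, Real.norm_of_nonneg hε.le]
    refine mul_le_mul_of_nonneg_right ?_ (by positivity)
    refine mul_le_mul_of_nonneg_left ?_ he
    exact pow_le_pow_left₀ (norm_nonneg _) h3 2
  have hmv := norm_image_sub_le_of_norm_deriv_le_segment_01' hderiv hbound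
  rw [Real.norm_eq_abs] at hmv
  have e1 : ρ 1 - ρ 0 = ω (ε • a + ε • b) - ω (ε • a) +
      ε ^ 3 * (C a a b + C a b b + 1 / 3 * C b b b) := by
    rw [hρ]
    simp only [one_smul, zero_smul, add_zero, one_mul, one_pow, zero_mul, ne_eq,
      OfNat.ofNat_ne_zero, not_false_eq_true, zero_pow, zero_div, mul_zero]
    ring
  rw [← e1]
  exact hmv

lemma cube_bound {ε x y N : ℝ} (hε : 0 < ε) (hx : 0 ≤ x) (hy : 0 ≤ y) (hxN : x ≤ N) (hyN : y ≤ N) :
    (ε * x) ^ 2 * (ε * y) ≤ ε ^ 3 * N ^ 3 := by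
  have h1 : x ^ 2 ≤ N ^ 2 := pow_le_pow_left₀ hx hxN 2
  have h2 : x ^ 2 * y ≤ N ^ 2 * N := mul_le_mul h1 hyN hy (by positivity)
  have h3 : (ε * x) ^ 2 * (ε * y) = ε ^ 3 * (x ^ 2 * y) := by ring
  rw [h3]
  have h4 : N ^ 3 = N ^ 2 * N := by ring
  rw [h4]
  exact mul_le_mul_of_nonneg_left h2 (by positivity)

lemma four_abs {X1 X2 X3 X4 E : ℝ} (h1 : |X1| ≤ E) (h2 : |X2| ≤ E) (h3 : |X3| ≤ E) (h4 : |X4| ≤ E) :
    |X1 + X3 - X2 - X4| ≤ 4 * E := by
  have e1 := abs_le.1 h1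
  have e2 := abs_le.1 h2
  have e3 := abs_le.1 h3
  have e4 := abs_le.1 h4
  rw [abs_le]
  constructor <;> linarith [e1.1, e1.2, e2.1, e2.2, e3.1, e3.2, e4.1, e4.2]

/-- The comparison of the two paths at one scale. -/
lemma two_path_step {ω : V → ℝ} (C : V →L[ℝ] V →L[ℝ] V →L[ℝ] ℝ) (hC : ∀ a b c, C a b c = C b a c)
    {D : V → V → ℝ} {r₀ : ℝ}
    (hD : ∀ η c, ‖η‖ < r₀ → HasDerivAt (fun s : ℝ => ω (η + s • c)) (D η c) 0)
    {e r : ℝ} (he : 0 ≤ e) (hb : ∀ η c, ‖η‖ < r → |D η c + C η η c| ≤ e * ‖η‖ ^ 2 * ‖c‖)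
    (a b : V) {ε : ℝ} (hε0 : 0 < ε) (h₁ : ε * (‖a‖ + ‖b‖) < r₀) (h₂ : ε * (‖a‖ + ‖b‖) < r) :
    |C a a b + C a b b - (C b b a + C b a a)| ≤ e * (4 * (‖a‖ + ‖b‖ + 1) ^ 3) := by
  have ha0 := norm_nonneg a
  have hb0 := norm_nonneg b
  have hεa : ε * ‖a‖ ≤ ε * (‖a‖ + ‖b‖) := mul_le_mul_of_nonneg_left (by linarith) hε0.le
  have hεb : ε * ‖b‖ ≤ ε * (‖a‖ + ‖b‖) := mul_le_mul_of_nonneg_left (by linarith) hε0.le
  have hab := path_est C hC hD he hb a b hε0 h₁ h₂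
  have hba := path_est C hC hD he hb b a hε0 (by rwa [add_comm]) (by rwa [add_comm])
  have h0a := path_est C hC hD he hb 0 a hε0 (by
    rw [norm_zero, zero_add]
    linarith) (by
    rw [norm_zero, zero_add]
    linarith)
  have h0b := path_est C hC hD he hb 0 b hε0 (by
    rw [norm_zero, zero_add]
    linarith) (by
    rw [norm_zero, zero_add]
    linarith)
  simp only [smul_zero, zero_add, map_zero, _root_.zero_apply, norm_zero] at h0a h0b
  rw [add_comm (ε • b)] at hba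
  obtain ⟨N, hN⟩ : ∃ N, N = ‖a‖ + ‖b‖ + 1 := ⟨_, rfl⟩
  rw [← hN]
  have c1 := cube_bound (N := N) hε0 (add_nonneg ha0 hb0) hb0 (by linarith) (by linarith)
  have c2 := cube_bound (N := N) hε0 (add_nonneg hb0 ha0) ha0 (by linarith) (by linarith)
  have c3 := cube_bound (N := N) hε0 ha0 ha0 (by linarith) (by linarith)
  have c4 := cube_bound (N := N) hε0 hb0 hb0 (by linarith) (by linarith)
  have d1 : |ω (ε • a + ε • b) - ω (ε • a) + ε ^ 3 * (C a a b + C a b b + 1 / 3 * C b b b)| ≤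
      e * (ε ^ 3 * N ^ 3) := hab.trans (by
    rw [mul_assoc]
    exact mul_le_mul_of_nonneg_left c1 he)
  have d2 : |ω (ε • a + ε • b) - ω (ε • b) + ε ^ 3 * (C b b a + C b a a + 1 / 3 * C a a a)| ≤
      e * (ε ^ 3 * N ^ 3) := hba.trans (by
    rw [mul_assoc]
    exact mul_le_mul_of_nonneg_left c2 he)
  have d3 : |ω (ε • a) - ω 0 + ε ^ 3 * (1 / 3 * C a a a)| ≤ e * (ε ^ 3 * N ^ 3) := h0a.trans (by
    rw [mul_assoc]
    exact mul_le_mul_of_nonneg_left c3 he)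
  have d4 : |ω (ε • b) - ω 0 + ε ^ 3 * (1 / 3 * C b b b)| ≤ e * (ε ^ 3 * N ^ 3) := h0b.trans (by
    rw [mul_assoc]
    exact mul_le_mul_of_nonneg_left c4 he)
  have h5 := four_abs d1 d2 d3 d4
  have hε3 : 0 < ε ^ 3 := by positivity
  have e1 : ω (ε • a + ε • b) - ω (ε • a) + ε ^ 3 * (C a a b + C a b b + 1 / 3 * C b b b) +
      (ω (ε • a) - ω 0 + ε ^ 3 * (1 / 3 * C a a a)) -
      (ω (ε • a + ε • b) - ω (ε • b) + ε ^ 3 * (C b b a + C b a a + 1 / 3 * C a a a)) -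
      (ω (ε • b) - ω 0 + ε ^ 3 * (1 / 3 * C b b b)) =
      ε ^ 3 * (C a a b + C a b b - (C b b a + C b a a)) := by ring
  rw [e1, abs_mul, abs_of_pos hε3] at h5
  have e2 : 4 * (e * (ε ^ 3 * N ^ 3)) = ε ^ 3 * (e * (4 * N ^ 3)) := by ring
  rw [e2] at h5
  exact le_of_mul_le_mul_left h5 hε3

/-- **Two paths.** -/
theorem two_path {ω : V → ℝ} (C : V →L[ℝ] V →L[ℝ] V →L[ℝ] ℝ) (hC : ∀ a b c, C a b c = C b a c)
    {D : V → V → ℝ} {r₀ : ℝ} (hr₀ : 0 < r₀)
    (hD : ∀ η c, ‖η‖ < r₀ → HasDerivAt (fun s : ℝ => ω (η + s • c)) (D η c) 0)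
    (hest : ∀ e : ℝ, 0 < e → ∃ r : ℝ, 0 < r ∧ ∀ η c, ‖η‖ < r →
      |D η c + C η η c| ≤ e * ‖η‖ ^ 2 * ‖c‖) (a b : V) : C a a b = C a b a := by
  -- the identity from comparing two paths
  have key : ∀ a b : V, C a a b + C a b b = C b b a + C b a a := by
    intro a b
    obtain ⟨M, hM⟩ : ∃ M, M = 4 * (‖a‖ + ‖b‖ + 1) ^ 3 := ⟨_, rfl⟩
    have hM0 : 0 < M := by
      rw [hM]
      positivity
    have hmain : ∀ e : ℝ, 0 < e →
        |C a a b + C a b b - (C b b a + C b a a)| ≤ e * M := by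
      intro e he
      obtain ⟨r, hr, hb⟩ := hest e he
      obtain ⟨ε, hε⟩ : ∃ ε, ε = min r₀ r / (2 * (‖a‖ + ‖b‖ + 1)) := ⟨_, rfl⟩
      have hε0 : 0 < ε := by
        rw [hε]
        positivity
      have hε1 : ε * (‖a‖ + ‖b‖ + 1) < min r₀ r := by
        rw [hε]
        have : min r₀ r / (2 * (‖a‖ + ‖b‖ + 1)) * (‖a‖ + ‖b‖ + 1) = min r₀ r / 2 := by
          field_simp
        rw [this]
        have : 0 < min r₀ r := by positivity
        linarith
      have hε2 : ε * (‖a‖ + ‖b‖) < min r₀ r := by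
        have : ε * (‖a‖ + ‖b‖) ≤ ε * (‖a‖ + ‖b‖ + 1) := by
          have := mul_le_mul_of_nonneg_left (by linarith : ‖a‖ + ‖b‖ ≤ ‖a‖ + ‖b‖ + 1) hε0.le
          exact this
        linarith
      rw [hM]
      exact two_path_step C hC hD he.le hb a b hε0 (hε2.trans_le (min_le_left _ _))
        (hε2.trans_le (min_le_right _ _))
    by_contra hne
    have hpos := abs_pos.2 (sub_ne_zero.2 hne)
    have h1 := hmain (|C a a b + C a b b - (C b b a + C b a a)| / (2 * M)) (by positivity)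
    have h2 : |C a a b + C a b b - (C b b a + C b a a)| / (2 * M) * M =
        |C a a b + C a b b - (C b b a + C b a a)| / 2 := by
      field_simp
    rw [h2] at h1
    linarith
  have h1 := key a b
  have h2 := key a (-b)
  simp only [map_neg, _root_.neg_apply, neg_neg] at h2
  rw [hC b a a] at h1 h2
  linarith

/-- Polarisation: a trilinear form symmetric in the first two arguments with `C a a b = C a b a`
is symmetric in the last two arguments. -/
theorem tri_symm (C : V →L[ℝ] V →L[ℝ] V →L[ℝ] ℝ) (hC : ∀ a b c, C a b c = C b a c)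
    (h : ∀ a b, C a a b = C a b a) (a b c : V) : C a b c = C a c b := by
  have key : ∀ a b c : V, 2 * C a b c = C a c b + C b c a := by
    intro a b c
    have h1 := h (a + b) c
    simp only [map_add, _root_.add_apply] at h1
    rw [h a c, h b c, hC b a c] at h1
    linarith
  have h1 := key a b c
  have h2 := key a c b
  rw [hC c b a] at h2
  linarith

end TwoPath

end Vale.Agent.Lib.P084.Str
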