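import Mathlib
import Vale.Agent.Lib.P084.Str.Second
import Vale.Agent.Lib.P084.Str.TwoPath

/-! Expansion of the minimisers of the Legendre type problem near the base point. -/

namespace Vale.Agent.Lib.P084.Str

open Set Metric Filter Topology
open Vale.Agent.Lib.P084

section Leg

variable {X Y : Type*} [NormedAddCommGroup X] [NormedSpace ℝ X]
  [NormedAddCommGroup Y] [NormedSpace ℝ Y] {g : X → Y} {h : Y → X} {x₀ : X} {A : X →L[ℝ] Y}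
  {Λ : Y →L[ℝ] X} {BB : X →L[ℝ] X →L[ℝ] Y} {HH : X →L[ℝ] X →L[ℝ] ℝ}
  [FiniteDimensional ℝ X]

/-- Coercivity of the curvature form on the tangent hyperplane. -/
lemma coercive (P : Peano g h x₀ A Λ BB HH) : ∃ c : ℝ, 0 < c ∧ ∀ w, chi x₀ w = 0 →
    c * ‖w‖ ^ 2 ≤ HH w w := by
  let S : Set X := sphere (0 : X) 1 ∩ {v | chi x₀ v = 0}
  have hSc : IsCompact S :=
    (isCompact_sphere _ _).inter_right (isClosed_eq (chi x₀).continuous continuous_const)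
  have hcont : ContinuousOn (fun v : X => HH v v) S := by
    refine Continuous.continuousOn ?_
    fun_prop
  obtain ⟨c, hc, hcS⟩ : ∃ c : ℝ, 0 < c ∧ ∀ v ∈ S, c ≤ HH v v := by
    rcases S.eq_empty_or_nonempty with he | hne
    · exact ⟨1, one_pos, fun v hv => by rw [he] at hv; exact absurd hv (notMem_empty v)⟩
    · obtain ⟨v₀, hv₀, hmin⟩ := hSc.exists_isMinOn hne hcont
      have hv₀1 : ‖v₀‖ = 1 := by simpa using hv₀.1
      have hv₀0 : v₀ ≠ 0 := by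
        rintro rfl
        simp at hv₀1
      exact ⟨_, P.H_pos v₀ hv₀.2 hv₀0, fun v hv => hmin hv⟩
  refine ⟨c, hc, fun w hw => ?_⟩
  by_cases hw0 : w = 0
  · simp [hw0]
  have hn : 0 < ‖w‖ := norm_pos_iff.2 hw0
  have h1 := hcS (‖w‖⁻¹ • w) ⟨by simpa using unit_of_ne hw0, by simp [hw]⟩
  simp only [map_smul, _root_.smul_apply, smul_eq_mul] at h1
  have h2 : ‖w‖ ^ 2 * (‖w‖⁻¹ * (‖w‖⁻¹ * HH w w)) = HH w w := by
    field_simp
  have h3 := mul_le_mul_of_nonneg_left h1 (by positivity : 0 ≤ ‖w‖ ^ 2)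
  rw [h2] at h3
  linarith

/-- The minimiser is close to the base point for small functionals. -/
lemma isMin_near [StrictConvexSpace ℝ X] (hs : Smooth X) (hx₀ : ‖x₀‖ = 1) {r : ℝ} (hr : 0 < r) :
    ∃ η : ℝ, 0 < η ∧ ∀ ξ y a, ‖ξ‖ < η → IsMin x₀ ξ y a → ‖y - x₀‖ < r := by
  obtain ⟨η, hη, hb⟩ := (isMin_zero hs hx₀).close hs hr
  exact ⟨η, hη, fun ξ y a h1 h2 => hb ξ y a (by rwa [sub_zero]) h2⟩

/-- **First order expansion of the minimiser.** -/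
theorem minimizer_exp [StrictConvexSpace ℝ X] (P : Peano g h x₀ A Λ BB HH) {e : ℝ} (he : 0 < e) :
    ∃ r : ℝ, 0 < r ∧ ∀ η y a, chi x₀ η = 0 → ‖η‖ < r → IsMin x₀ (HH η) y a →
      ‖y - x₀ - η‖ ≤ e * ‖η‖ := by
  have hF := P.toFirstData
  obtain ⟨c₀, hc₀, hcoer⟩ := coercive P
  obtain ⟨e₀, he₀⟩ : ∃ e₀, e₀ = min (1 / 2) (e / 2) := ⟨_, rfl⟩
  have he₀0 : 0 < e₀ := by
    rw [he₀]
    positivity
  have he₀1 : e₀ ≤ 1 / 2 := by rw [he₀]; exact min_le_left _ _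
  have he₀2 : e₀ ≤ e / 2 := by rw [he₀]; exact min_le_right _ _
  have h3 := hasFDerivAt_iff_isLittleO_nhds_zero.1 P.chi_exp
  have h4 := Asymptotics.isLittleO_iff.1 h3 (show 0 < c₀ * e₀ by positivity)
  obtain ⟨r₃, hr₃, hb₃⟩ := Metric.eventually_nhds_iff.1 h4
  obtain ⟨η₀, hη₀, hb₀⟩ := isMin_near hF.smX hF.unit hr₃
  refine ⟨η₀ / (‖HH‖ + 1), by positivity, fun η y a hη hηr hm => ?_⟩
  have hHη : ‖HH η‖ < η₀ := by
    refine (HH.le_opNorm η).trans_lt ?_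
    rw [lt_div_iff₀ (by positivity)] at hηr
    nlinarith [norm_nonneg HH, norm_nonneg η]
  have hd := hb₀ _ y a hHη hm
  obtain ⟨d, hddef⟩ : ∃ d, d = y - x₀ := ⟨_, rfl⟩
  rw [← hddef] at hd ⊢
  have hy : y = x₀ + d := by rw [hddef]; abel
  have hdP : chi x₀ d = 0 := by
    rw [hddef, map_sub, hm.aff, hF.phi_self, sub_self]
  have h5 := @hb₃ d (by rwa [dist_zero_right])
  rw [← hy] at h5
  obtain ⟨v, hv⟩ : ∃ v, v = η - d := ⟨_, rfl⟩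
  have hvP : chi x₀ v = 0 := by
    rw [hv, map_sub, hη, hdP, sub_self]
  have h6 : HH v v = (chi y - chi x₀ - HH d) v := by
    simp only [_root_.sub_apply]
    rw [hm.apply, hvP, hv]
    simp only [map_sub, _root_.sub_apply]
    ring
  have h7 : HH v v ≤ c₀ * e₀ * ‖d‖ * ‖v‖ := by
    rw [h6]
    have h8 := (chi y - chi x₀ - HH d).le_opNorm v
    rw [Real.norm_eq_abs] at h8
    exact (le_abs_self _).trans (h8.trans (mul_le_mul_of_nonneg_right h5 (norm_nonneg _)))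
  have h9 := hcoer v hvP
  have hvd : ‖v‖ ≤ e₀ * ‖d‖ := by
    by_cases hv0 : v = 0
    · rw [hv0, norm_zero]
      positivity
    have hvn : 0 < ‖v‖ := norm_pos_iff.2 hv0
    have h10 : c₀ * ‖v‖ * ‖v‖ ≤ c₀ * (e₀ * ‖d‖) * ‖v‖ := by nlinarith
    have h11 := le_of_mul_le_mul_right h10 hvn
    exact le_of_mul_le_mul_left h11 hc₀
  have hdη : ‖d‖ ≤ 2 * ‖η‖ := by
    have e1 : d = η - v := by rw [hv]; abel
    have h10 : ‖d‖ ≤ ‖η‖ + ‖v‖ := by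
      conv_lhs => rw [e1]
      exact norm_sub_le _ _
    have h11 : e₀ * ‖d‖ ≤ 1 / 2 * ‖d‖ := mul_le_mul_of_nonneg_right he₀1 (norm_nonneg _)
    linarith
  have e2 : d - η = -v := by rw [hv]; abel
  rw [e2, norm_neg]
  have h12 : e₀ * ‖d‖ ≤ (e / 2) * (2 * ‖η‖) :=
    mul_le_mul he₀2 hdη (norm_nonneg _) (by positivity)
  linarith

/-- Families of minimisers for functionals given by small tangent vectors. -/
lemma exists_H_families [FiniteDimensional ℝ Y] [StrictConvexSpace ℝ X] [StrictConvexSpace ℝ Y]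
    (P : Peano g h x₀ A Λ BB HH) :
    ∃ (r₀ : ℝ) (y₁ : X → X) (y₂ : X → Y) (a₁ a₂ : X → ℝ), 0 < r₀ ∧ ∀ η, chi x₀ η = 0 → ‖η‖ < r₀ →
      IsMin x₀ (HH η) (y₁ η) (a₁ η) ∧ IsMin (g x₀) ((HH η).comp Λ) (y₂ η) (a₂ η) := by
  have hF := P.toFirstData
  obtain ⟨r₀, hr₀⟩ : ∃ r₀, r₀ = 1 / (2 * (‖HH‖ + 1)) := ⟨_, rfl⟩
  have hr₀0 : 0 < r₀ := by
    rw [hr₀]
    positivity
  have hex : ∀ η : X, ∃ q : X × Y × ℝ × ℝ, chi x₀ η = 0 → ‖η‖ < r₀ →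
      IsMin x₀ (HH η) q.1 q.2.2.1 ∧ IsMin (g x₀) ((HH η).comp Λ) q.2.1 q.2.2.2 := by
    intro η
    by_cases hη : chi x₀ η = 0 ∧ ‖η‖ < r₀
    · have hξ0 : HH η x₀ = 0 := P.H_x' η
      have hsmall : ‖HH‖ * ‖η‖ ≤ 1 / 2 := by
        have h1 : ‖η‖ * (2 * (‖HH‖ + 1)) < 1 := by
          have := hη.2
          rw [hr₀, lt_div_iff₀ (by positivity)] at this
          exact this
        nlinarith [norm_nonneg HH, norm_nonneg η]
      obtain ⟨y, a, hm⟩ := exists_isMin hF.smX hF.unit hξ0 (θ := 1 / 2) (by norm_num)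
        (fun w _ => by
          have h1 := (HH η).le_opNorm w
          have h2 := HH.le_opNorm η
          rw [Real.norm_eq_abs] at h1
          have h3 : ‖HH η‖ * ‖w‖ ≤ 1 / 2 * ‖w‖ :=
            mul_le_mul_of_nonneg_right (h2.trans hsmall) (norm_nonneg w)
          exact (le_abs_self _).trans (h1.trans h3))
      obtain ⟨t, ht, hu⟩ := exit_chord hF.smX hF.unit hm.aff
      obtain ⟨_, t₂, y₂, b, _, _, hm₂, _⟩ := isMin_chord hF hξ0 hm ht hu (by rw [sub_sub_cancel])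
      exact ⟨⟨y, y₂, a, b⟩, fun _ _ => ⟨hm, hm₂⟩⟩
    · exact ⟨⟨0, 0, 0, 0⟩, fun h1 h2 => absurd ⟨h1, h2⟩ hη⟩
  choose q hq using hex
  exact ⟨r₀, fun η => (q η).1, fun η => (q η).2.1, fun η => (q η).2.2.1, fun η => (q η).2.2.2, hr₀0,
    fun η h1 h2 => hq η h1 h2⟩

/-- Location of the exit time of the ray through a point of the tangent hyperplane. -/
lemma exit_time (hs : Smooth X) (hx₀ : ‖x₀‖ = 1) {y : X} (hy : chi x₀ y = 1) (hd : ‖y - x₀‖ < 1)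
    {t : ℝ} (ht : 0 < t) (hu : ‖x₀ - t • y‖ = 1) : 1 ≤ t ∧ t ≤ 2 ∧ 2 - t ≤ 2 * ‖y - x₀‖ := by
  have hx0 : x₀ ≠ 0 := by
    rintro rfl
    simp at hx₀
  have hself : chi x₀ x₀ = 1 := by rw [hs.chi_self hx0, hx₀]
  have h1 : |1 - t| ≤ 1 := by
    have := abs_chi_le x₀ (x₀ - t • y)
    rwa [map_sub, map_smul, hself, hy, hu, smul_eq_mul, mul_one] at this
  have ht2 : t ≤ 2 := by
    have := (abs_le.1 h1).1
    linarith
  have e : x₀ - t • y = (1 - t) • x₀ - t • (y - x₀) := by module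
  have h2 : 1 ≤ |1 - t| + t * ‖y - x₀‖ := by
    have h3 := norm_sub_le ((1 - t) • x₀) (t • (y - x₀))
    rw [← e, hu, norm_smul, norm_smul, hx₀, mul_one, Real.norm_eq_abs, Real.norm_of_nonneg ht.le]
      at h3
    exact h3
  have ht1 : 1 ≤ t := by
    by_contra hc
    push Not at hc
    rw [abs_of_pos (by linarith)] at h2
    have h4 : t * 1 ≤ t * ‖y - x₀‖ := by linarith
    have := le_of_mul_le_mul_left h4 ht
    linarith
  refine ⟨ht1, ht2, ?_⟩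
  rw [abs_of_nonpos (by linarith)] at h2
  have h5 : t * ‖y - x₀‖ ≤ 2 * ‖y - x₀‖ := mul_le_mul_of_nonneg_right ht2 (norm_nonneg _)
  linarith

/-- The image chord in the direction of a point of the tangent hyperplane. -/
lemma chord_vector (P : Peano g h x₀ A Λ BB HH) {y₁ : X} {t : ℝ} (hu : ‖x₀ - t • y₁‖ = 1) :
    g x₀ - g (x₀ - t • y₁) = t • A y₁ + (t ^ 2 / 2) • BB (y₁ - x₀) (y₁ - x₀) +
      (g (t • y₁ - x₀) - A (t • y₁ - x₀) -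
        (1 / 2 : ℝ) • BB (t • y₁ - x₀ - x₀) (t • y₁ - x₀ - x₀)) := by
  have hF := P.toFirstData
  have : Nontrivial X := ⟨⟨x₀, 0, hF.x0_ne⟩⟩
  have hv : ‖t • y₁ - x₀‖ = 1 := by
    rw [← norm_neg, neg_sub]
    exact hu
  have e1 : x₀ - t • y₁ = -(t • y₁ - x₀) := by abel
  rw [e1, Vale.Agent.Lib.P084.sphere_odd hF.iso hv]
  have e2 : t • y₁ - x₀ - x₀ = (t - 2) • x₀ + t • (y₁ - x₀) := by module
  have e3 : BB (t • y₁ - x₀ - x₀) (t • y₁ - x₀ - x₀) = t ^ 2 • BB (y₁ - x₀) (y₁ - x₀) := by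
    rw [e2]
    simp only [map_add, map_smul, _root_.add_apply, _root_.smul_apply, P.B_x, P.B_x', smul_zero,
      zero_add, add_zero, smul_smul]
    congr 1
    ring
  have e4 : A (t • y₁ - x₀) = t • A y₁ - g x₀ := by
    rw [map_sub, map_smul, hF.Ax]
  rw [e3, e4]
  module

lemma e_vector (P : Peano g h x₀ A Λ BB HH) {y₁ : X} {t t₂ : ℝ} {y₂ R Q : Y}
    (h1 : t₂ • y₂ = t • A y₁ + (t ^ 2 / 2) • Q + R) :
    t₂ • (Λ y₂ - y₁ - Λ Q) = (t - t₂) • y₁ + (t ^ 2 / 2 - t₂) • Λ Q + Λ R := by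
  have h2 : t₂ • Λ y₂ = t • y₁ + (t ^ 2 / 2) • Λ Q + Λ R := by
    rw [← map_smul, h1, map_add, map_add, map_smul, map_smul, P.left]
  rw [smul_sub, smul_sub, h2]
  module

lemma e_arith {t t₂ r₁ nR nd nE W nΛ e₁ e' ny nQ nLR : ℝ} (hd0 : 0 ≤ nd) (hd : nd ≤ 1 / 8)
    (ht1 : 1 ≤ t) (ht2 : t ≤ 2) (ht3 : 2 - t ≤ 2 * nd) (ht₂ : t₂ = t + r₁) (hr₁ : |r₁| ≤ nR)
    (hR : nR ≤ 16 * e₁ * nd ^ 2) (he₁0 : 0 < e₁) (he₁1 : e₁ ≤ 1) (hy : ny ≤ 1 + nd) (hW : 0 ≤ W)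
    (hQ : nQ ≤ W * nd ^ 2) (hQ0 : 0 ≤ nQ) (hnΛ : 0 ≤ nΛ) (hLR : nLR ≤ nΛ * nR)
    (hE : t₂ * nE ≤ |t - t₂| * ny + |t ^ 2 / 2 - t₂| * nQ + nLR)
    (hny0 : 0 ≤ ny) (hnE : 0 ≤ nE)
    (he₁ : (64 + 32 * nΛ) * e₁ ≤ e' / 2) (hdW : 8 * nd * W ≤ e' / 2) : nE ≤ e' * nd ^ 2 := by
  have hd2 : 0 ≤ nd ^ 2 := by positivity
  have hnR0 : 0 ≤ nR := (abs_nonneg _).trans hr₁
  have hr₂ := abs_le.1 hr₁
  have hR1 : nR ≤ 1 / 4 := by nlinarith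
  have ht₂1 : 1 / 2 ≤ t₂ := by
    rw [ht₂]
    linarith [hr₂.1]
  have h1 : |t - t₂| ≤ nR := by
    rw [ht₂]
    have : t - (t + r₁) = -r₁ := by ring
    rw [this, abs_neg]
    exact hr₁
  have h2 : |t ^ 2 / 2 - t₂| ≤ 2 * nd + nR := by
    rw [ht₂]
    have e1 : t ^ 2 / 2 - (t + r₁) = -(t * (2 - t) / 2) - r₁ := by ring
    rw [e1]
    refine (abs_sub _ _).trans ?_
    rw [abs_neg, abs_of_nonneg (by nlinarith)]
    nlinarith
  have h3 : 2 * nd + nR ≤ 4 * nd := by nlinarith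
  have h4 : |t - t₂| * ny ≤ nR * (1 + nd) :=
    mul_le_mul h1 hy hny0 hnR0
  have h5 : |t ^ 2 / 2 - t₂| * nQ ≤ (4 * nd) * (W * nd ^ 2) :=
    mul_le_mul (h2.trans h3) hQ hQ0 (by positivity)
  have h6 : (1 / 2) * nE ≤ t₂ * nE := mul_le_mul_of_nonneg_right ht₂1 hnE
  have h7 : nR * (1 + nd) ≤ 2 * nR := by nlinarith
  have h8 : nΛ * nR ≤ nΛ * (16 * e₁ * nd ^ 2) := mul_le_mul_of_nonneg_left hR hnΛ
  have h9 : nE ≤ (64 + 32 * nΛ) * e₁ * nd ^ 2 + 8 * nd * W * nd ^ 2 := by nlinarith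
  have h10 : (64 + 32 * nΛ) * e₁ * nd ^ 2 ≤ e' / 2 * nd ^ 2 := mul_le_mul_of_nonneg_right he₁ hd2
  have h11 : 8 * nd * W * nd ^ 2 ≤ e' / 2 * nd ^ 2 := mul_le_mul_of_nonneg_right hdW hd2
  linarith

variable [FiniteDimensional ℝ Y] [StrictConvexSpace ℝ X] [StrictConvexSpace ℝ Y]

/-- **Second order expansion of the difference of minimisers, in terms of the first minimiser.** -/
theorem e_exp₁ (P : Peano g h x₀ A Λ BB HH) {e' : ℝ} (he' : 0 < e') :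
    ∃ r : ℝ, 0 < r ∧ ∀ ξ y₁ a₁ y₂ a₂, ξ x₀ = 0 → ‖y₁ - x₀‖ < r → IsMin x₀ ξ y₁ a₁ →
      IsMin (g x₀) (ξ.comp Λ) y₂ a₂ →
      ‖Λ y₂ - y₁ - Λ (BB (y₁ - x₀) (y₁ - x₀))‖ ≤ e' * ‖y₁ - x₀‖ ^ 2 := by
  have hF := P.toFirstData
  obtain ⟨W, hW⟩ : ∃ W, W = ‖Λ‖ * ‖BB‖ := ⟨_, rfl⟩
  have hW0 : 0 ≤ W := by
    rw [hW]
    positivity
  obtain ⟨e₁, he₁⟩ : ∃ e₁, e₁ = min 1 (e' / (2 * (64 + 32 * ‖Λ‖))) := ⟨_, rfl⟩
  have he₁0 : 0 < e₁ := by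
    rw [he₁]
    positivity
  have he₁1 : e₁ ≤ 1 := by rw [he₁]; exact min_le_left _ _
  have he₁2 : (64 + 32 * ‖Λ‖) * e₁ ≤ e' / 2 := by
    have h1 : e₁ ≤ e' / (2 * (64 + 32 * ‖Λ‖)) := by rw [he₁]; exact min_le_right _ _
    rw [le_div_iff₀ (by positivity)] at h1
    linarith
  obtain ⟨ρ, hρ, hbρ⟩ := Metric.eventually_nhds_iff.1 (P.T_exp e₁ he₁0)
  obtain ⟨r, hr⟩ : ∃ r, r = min (1 / 8) (min (ρ / 4) (e' / (16 * (W + 1)))) := ⟨_, rfl⟩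
  have hr0 : 0 < r := by
    rw [hr]
    positivity
  have hr1 : r ≤ 1 / 8 := by rw [hr]; exact min_le_left _ _
  have hr2 : r ≤ ρ / 4 := by rw [hr]; exact (min_le_right _ _).trans (min_le_left _ _)
  have hr3 : r * (16 * (W + 1)) ≤ e' := by
    have h1 : r ≤ e' / (16 * (W + 1)) := by
      rw [hr]
      exact (min_le_right _ _).trans (min_le_right _ _)
    rwa [le_div_iff₀ (by positivity)] at h1
  refine ⟨r, hr0, fun ξ y₁ a₁ y₂ a₂ hξ0 hdr hm₁ hm₂ => ?_⟩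
  obtain ⟨d, hd⟩ : ∃ d, d = y₁ - x₀ := ⟨_, rfl⟩
  rw [← hd] at hdr ⊢
  have hdn : 0 ≤ ‖d‖ := norm_nonneg d
  have hd18 : ‖d‖ ≤ 1 / 8 := hdr.le.trans hr1
  obtain ⟨t, ht, hu⟩ := exit_chord hF.smX hF.unit hm₁.aff
  obtain ⟨ht1, ht2, ht3⟩ := exit_time hF.smX hF.unit hm₁.aff (by rw [← hd]; linarith) ht hu
  rw [← hd] at ht3
  obtain ⟨_, t₂, y₂', b, ht₂, hp', hm₂', _⟩ := isMin_chord hF hξ0 hm₁ ht hu (by rw [sub_sub_cancel])
  obtain ⟨hy₂, _⟩ := hm₂.uniq hF.smY hm₂'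
  rw [hy₂] at hp'
  have hvec := chord_vector P hu
  rw [← hd, hp'] at hvec
  obtain ⟨R, hR⟩ : ∃ R, R = g (t • y₁ - x₀) - A (t • y₁ - x₀) -
      (1 / 2 : ℝ) • BB (t • y₁ - x₀ - x₀) (t • y₁ - x₀ - x₀) := ⟨_, rfl⟩
  rw [← hR] at hvec
  -- size of the remainder
  have hz : t • y₁ - x₀ - x₀ = (t - 2) • x₀ + t • d := by
    rw [hd]
    module
  have hzn : ‖t • y₁ - x₀ - x₀‖ ≤ 4 * ‖d‖ := by
    rw [hz]
    refine (norm_add_le _ _).trans ?_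
    rw [norm_smul, norm_smul, hF.unit, mul_one, Real.norm_eq_abs, Real.norm_of_nonneg ht.le,
      abs_of_nonpos (by linarith)]
    have : t * ‖d‖ ≤ 2 * ‖d‖ := mul_le_mul_of_nonneg_right ht2 hdn
    linarith
  have hv1 : ‖t • y₁ - x₀‖ = 1 := by
    rw [← norm_neg, neg_sub]
    exact hu
  have hRb : ‖R‖ ≤ 16 * e₁ * ‖d‖ ^ 2 := by
    have h1 := @hbρ (t • y₁ - x₀) (by
      rw [dist_eq_norm]
      linarith) hv1
    rw [← hR] at h1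
    refine h1.trans ?_
    have h2 := pow_le_pow_left₀ (norm_nonneg _) hzn 2
    have h3 := mul_le_mul_of_nonneg_left h2 he₁0.le
    nlinarith
  -- the scalar relation
  have hdP : chi x₀ d = 0 := by
    rw [hd, map_sub, hm₁.aff, hF.phi_self, sub_self]
  have ht₂' : t₂ = t + chi (g x₀) R := by
    have h1 := congrArg (chi (g x₀)) hvec
    rw [map_smul, hm₂.aff, map_add, map_add, map_smul, map_smul, hF.Phi, hm₁.aff,
      Phi_B P hdP hdP] at h1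
    simpa using h1
  have hvL := e_vector P hvec
  -- the final estimate
  have hy₁ : ‖y₁‖ ≤ 1 + ‖d‖ := by
    have e1 : y₁ = x₀ + d := by rw [hd]; abel
    rw [e1]
    refine (norm_add_le _ _).trans ?_
    rw [hF.unit]
  have hQ : ‖Λ (BB d d)‖ ≤ W * ‖d‖ ^ 2 := by
    have h1 := Λ.le_opNorm (BB d d)
    have h2 := (BB d).le_opNorm d
    have h3 := BB.le_opNorm d
    have h4 : ‖BB d‖ * ‖d‖ ≤ ‖BB‖ * ‖d‖ * ‖d‖ := mul_le_mul_of_nonneg_right h3 hdn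
    rw [hW]
    calc ‖Λ (BB d d)‖ ≤ ‖Λ‖ * ‖BB d d‖ := h1
      _ ≤ ‖Λ‖ * (‖BB‖ * ‖d‖ * ‖d‖) :=
        mul_le_mul_of_nonneg_left (h2.trans h4) (norm_nonneg _)
      _ = ‖Λ‖ * ‖BB‖ * ‖d‖ ^ 2 := by ring
  have ht₂0 : 0 < t₂ := by
    rw [ht₂']
    have h1 : |chi (g x₀) R| ≤ ‖R‖ := abs_chi_le _ _
    have h2 := (abs_le.1 h1).1
    nlinarith
  have hEn : t₂ * ‖Λ y₂ - y₁ - Λ (BB d d)‖ ≤ |t - t₂| * ‖y₁‖ + |t ^ 2 / 2 - t₂| * ‖Λ (BB d d)‖ +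
      ‖Λ R‖ := by
    have h1 := congrArg norm hvL
    rw [norm_smul, Real.norm_of_nonneg ht₂0.le] at h1
    rw [h1]
    refine (norm_add_le _ _).trans (add_le_add ((norm_add_le _ _).trans ?_) le_rfl)
    rw [norm_smul, norm_smul, Real.norm_eq_abs, Real.norm_eq_abs]
  refine e_arith hdn hd18 ht1 ht2 ht3 ht₂' (abs_chi_le _ _) hRb he₁0 he₁1 hy₁ hW0 hQ (norm_nonneg _)
    (norm_nonneg Λ) (Λ.le_opNorm R) hEn (norm_nonneg _) (norm_nonneg _) he₁2 ?_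
  have h1 : ‖d‖ * (16 * (W + 1)) ≤ e' := by
    have := mul_le_mul_of_nonneg_right hdr.le (by positivity : 0 ≤ 16 * (W + 1))
    linarith
  nlinarith

end Leg

end Vale.Agent.Lib.P084.Str
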