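import Mathlib
import Vale.Agent.Lib.P084.Str.Legendre

/-! Total symmetry of the second derivative, and vanishing by the rigidity lemma. -/

namespace Vale.Agent.Lib.P084.Str

open Set Metric Filter Topology
open Vale.Agent.Lib.P084

section Sym

variable {X Y : Type*} [NormedAddCommGroup X] [NormedSpace ℝ X]
  [NormedAddCommGroup Y] [NormedSpace ℝ Y] {g : X → Y} {h : Y → X} {x₀ : X} {A : X →L[ℝ] Y}
  {Λ : Y →L[ℝ] X} {BB : X →L[ℝ] X →L[ℝ] Y} {HH : X →L[ℝ] X →L[ℝ] ℝ}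
  [FiniteDimensional ℝ X] [FiniteDimensional ℝ Y] [StrictConvexSpace ℝ X] [StrictConvexSpace ℝ Y]

/-- **Second order expansion of the difference of minimisers.** -/
theorem e_exp₂ (P : Peano g h x₀ A Λ BB HH) {e' : ℝ} (he' : 0 < e') :
    ∃ r : ℝ, 0 < r ∧ ∀ η y₁ a₁ y₂ a₂, chi x₀ η = 0 → ‖η‖ < r → IsMin x₀ (HH η) y₁ a₁ →
      IsMin (g x₀) ((HH η).comp Λ) y₂ a₂ → ‖Λ y₂ - y₁ - Λ (BB η η)‖ ≤ e' * ‖η‖ ^ 2 := by
  have hF := P.toFirstData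
  obtain ⟨W, hW⟩ : ∃ W, W = ‖Λ‖ * ‖BB‖ := ⟨_, rfl⟩
  have hW0 : 0 ≤ W := by
    rw [hW]
    positivity
  obtain ⟨r₁, hr₁, hb₁⟩ := e_exp₁ P (e' := e' / 8) (by positivity)
  obtain ⟨e₂, he₂⟩ : ∃ e₂, e₂ = min 1 (e' / (6 * (W + 1))) := ⟨_, rfl⟩
  have he₂0 : 0 < e₂ := by
    rw [he₂]
    positivity
  have he₂1 : e₂ ≤ 1 := by rw [he₂]; exact min_le_left _ _
  have he₂2 : e₂ * (6 * (W + 1)) ≤ e' := by
    have h1 : e₂ ≤ e' / (6 * (W + 1)) := by rw [he₂]; exact min_le_right _ _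
    rwa [le_div_iff₀ (by positivity)] at h1
  obtain ⟨r₂, hr₂, hb₂⟩ := minimizer_exp P he₂0
  obtain ⟨η₀, hη₀, hb₀⟩ := isMin_near hF.smX hF.unit hr₁
  refine ⟨min r₂ (η₀ / (‖HH‖ + 1)), by positivity, fun η y₁ a₁ y₂ a₂ hη hηr hm₁ hm₂ => ?_⟩
  have hη₁ : ‖η‖ < r₂ := hηr.trans_le (min_le_left _ _)
  have hη₂ : ‖η‖ * (‖HH‖ + 1) < η₀ := by
    have := hηr.trans_le (min_le_right _ _)
    rwa [lt_div_iff₀ (by positivity)] at this
  have hHη : ‖HH η‖ < η₀ := by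
    refine (HH.le_opNorm η).trans_lt ?_
    nlinarith [norm_nonneg HH, norm_nonneg η]
  have hd := hb₀ _ y₁ a₁ hHη hm₁
  have hdη := hb₂ η y₁ a₁ hη hη₁ hm₁
  have h1 := hb₁ (HH η) y₁ a₁ y₂ a₂ (P.H_x' η) hd hm₁ hm₂
  obtain ⟨d, hddef⟩ : ∃ d, d = y₁ - x₀ := ⟨_, rfl⟩
  rw [← hddef] at h1 hdη
  have hηn : 0 ≤ ‖η‖ := norm_nonneg η
  have hdn : ‖d‖ ≤ 2 * ‖η‖ := by
    have e1 : d = (d - η) + η := by abel
    have h2 : ‖d‖ ≤ ‖d - η‖ + ‖η‖ := by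
      conv_lhs => rw [e1]
      exact norm_add_le _ _
    nlinarith
  have hdsq : ‖d‖ ^ 2 ≤ 4 * ‖η‖ ^ 2 := by
    have := pow_le_pow_left₀ (norm_nonneg d) hdn 2
    nlinarith
  have hsplit : BB d d - BB η η = BB (d - η) (d + η) := by
    simp only [map_sub, map_add, _root_.sub_apply, P.B_sym η d]
    abel
  have e1 : Λ y₂ - y₁ - Λ (BB η η) = (Λ y₂ - y₁ - Λ (BB d d)) + Λ (BB (d - η) (d + η)) := by
    rw [← hsplit, map_sub]
    abel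
  rw [e1]
  refine (norm_add_le _ _).trans ?_
  have h2 : ‖Λ (BB (d - η) (d + η))‖ ≤ W * (‖d - η‖ * ‖d + η‖) := by
    have h3 := Λ.le_opNorm (BB (d - η) (d + η))
    have h4 := (BB (d - η)).le_opNorm (d + η)
    have h5 := BB.le_opNorm (d - η)
    have h6 : ‖BB (d - η)‖ * ‖d + η‖ ≤ ‖BB‖ * ‖d - η‖ * ‖d + η‖ :=
      mul_le_mul_of_nonneg_right h5 (norm_nonneg _)
    rw [hW]
    calc _ ≤ ‖Λ‖ * ‖BB (d - η) (d + η)‖ := h3
      _ ≤ ‖Λ‖ * (‖BB‖ * ‖d - η‖ * ‖d + η‖) :=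
        mul_le_mul_of_nonneg_left (h4.trans h6) (norm_nonneg _)
      _ = _ := by ring
  have h7 : ‖d + η‖ ≤ 3 * ‖η‖ := by
    refine (norm_add_le _ _).trans ?_
    linarith
  have h8 : ‖d - η‖ * ‖d + η‖ ≤ (e₂ * ‖η‖) * (3 * ‖η‖) :=
    mul_le_mul hdη h7 (norm_nonneg _) (by positivity)
  have h9 : W * (‖d - η‖ * ‖d + η‖) ≤ W * ((e₂ * ‖η‖) * (3 * ‖η‖)) :=
    mul_le_mul_of_nonneg_left h8 hW0
  have h10 : W * ((e₂ * ‖η‖) * (3 * ‖η‖)) ≤ e' / 2 * ‖η‖ ^ 2 := by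
    have h11 : W * e₂ * 3 ≤ e' / 2 := by nlinarith
    have h12 := mul_le_mul_of_nonneg_right h11 (by positivity : 0 ≤ ‖η‖ ^ 2)
    calc _ = W * e₂ * 3 * ‖η‖ ^ 2 := by ring
      _ ≤ _ := h12
  have h13 : e' / 8 * ‖d‖ ^ 2 ≤ e' / 8 * (4 * ‖η‖ ^ 2) :=
    mul_le_mul_of_nonneg_left hdsq (by positivity)
  linarith

/-- The derivative of the difference of the two values. -/
lemma omega_deriv {r₀ : ℝ} {y₁ : X → X} {y₂ : X → Y} {a₁ a₂ : X → ℝ} (hX : Smooth X) (hY : Smooth Y)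
    (hfam : ∀ η, chi x₀ η = 0 → ‖η‖ < r₀ →
      IsMin x₀ (HH η) (y₁ η) (a₁ η) ∧ IsMin (g x₀) ((HH η).comp Λ) (y₂ η) (a₂ η))
    {η c : X} (hη : chi x₀ η = 0) (hc : chi x₀ c = 0) (hηr : ‖η‖ < r₀) :
    HasDerivAt (fun s : ℝ => a₂ (η + s • c) - a₁ (η + s • c)) (-HH c (Λ (y₂ η) - y₁ η)) 0 := by
  have hnear : ∀ᶠ s in 𝓝 (0 : ℝ), ‖η + s • c‖ < r₀ := by
    have hcont : Continuous fun s : ℝ => ‖η + s • c‖ := by fun_prop
    exact hcont.continuousAt.eventually (gt_mem_nhds (by simpa using hηr))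
  have hfam' : ∀ᶠ s in 𝓝 (0 : ℝ), IsMin x₀ (HH (η + s • c)) (y₁ (η + s • c)) (a₁ (η + s • c)) ∧
      IsMin (g x₀) ((HH (η + s • c)).comp Λ) (y₂ (η + s • c)) (a₂ (η + s • c)) := by
    filter_upwards [hnear] with s hs
    exact hfam _ (by rw [map_add, map_smul, hη, hc]; simp) hs
  have h1 : HasDerivAt (fun s : ℝ => a₁ (η + s • c)) (-(HH c) (y₁ (η + (0 : ℝ) • c))) 0 := by
    refine danskin hX (x₀ := x₀) (ξ := HH η) (c := HH c) (yf := fun s => y₁ (η + s • c)) ?_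
    filter_upwards [hfam'] with s hs
    have e : HH η + s • HH c = HH (η + s • c) := by
      rw [map_add, map_smul]
    rw [e]
    exact hs.1
  have h2 : HasDerivAt (fun s : ℝ => a₂ (η + s • c))
      (-((HH c).comp Λ) (y₂ (η + (0 : ℝ) • c))) 0 := by
    refine danskin hY (x₀ := g x₀) (ξ := (HH η).comp Λ) (c := (HH c).comp Λ)
      (yf := fun s => y₂ (η + s • c)) ?_
    filter_upwards [hfam'] with s hs
    have e : (HH η).comp Λ + s • (HH c).comp Λ = (HH (η + s • c)).comp Λ := by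
      rw [map_add, map_smul]
      ext v
      simp
    rw [e]
    exact hs.2
  have h3 := h2.fun_sub h1
  refine h3.congr_deriv ?_
  simp only [zero_smul, add_zero, ContinuousLinearMap.comp_apply, map_sub]
  ring

end Sym

end Vale.Agent.Lib.P084.Str
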