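import Mathlib
import Vale.Agent.Lib.P084.Str.Sym

/-! The rigidity lemma on the tangent hyperplane; from Peano data to a base point. -/

namespace Vale.Agent.Lib.P084.Str

open Set Metric Filter Topology
open Vale.Agent.Lib.P084

section Rig

variable {X Y : Type*} [NormedAddCommGroup X] [NormedSpace ℝ X]
  [NormedAddCommGroup Y] [NormedSpace ℝ Y] {g : X → Y} {h : Y → X} {x₀ : X} {A : X →L[ℝ] Y}
  {Λ : Y →L[ℝ] X} {BB : X →L[ℝ] X →L[ℝ] Y} {HH : X →L[ℝ] X →L[ℝ] ℝ}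

/-- The tangent hyperplane. -/
noncomputable abbrev Tan (x₀ : X) : Submodule ℝ X := LinearMap.ker ((chi x₀ : X →L[ℝ] ℝ) : X →ₗ[ℝ] ℝ)

lemma mem_Tan {v : X} : v ∈ Tan x₀ ↔ chi x₀ v = 0 := by
  simp [LinearMap.mem_ker]

/-- The derivative of the norm of `Y` along the image of the tangent hyperplane. -/
lemma chi_A (F : FirstData g h x₀ A Λ) {u v : X} (hu : chi x₀ u = 0) (hu0 : u ≠ 0)
    (hv : chi x₀ v = 0) : chi (A u) (A v) = chi u v := by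
  have hAu0 : A u ≠ 0 := by
    rw [← norm_ne_zero_iff, F.normA hu, norm_ne_zero_iff]
    exact hu0
  have hl : HasDerivAt (fun s : ℝ => u + s • v) v 0 := by
    simpa using ((hasDerivAt_id (0 : ℝ)).smul_const v).const_add u
  have h1 : HasDerivAt (fun s : ℝ => ‖u + s • v‖) (chi u v) 0 :=
    HasFDerivAt.comp_hasDerivAt_of_eq (0 : ℝ) (F.smX.hasFDerivAt hu0) hl (by simp)
  have hl' : HasDerivAt (fun s : ℝ => A (u + s • v)) (A v) 0 :=
    A.hasFDerivAt.comp_hasDerivAt (0 : ℝ) hl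
  have h2 : HasDerivAt (fun s : ℝ => ‖A (u + s • v)‖) (chi (A u) (A v)) 0 :=
    HasFDerivAt.comp_hasDerivAt_of_eq (0 : ℝ) (F.smY.hasFDerivAt hAu0) hl' (by simp)
  have e : (fun s : ℝ => ‖A (u + s • v)‖) = fun s : ℝ => ‖u + s • v‖ := by
    funext s
    exact F.normA (by rw [map_add, map_smul, hu, hv]; simp)
  rw [e] at h2
  exact h2.unique h1

variable [FiniteDimensional ℝ X] [FiniteDimensional ℝ Y]

/-- The second derivative as a map into the tangent hyperplane. -/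
lemma exists_Delta (P : Peano g h x₀ A Λ BB HH) :
    ∃ Δ : Tan x₀ →L[ℝ] Tan x₀ →L[ℝ] Tan x₀, ∀ a b : Tan x₀,
      ((Δ a b : Tan x₀) : X) = Λ (BB a b) := by
  have hF := P.toFirstData
  let f : X →L[ℝ] X := ContinuousLinearMap.id ℝ X - (chi x₀).smulRight x₀
  have hf : ∀ z, f z ∈ Tan x₀ := by
    intro z
    rw [mem_Tan]
    simp [f, hF.phi_self]
  let π : X →L[ℝ] Tan x₀ := f.codRestrict (Tan x₀) hf
  let ι : Tan x₀ →L[ℝ] X := (Tan x₀).subtypeL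
  refine ⟨((ContinuousLinearMap.compL ℝ (Tan x₀) Y (Tan x₀)) (π.comp Λ)).comp
    (BB.bilinearComp ι ι), fun a b => ?_⟩
  have h1 : chi x₀ (Λ (BB a b)) = 0 := by
    rw [hF.PhiL]
    exact Phi_B P (mem_Tan.1 a.2) (mem_Tan.1 b.2)
  change f (Λ (BB a b)) = _
  simp [f, h1]

variable [StrictConvexSpace ℝ X] [StrictConvexSpace ℝ Y]

/-- **Total symmetry.** -/
theorem sym_C (P : Peano g h x₀ A Λ BB HH) {a b c : X} (ha : chi x₀ a = 0) (hb : chi x₀ b = 0)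
    (hc : chi x₀ c = 0) : HH (Λ (BB a b)) c = HH (Λ (BB a c)) b := by
  have hF := P.toFirstData
  obtain ⟨Δ, hΔ⟩ := exists_Delta P
  obtain ⟨r₀, y₁, y₂, a₁, a₂, hr₀, hfam⟩ := exists_H_families P
  let ι : Tan x₀ →L[ℝ] X := (Tan x₀).subtypeL
  let hh : Tan x₀ →L[ℝ] Tan x₀ →L[ℝ] ℝ := HH.bilinearComp ι ι
  let C : Tan x₀ →L[ℝ] Tan x₀ →L[ℝ] Tan x₀ →L[ℝ] ℝ :=
    (ContinuousLinearMap.compL ℝ (Tan x₀) (Tan x₀) (Tan x₀ →L[ℝ] ℝ) hh).comp Δ
  have hC : ∀ p q r : Tan x₀, C p q r = HH (Λ (BB p q)) r := by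
    intro p q r
    change HH ((Δ p q : Tan x₀) : X) r = _
    rw [hΔ]
  have hC1 : ∀ p q r, C p q r = C q p r := by
    intro p q r
    rw [hC, hC, P.B_sym]
  have hkey : ∀ p q : Tan x₀, C p p q = C p q p := by
    refine two_path (ω := fun v : Tan x₀ => a₂ v - a₁ v) C hC1
      (D := fun η c : Tan x₀ => -HH c (Λ (y₂ η) - y₁ η)) hr₀ ?_ ?_
    · intro η c hη
      exact omega_deriv hF.smX hF.smY hfam (mem_Tan.1 η.2) (mem_Tan.1 c.2) hη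
    · intro e he
      obtain ⟨r, hr, hb'⟩ := e_exp₂ P (e' := e / (‖HH‖ + 1)) (by positivity)
      refine ⟨min r r₀, by positivity, fun η c hη => ?_⟩
      have hη₁ : ‖(η : X)‖ < r := hη.trans_le (min_le_left _ _)
      have hη₂ : ‖(η : X)‖ < r₀ := hη.trans_le (min_le_right _ _)
      obtain ⟨h1, h2⟩ := hfam η (mem_Tan.1 η.2) hη₂
      have h3 := hb' η _ _ _ _ (mem_Tan.1 η.2) hη₁ h1 h2
      rw [hC]
      have e1 : -(HH c) (Λ (y₂ η) - y₁ η) + HH (Λ (BB η η)) c =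
          -(HH c) (Λ (y₂ η) - y₁ η - Λ (BB η η)) := by
        rw [P.H_sym (Λ (BB η η)) c]
        simp only [map_sub]
        ring
      rw [e1, abs_neg]
      have h4 := (HH (c : X)).le_opNorm (Λ (y₂ η) - y₁ η - Λ (BB η η))
      have h5 := HH.le_opNorm (c : X)
      rw [Real.norm_eq_abs] at h4
      refine h4.trans ?_
      have h6 : ‖HH (c : X)‖ * ‖Λ (y₂ η) - y₁ η - Λ (BB η η)‖ ≤
          (‖HH‖ * ‖(c : X)‖) * (e / (‖HH‖ + 1) * ‖(η : X)‖ ^ 2) :=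
        mul_le_mul h5 h3 (norm_nonneg _) (by positivity)
      refine h6.trans ?_
      have h7 : (‖HH‖ * ‖(c : X)‖) * (e / (‖HH‖ + 1) * ‖(η : X)‖ ^ 2) =
          e * ‖(η : X)‖ ^ 2 * ‖(c : X)‖ * (‖HH‖ / (‖HH‖ + 1)) := by
        field_simp
      rw [h7]
      have h8 : ‖HH‖ / (‖HH‖ + 1) ≤ 1 := by
        rw [div_le_one (by positivity)]
        linarith
      have h9 : 0 ≤ e * ‖(η : X)‖ ^ 2 * ‖(c : X)‖ := by positivity
      have h10 : ‖(η : Tan x₀)‖ = ‖(η : X)‖ := rfl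
      have h11 : ‖(c : Tan x₀)‖ = ‖(c : X)‖ := rfl
      rw [h10, h11]
      nlinarith
  have hfin := tri_symm C hC1 hkey ⟨a, mem_Tan.2 ha⟩ ⟨b, mem_Tan.2 hb⟩ ⟨c, mem_Tan.2 hc⟩
  rw [hC, hC] at hfin
  exact hfin

/-- **The second derivative vanishes on the tangent hyperplane.** -/
theorem B_zero (P : Peano g h x₀ A Λ BB HH) (hdim : 3 ≤ Module.finrank ℝ X) {a b : X}
    (ha : chi x₀ a = 0) (hb : chi x₀ b = 0) : BB a b = 0 := by
  have hF := P.toFirstData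
  obtain ⟨Δ, hΔ⟩ := exists_Delta P
  let ι : Tan x₀ →L[ℝ] X := (Tan x₀).subtypeL
  let hh : Tan x₀ →L[ℝ] Tan x₀ →L[ℝ] ℝ := HH.bilinearComp ι ι
  have hfr : 2 ≤ Module.finrank ℝ (Tan x₀) := by
    have h1 := LinearMap.finrank_range_add_finrank_ker ((chi x₀ : X →L[ℝ] ℝ) : X →ₗ[ℝ] ℝ)
    have h2 : Module.finrank ℝ (LinearMap.range ((chi x₀ : X →L[ℝ] ℝ) : X →ₗ[ℝ] ℝ)) ≤
        Module.finrank ℝ ℝ := Submodule.finrank_le _
    rw [Module.finrank_self] at h2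
    have h3 : Module.finrank ℝ (Tan x₀) =
        Module.finrank ℝ (LinearMap.ker ((chi x₀ : X →L[ℝ] ℝ) : X →ₗ[ℝ] ℝ)) := rfl
    omega
  have hzero := cubic_rigid (V := Tan x₀) (h := hh) hfr
    (fun p q => P.H_sym p q)
    (fun p hp => P.H_pos p (mem_Tan.1 p.2) (fun h0 => hp (Subtype.ext h0)))
    Δ (fun p q => Subtype.ext (by rw [hΔ, hΔ, P.B_sym]))
    (fun p q r => by
      change HH ((Δ p q : Tan x₀) : X) r = HH ((Δ p r : Tan x₀) : X) q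
      rw [hΔ, hΔ]
      exact sym_C P (mem_Tan.1 p.2) (mem_Tan.1 q.2) (mem_Tan.1 r.2))
    (fun u => (chi (u : X)).comp ι)
    (fun u hu => by
      have hu' : (u : X) ≠ 0 := fun h0 => hu (Subtype.ext h0)
      exact (hF.smX.hasFDerivAt hu').comp u ι.hasFDerivAt)
    (fun u => chi (A u) (g x₀) - chi (u : X) x₀)
    (fun u hu w => by
      have hu' : (u : X) ≠ 0 := fun h0 => hu (Subtype.ext h0)
      have h1 : chi x₀ (Λ (BB w u)) = 0 := by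
        rw [hF.PhiL]
        exact Phi_B P (mem_Tan.1 w.2) (mem_Tan.1 u.2)
      change chi (u : X) ((Δ w u : Tan x₀) : X) = HH w u * _
      rw [hΔ, ← chi_A hF (mem_Tan.1 u.2) hu' h1, hF.right]
      exact second_rel P (mem_Tan.1 u.2) hu' (mem_Tan.1 w.2))
  have h1 := hΔ ⟨a, mem_Tan.2 ha⟩ ⟨b, mem_Tan.2 hb⟩
  rw [hzero] at h1
  have h2 : Λ (BB a b) = 0 := h1.symm
  have h3 := hF.right (BB a b)
  rw [h2, map_zero] at h3
  exact h3.symm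

/-- Curvature bound from below on the sphere. -/
lemma curved_bound (P : Peano g h x₀ A Λ BB HH) : ∃ c : ℝ, 0 < c ∧ ∀ᶠ y in 𝓝 x₀, ‖y‖ = 1 →
    c * ‖y - x₀‖ ^ 2 ≤ 1 - chi x₀ y := by
  have hF := P.toFirstData
  obtain ⟨c₀, hc₀, hcoer⟩ := coercive P
  obtain ⟨ρ, hρ, hb⟩ := P.sphere_exp (e := c₀ / 16) (by positivity)
  obtain ⟨M, hM⟩ : ∃ M, M = 2 * ‖HH‖ + c₀ / 16 := ⟨_, rfl⟩
  have hM0 : 0 < M := by
    rw [hM]
    positivity
  refine ⟨c₀ / 16, by positivity, Metric.eventually_nhds_iff.2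
    ⟨min ρ (1 / (2 * M)), by positivity, fun {y} hy hy1 => ?_⟩⟩
  rw [dist_eq_norm] at hy
  have hy₁ : ‖y - x₀‖ < ρ := hy.trans_le (min_le_left _ _)
  have hy₂ : ‖y - x₀‖ * (2 * M) < 1 := by
    have := hy.trans_le (min_le_right _ _)
    rwa [lt_div_iff₀ (by positivity)] at this
  obtain ⟨h1, -⟩ := hb y hy1 hy₁
  obtain ⟨z, hz⟩ : ∃ z, z = y - x₀ := ⟨_, rfl⟩
  rw [← hz] at h1 hy₂ ⊢
  have hzn : 0 ≤ ‖z‖ := norm_nonneg z
  obtain ⟨n, hn⟩ : ∃ n, n = 1 - chi x₀ y := ⟨_, rfl⟩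
  have hn2 : n = -chi x₀ z := by
    rw [hn, hz, map_sub, hF.phi_self]
    ring
  have hn3 : n ≤ ‖z‖ := by
    rw [hn2, ← map_neg]
    have := chi_le x₀ (-z)
    rwa [norm_neg] at this
  have hn0 : 0 ≤ n := by
    have := chi_le x₀ y
    rw [hy1] at this
    rw [hn]
    linarith
  obtain ⟨w, hw⟩ : ∃ w, w = y - chi x₀ y • x₀ := ⟨_, rfl⟩
  rw [← hw] at h1
  have hwP : chi x₀ w = 0 := by
    rw [hw, map_sub, map_smul, hF.phi_self]
    simp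
  have hzw : z = w - n • x₀ := by
    rw [hz, hw, hn, sub_smul, one_smul]
    abel
  have hwz : w = z + n • x₀ := by
    rw [hzw]
    abel
  have hw1 : ‖w‖ ≤ 2 * ‖z‖ := by
    rw [hwz]
    refine (norm_add_le _ _).trans ?_
    rw [norm_smul, hF.unit, mul_one, Real.norm_of_nonneg hn0]
    linarith
  have hw2 : ‖z‖ ≤ ‖w‖ + n := by
    rw [hzw]
    refine (norm_sub_le _ _).trans ?_
    rw [norm_smul, hF.unit, mul_one, Real.norm_of_nonneg hn0]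
  have hHw : HH w w ≤ ‖HH‖ * ‖w‖ ^ 2 := by
    have h2 := (HH w).le_opNorm w
    have h3 := HH.le_opNorm w
    have h4 : ‖HH w‖ * ‖w‖ ≤ ‖HH‖ * ‖w‖ * ‖w‖ := mul_le_mul_of_nonneg_right h3 (norm_nonneg w)
    have h5 := (le_abs_self _).trans (h2.trans h4)
    rw [Real.norm_eq_abs] at *
    nlinarith
  have hw3 : ‖w‖ ^ 2 ≤ 4 * ‖z‖ ^ 2 := by
    have := pow_le_pow_left₀ (norm_nonneg w) hw1 2
    nlinarith
  have e1 : 1 - chi x₀ y - 1 / 2 * HH w w = n - 1 / 2 * HH w w := by rw [hn]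
  rw [e1] at h1
  have h2 := abs_le.1 h1
  have hHw2 : HH w w ≤ 4 * ‖HH‖ * ‖z‖ ^ 2 := by
    have := mul_le_mul_of_nonneg_left hw3 (norm_nonneg HH)
    linarith
  have hn4 : n ≤ M * ‖z‖ ^ 2 := by
    rw [hM]
    nlinarith [h2.2]
  have hn5 : n ≤ 1 / 2 * ‖z‖ := by
    have h3 : M * ‖z‖ ^ 2 = (‖z‖ * (2 * M)) * (‖z‖ / 2) := by ring
    rw [h3] at hn4
    have h4 : (‖z‖ * (2 * M)) * (‖z‖ / 2) ≤ 1 * (‖z‖ / 2) :=
      mul_le_mul_of_nonneg_right hy₂.le (by positivity)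
    linarith
  have hw4 : 1 / 2 * ‖z‖ ≤ ‖w‖ := by linarith
  have hw5 : (1 / 4) * ‖z‖ ^ 2 ≤ ‖w‖ ^ 2 := by
    have := pow_le_pow_left₀ (by positivity) hw4 2
    nlinarith
  have h6 := hcoer w hwP
  have h7 : c₀ * ((1 / 4) * ‖z‖ ^ 2) ≤ c₀ * ‖w‖ ^ 2 := mul_le_mul_of_nonneg_left hw5 hc₀.le
  rw [← hn]
  nlinarith [h2.1]

/-- **From Peano data to a base point.** -/
theorem base_of_peano (P : Peano g h x₀ A Λ BB HH) (hdim : 3 ≤ Module.finrank ℝ X) :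
    Base g h x₀ A Λ := by
  have hF := P.toFirstData
  refine { toFirstData := hF, bp1 := fun ε hε => ?_, bp2 := curved_bound P }
  obtain ⟨ρ, hρ, hb⟩ := P.sphere_exp hε
  refine Metric.eventually_nhds_iff.2 ⟨ρ, hρ, fun {y} hy hy1 => ?_⟩
  rw [dist_eq_norm] at hy
  obtain ⟨-, h2⟩ := hb y hy1 hy
  have hwP : chi x₀ (y - chi x₀ y • x₀) = 0 := by
    rw [map_sub, map_smul, hF.phi_self]
    simp
  rw [B_zero P hdim hwP hwP, smul_zero, sub_zero] at h2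
  exact h2

/-- **From Peano data to a linear isometry.** -/
theorem linear_of_peano (P : Peano g h x₀ A Λ BB HH) (hdim : 3 ≤ Module.finrank ℝ X) :
    ∃ T : X ≃ₗᵢ[ℝ] Y, ∀ x, ‖x‖ = 1 → T x = g x :=
  linear_of_base (base_of_peano P hdim)

end Rig

end Vale.Agent.Lib.P084.Str
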