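import Mathlib
import Vale.Agent.Lib.P084.Str.Rigid

/-! A patch of the sphere with uniform second order bounds, by the Baire category theorem. -/

namespace Vale.Agent.Lib.P084.Str

open Set Metric Filter Topology
open Vale.Agent.Lib.P084

section Patch

variable {X Y : Type*} [NormedAddCommGroup X] [NormedSpace ℝ X]
  [NormedAddCommGroup Y] [NormedSpace ℝ Y] {g : X → Y} {h : Y → X}
  [FiniteDimensional ℝ X] [FiniteDimensional ℝ Y]

/-- The first order approximation at a point of finite second difference. -/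
lemma exists_A (H : SphereIso g h) (hX : Smooth X) (hY : Smooth Y) {x : X} (hx : ‖x‖ = 1)
    (hR : Far.Reg x) : ∃ (A : X →L[ℝ] Y) (K : ℝ), ‖A‖ ≤ 3 ∧ A x = g x ∧
      ∀ᶠ y in 𝓝 x, ‖y‖ = 1 → ‖g y - A y‖ ≤ K * ‖y - x‖ ^ 2 := by
  have hx0 : x ≠ 0 := by
    rintro rfl
    simp at hx
  have : Nontrivial X := ⟨⟨x, 0, hx0⟩⟩
  have hself : chi x x = 1 := by rw [hX.chi_self hx0, hx]
  obtain ⟨L, K₀, hK₀⟩ := Far.exists_L H hx
  obtain ⟨C, hC⟩ := hR
  have hC' : ∀ᶠ y in 𝓝 x, ‖x + (y - x)‖ + ‖x - (y - x)‖ - 2 * ‖x‖ ≤ C * ‖y - x‖ ^ 2 := by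
    have hc : Tendsto (fun y : X => y - x) (𝓝 x) (𝓝 0) := by
      have : Continuous fun y : X => y - x := by fun_prop
      simpa using this.tendsto x
    exact hc.eventually hC
  let A : X →L[ℝ] Y := L - (chi x).smulRight (L x - g x)
  have hAx : A x = g x := by
    simp [A, hself]
  have hb : ∃ K : ℝ, ∀ᶠ y in 𝓝 x, ‖y‖ = 1 → ‖g y - A y‖ ≤ K * ‖y - x‖ ^ 2 := by
    refine ⟨K₀ + |C| * ‖L x - g x‖, ?_⟩
    filter_upwards [hK₀, hC'] with y h1 h2 hy
    have h3 := h1 hy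
    rw [add_sub_cancel, hy, hx] at h2
    have h4 : chi x (x - (y - x)) ≤ ‖x - (y - x)‖ := chi_le _ _
    have e0 : x - (y - x) = (2 : ℝ) • x - y := by
      rw [two_smul]
      abel
    rw [e0, map_sub, map_smul, hself] at h4
    rw [e0] at h2
    have h5 : 1 - chi x y ≤ C * ‖y - x‖ ^ 2 := by
      simp only [smul_eq_mul] at h4
      linarith
    have h6 : 0 ≤ 1 - chi x y := by
      have := chi_le x y
      rw [hy] at this
      linarith
    have e1 : g y - A y = (g y - g x - L (y - x)) - (1 - chi x y) • (L x - g x) := by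
      simp only [A, _root_.sub_apply, ContinuousLinearMap.smulRight_apply, map_sub]
      module
    rw [e1]
    refine (norm_sub_le _ _).trans ?_
    rw [norm_smul, Real.norm_of_nonneg h6, add_mul]
    refine add_le_add h3 ?_
    have h7 : C * ‖y - x‖ ^ 2 ≤ |C| * ‖y - x‖ ^ 2 :=
      mul_le_mul_of_nonneg_right (le_abs_self C) (by positivity)
    have h8 := mul_le_mul_of_nonneg_right (h5.trans h7) (norm_nonneg (L x - g x))
    calc _ ≤ _ := h8
      _ = _ := by ring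
  obtain ⟨K, hK⟩ := hb
  exact ⟨A, K, first_bound H hX hx hAx ⟨K, hK⟩, hAx, hK⟩

/-- The set of points with uniform bounds of level `k`. -/
def Fk (g : X → Y) (k : ℕ) : Set X := {x | ‖x‖ = 1 ∧
  (∀ w : X, ‖w‖ < 1 / ((k : ℝ) + 1) → ‖x + w‖ + ‖x - w‖ - 2 ≤ ((k : ℝ) + 1) * ‖w‖ ^ 2) ∧
  ∃ A : X →L[ℝ] Y, ‖A‖ ≤ 3 ∧ A x = g x ∧ ∀ y, ‖y‖ = 1 → ‖y - x‖ < 1 / ((k : ℝ) + 1) →
    ‖g y - A y‖ ≤ ((k : ℝ) + 1) * ‖y - x‖ ^ 2}

omit [FiniteDimensional ℝ X] [FiniteDimensional ℝ Y] in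
/-- Limits of points of the sphere have convergent images. -/
lemma image_tendsto (H : SphereIso g h) {u : ℕ → X} {x : X} (hu : ∀ n, ‖u n‖ = 1) (hx : ‖x‖ = 1)
    (hlim : Tendsto u atTop (𝓝 x)) : Tendsto (fun n => g (u n)) atTop (𝓝 (g x)) := by
  rw [tendsto_iff_norm_sub_tendsto_zero] at hlim ⊢
  refine hlim.congr fun n => ?_
  rw [H.iso _ _ (hu n) hx]

/-- The sets `Fk` are closed. -/
lemma isClosed_Fk (H : SphereIso g h) (k : ℕ) : IsClosed (Fk g k) := by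
  refine IsSeqClosed.isClosed fun u x hu hlim => ?_
  have hu1 : ∀ n, ‖u n‖ = 1 := fun n => (hu n).1
  have hx1 : ‖x‖ = 1 := by
    have h1 := hlim.norm
    simp only [hu1] at h1
    exact (tendsto_nhds_unique h1 tendsto_const_nhds)
  refine ⟨hx1, fun w hw => ?_, ?_⟩
  · have h1 : Tendsto (fun n => ‖u n + w‖ + ‖u n - w‖ - 2) atTop (𝓝 (‖x + w‖ + ‖x - w‖ - 2)) :=
      (((hlim.add_const w).norm).add ((hlim.sub_const w).norm)).sub_const 2
    exact le_of_tendsto' h1 fun n => (hu n).2.1 w hw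
  · choose A hA using fun n => (hu n).2.2
    have hmem : ∀ n, A n ∈ closedBall (0 : X →L[ℝ] Y) 3 := fun n => by simpa using (hA n).1
    obtain ⟨A₀, hA₀, φ, hφ, hAlim'⟩ := (isCompact_closedBall (0 : X →L[ℝ] Y) 3).tendsto_subseq hmem
    have hAlim : Tendsto (fun n => A (φ n)) atTop (𝓝 A₀) := hAlim'
    have happ : ∀ {v : ℕ → X} {v₀ : X}, Tendsto v atTop (𝓝 v₀) →
        Tendsto (fun n => A (φ n) (v n)) atTop (𝓝 (A₀ v₀)) := by
      intro v v₀ hv
      have hcb : Continuous fun q : (X →L[ℝ] Y) × X => q.1 q.2 := by fun_prop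
      exact (hcb.tendsto (A₀, v₀)).comp (hAlim.prodMk_nhds hv)
    have hulim : Tendsto (u ∘ φ) atTop (𝓝 x) := hlim.comp hφ.tendsto_atTop
    refine ⟨A₀, by simpa using hA₀, ?_, fun y hy hyd => ?_⟩
    · have h1 : Tendsto (fun n => (A ∘ φ) n ((u ∘ φ) n)) atTop (𝓝 (A₀ x)) := happ hulim
      have h2 : Tendsto (fun n => (A ∘ φ) n ((u ∘ φ) n)) atTop (𝓝 (g x)) := by
        have h3 := image_tendsto H (fun n => hu1 (φ n)) hx1 hulim
        refine h3.congr fun n => ?_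
        exact ((hA (φ n)).2.1).symm
      exact tendsto_nhds_unique h1 h2
    · have h1 : Tendsto (fun n => ‖g y - (A ∘ φ) n y‖) atTop (𝓝 ‖g y - A₀ y‖) :=
        ((happ tendsto_const_nhds).const_sub (g y)).norm
      have h2 : Tendsto (fun n => ((k : ℝ) + 1) * ‖y - (u ∘ φ) n‖ ^ 2) atTop
          (𝓝 (((k : ℝ) + 1) * ‖y - x‖ ^ 2)) :=
        (((hulim.const_sub y).norm).pow 2).const_mul _
      have h3 : ∀ᶠ n in atTop, ‖y - (u ∘ φ) n‖ < 1 / ((k : ℝ) + 1) :=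
        ((hulim.const_sub y).norm).eventually (gt_mem_nhds hyd)
      refine le_of_tendsto_of_tendsto h1 h2 ?_
      filter_upwards [h3] with n hn
      exact (hA (φ n)).2.2 y hy hn

/-- Every point of the sphere with finite second difference has some level. -/
lemma mem_Fk (H : SphereIso g h) (hX : Smooth X) (hY : Smooth Y) {x : X} (hx : ‖x‖ = 1)
    (hR : Far.Reg x) : ∃ k, x ∈ Fk g k := by
  obtain ⟨A, K, hA3, hAx, hK⟩ := exists_A H hX hY hx hR
  obtain ⟨C, hC⟩ := hR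
  obtain ⟨δ₁, hδ₁, hb₁⟩ := Metric.eventually_nhds_iff.1 hK
  obtain ⟨δ₂, hδ₂, hb₂⟩ := Metric.eventually_nhds_iff.1 hC
  obtain ⟨k, hk⟩ := exists_nat_ge (max K (max C (max (1 / δ₁) (1 / δ₂))))
  have hk1 : K ≤ k := (le_max_left _ _).trans hk
  have hk2 : C ≤ k := ((le_max_left _ _).trans (le_max_right _ _)).trans hk
  have hk3 : 1 / δ₁ ≤ k :=
    (((le_max_left _ _).trans (le_max_right _ _)).trans (le_max_right _ _)).trans hk
  have hk4 : 1 / δ₂ ≤ k :=
    (((le_max_right _ _).trans (le_max_right _ _)).trans (le_max_right _ _)).trans hk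
  have hk0 : (0 : ℝ) < (k : ℝ) + 1 := by positivity
  have hinv : ∀ δ : ℝ, 0 < δ → 1 / δ ≤ k → 1 / ((k : ℝ) + 1) < δ := by
    intro δ hδ h1
    rw [div_lt_iff₀ hk0]
    rw [div_le_iff₀ hδ] at h1
    nlinarith
  refine ⟨k, hx, fun w hw => ?_, A, hA3, hAx, fun y hy hyd => ?_⟩
  · have h1 := @hb₂ w (by
      rw [dist_zero_right]
      exact hw.trans (hinv δ₂ hδ₂ hk4))
    rw [hx, mul_one] at h1
    refine h1.trans (mul_le_mul_of_nonneg_right (by linarith) (by positivity))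
  · have h1 := @hb₁ y (by
      rw [dist_eq_norm]
      exact hyd.trans (hinv δ₁ hδ₁ hk3)) hy
    refine h1.trans (mul_le_mul_of_nonneg_right (by linarith) (by positivity))

/-- **The Baire patch.** -/
theorem exists_patch [Nontrivial X] (H : SphereIso g h) (hX : Smooth X) (hY : Smooth Y)
    (hR : ∀ x : X, ‖x‖ = 1 → Far.Reg x) :
    ∃ (x₁ : X) (r : ℝ) (k : ℕ), ‖x₁‖ = 1 ∧ 0 < r ∧ ∀ x, ‖x‖ = 1 → ‖x - x₁‖ < r → x ∈ Fk g k := by
  haveI : CompactSpace (sphere (0 : X) 1) := isCompact_iff_compactSpace.1 (isCompact_sphere _ _)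
  haveI : Nonempty (sphere (0 : X) 1) :=
    (NormedSpace.sphere_nonempty.2 zero_le_one : (sphere (0 : X) 1).Nonempty).to_subtype
  have hclosed : ∀ k : ℕ, IsClosed {p : sphere (0 : X) 1 | (p : X) ∈ Fk g k} := fun k =>
    (isClosed_Fk H k).preimage continuous_subtype_val
  have hU : ⋃ k : ℕ, {p : sphere (0 : X) 1 | (p : X) ∈ Fk g k} = univ := by
    refine eq_univ_of_forall fun p => ?_
    have hp : ‖(p : X)‖ = 1 := by simpa using p.2
    obtain ⟨k, hk⟩ := mem_Fk H hX hY hp (hR _ hp)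
    exact mem_iUnion.2 ⟨k, hk⟩
  obtain ⟨k, p, hp⟩ := nonempty_interior_of_iUnion_of_closed hclosed hU
  rw [mem_interior] at hp
  obtain ⟨t, htsub, htopen, hpt⟩ := hp
  obtain ⟨r, hr, hball⟩ := Metric.isOpen_iff.1 htopen p hpt
  have hp1 : ‖(p : X)‖ = 1 := by simpa using p.2
  refine ⟨p, r, k, hp1, hr, fun x hx hxd => ?_⟩
  have hmem : (⟨x, by simpa using hx⟩ : sphere (0 : X) 1) ∈ ball p r := by
    rw [mem_ball, Subtype.dist_eq, dist_eq_norm]
    exact hxd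
  exact htsub (hball hmem)

end Patch

end Vale.Agent.Lib.P084.Str
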