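import Mathlib

/-! Functions with a uniform second order estimate: differentiability, Lipschitz derivative. -/

namespace Vale.Agent.Lib.P084.Str

open Set Metric Filter Topology

section Quad

variable {E W : Type*} [NormedAddCommGroup E] [NormedSpace ℝ E] [NormedAddCommGroup W]
  [NormedSpace ℝ W]

/-- A uniform second order estimate gives differentiability. -/
lemma quad_deriv {F : E → W} {B : E → E →L[ℝ] W} {U : Set E} (hU : IsOpen U) {C : ℝ}
    (hq : ∀ z ∈ U, ∀ z' ∈ U, ‖F z' - F z - B z (z' - z)‖ ≤ C * ‖z' - z‖ ^ 2) {z : E} (hz : z ∈ U) :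
    HasFDerivAt F (B z) z := by
  rw [hasFDerivAt_iff_isLittleO_nhds_zero, Asymptotics.isLittleO_iff]
  intro c hc
  have h1 : ∀ᶠ v in 𝓝 (0 : E), z + v ∈ U := by
    have hcont : Continuous fun v : E => z + v := by fun_prop
    exact hcont.continuousAt.eventually (hU.mem_nhds (by simpa using hz))
  have h2 : ∀ᶠ v in 𝓝 (0 : E), |C| * ‖v‖ ≤ c := by
    have hcont : Continuous fun v : E => |C| * ‖v‖ := by fun_prop
    have h0 : (fun v : E => |C| * ‖v‖) 0 < c := by simpa using hc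
    exact (hcont.continuousAt.eventually (gt_mem_nhds h0)).mono fun v hv => hv.le
  filter_upwards [h1, h2] with v hv1 hv2
  have h3 := hq z hz (z + v) hv1
  rw [add_sub_cancel_left] at h3
  refine h3.trans ?_
  have h4 : C * ‖v‖ ^ 2 ≤ |C| * ‖v‖ ^ 2 := mul_le_mul_of_nonneg_right (le_abs_self C) (by positivity)
  have h5 : |C| * ‖v‖ ^ 2 = (|C| * ‖v‖) * ‖v‖ := by ring
  rw [h5] at h4
  exact h4.trans (mul_le_mul_of_nonneg_right hv2 (norm_nonneg v))

/-- A uniform second order estimate gives a Lipschitz derivative. -/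
lemma quad_lip {F : E → W} {B : E → E →L[ℝ] W} {z₀ : E} {ρ C : ℝ} (hC : 0 ≤ C)
    (hq : ∀ z ∈ ball z₀ ρ, ∀ z' ∈ ball z₀ ρ, ‖F z' - F z - B z (z' - z)‖ ≤ C * ‖z' - z‖ ^ 2)
    {z₁ z₂ : E} (h₁ : z₁ ∈ ball z₀ (ρ / 4)) (h₂ : z₂ ∈ ball z₀ (ρ / 4)) :
    ‖B z₁ - B z₂‖ ≤ 6 * C * ‖z₁ - z₂‖ := by
  rw [mem_ball, dist_eq_norm] at h₁ h₂
  have hρ : 0 < ρ := by
    have := norm_nonneg (z₁ - z₀)
    linarith
  obtain ⟨δ, hδ⟩ : ∃ δ, δ = ‖z₁ - z₂‖ := ⟨_, rfl⟩
  rw [← hδ]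
  have hδ2 : δ < ρ / 2 := by
    rw [hδ]
    have e : z₁ - z₂ = (z₁ - z₀) - (z₂ - z₀) := by abel
    rw [e]
    have := norm_sub_le (z₁ - z₀) (z₂ - z₀)
    linarith
  rcases (norm_nonneg (z₁ - z₂)).eq_or_lt with h0 | hδpos
  · have e : z₁ = z₂ := by
      rw [eq_comm, norm_eq_zero, sub_eq_zero] at h0
      exact h0
    rw [e, sub_self, norm_zero]
    rw [hδ, ← h0]
    simp
  rw [← hδ] at hδpos
  have hmem₁ : z₁ ∈ ball z₀ ρ := by
    rw [mem_ball, dist_eq_norm]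
    linarith
  have hmem₂ : z₂ ∈ ball z₀ ρ := by
    rw [mem_ball, dist_eq_norm]
    linarith
  have hsmall : ∀ v : E, ‖v‖ = δ → ‖(B z₁ - B z₂) v‖ ≤ 6 * C * δ ^ 2 := by
    intro v hv
    have hmem₃ : z₂ + v ∈ ball z₀ ρ := by
      rw [mem_ball, dist_eq_norm]
      have e : z₂ + v - z₀ = (z₂ - z₀) + v := by abel
      rw [e]
      have := norm_add_le (z₂ - z₀) v
      linarith
    have a1 := hq z₂ hmem₂ (z₂ + v) hmem₃
    have a2 := hq z₁ hmem₁ (z₂ + v) hmem₃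
    have a3 := hq z₁ hmem₁ z₂ hmem₂
    rw [add_sub_cancel_left, hv] at a1
    have n2 : ‖z₂ - z₁‖ = δ := by rw [norm_sub_rev, hδ]
    rw [n2] at a3
    have n3 : ‖z₂ + v - z₁‖ ≤ 2 * δ := by
      have e : z₂ + v - z₁ = (z₂ - z₁) + v := by abel
      rw [e]
      have := norm_add_le (z₂ - z₁) v
      linarith
    have a4 : C * ‖z₂ + v - z₁‖ ^ 2 ≤ C * (2 * δ) ^ 2 :=
      mul_le_mul_of_nonneg_left (pow_le_pow_left₀ (norm_nonneg _) n3 2) hC
    have e : (B z₁ - B z₂) v = (F (z₂ + v) - F z₂ - B z₂ v) - (F (z₂ + v) - F z₁ - B z₁ (z₂ + v - z₁)) +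
        (F z₂ - F z₁ - B z₁ (z₂ - z₁)) := by
      simp only [_root_.sub_apply, map_sub, map_add]
      abel
    rw [e]
    refine (norm_add_le _ _).trans ?_
    have a5 := norm_sub_le (F (z₂ + v) - F z₂ - B z₂ v) (F (z₂ + v) - F z₁ - B z₁ (z₂ + v - z₁))
    nlinarith
  refine (B z₁ - B z₂).opNorm_le_bound (by positivity) fun v => ?_
  by_cases hv0 : v = 0
  · simp [hv0]
  have hvn : 0 < ‖v‖ := norm_pos_iff.2 hv0
  have h1 := hsmall ((δ / ‖v‖) • v) (by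
    rw [norm_smul, Real.norm_of_nonneg (by positivity)]
    field_simp)
  rw [map_smul, norm_smul, Real.norm_of_nonneg (by positivity)] at h1
  have h2 : δ / ‖v‖ * ‖(B z₁ - B z₂) v‖ * (‖v‖ / δ) = ‖(B z₁ - B z₂) v‖ := by
    field_simp
  have h3 := mul_le_mul_of_nonneg_right h1 (by positivity : 0 ≤ ‖v‖ / δ)
  rw [h2] at h3
  refine h3.trans (le_of_eq ?_)
  field_simp

end Quad

end Vale.Agent.Lib.P084.Str
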