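import Mathlib
import Vale.Agent.Lib.P084.Str.Patch
import Vale.Agent.Lib.P084.Str.Quad

/-! The radial extension and the norm on a cone over the patch. -/

namespace Vale.Agent.Lib.P084.Str

open Set Metric Filter Topology
open Vale.Agent.Lib.P084

section Cone

variable {X Y : Type*} [NormedAddCommGroup X] [NormedSpace ℝ X]
  [NormedAddCommGroup Y] [NormedSpace ℝ Y] {g : X → Y} {h : Y → X}

/-- The second order estimate of the radial extension. -/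
lemma cone_T {A : X →L[ℝ] Y} {z z' : X} (hz : z ≠ 0) (hz' : z' ≠ 0)
    (hAx : A (‖z‖⁻¹ • z) = g (‖z‖⁻¹ • z)) {K : ℝ} (hK0 : 0 ≤ K)
    (hA : ‖g (‖z'‖⁻¹ • z') - A (‖z'‖⁻¹ • z')‖ ≤ K * ‖‖z'‖⁻¹ • z' - ‖z‖⁻¹ • z‖ ^ 2)
    (hs : ‖z'‖ ≤ 5 / 4) (hd : ‖‖z'‖⁻¹ • z' - ‖z‖⁻¹ • z‖ ≤ 8 / 3 * ‖z' - z‖) :
    ‖radial g z' - radial g z - A (z' - z)‖ ≤ 10 * K * ‖z' - z‖ ^ 2 := by
  have hn : ‖z‖ ≠ 0 := norm_ne_zero_iff.2 hz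
  have hn' : ‖z'‖ ≠ 0 := norm_ne_zero_iff.2 hz'
  have e1 : z = ‖z‖ • (‖z‖⁻¹ • z) := by rw [smul_smul, mul_inv_cancel₀ hn, one_smul]
  have e2 : z' = ‖z'‖ • (‖z'‖⁻¹ • z') := by rw [smul_smul, mul_inv_cancel₀ hn', one_smul]
  have e3 : A (z' - z) = ‖z'‖ • A (‖z'‖⁻¹ • z') - ‖z‖ • g (‖z‖⁻¹ • z) := by
    rw [map_sub, ← hAx, ← map_smul, ← map_smul, ← e1, ← e2]
  have e4 : radial g z' - radial g z - A (z' - z) = ‖z'‖ • (g (‖z'‖⁻¹ • z') - A (‖z'‖⁻¹ • z')) := by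
    rw [e3, radial, radial, smul_sub]
    abel
  rw [e4, norm_smul, norm_norm]
  have h1 : ‖‖z'‖⁻¹ • z' - ‖z‖⁻¹ • z‖ ^ 2 ≤ (8 / 3 * ‖z' - z‖) ^ 2 :=
    pow_le_pow_left₀ (norm_nonneg _) hd 2
  have h2 : K * ‖‖z'‖⁻¹ • z' - ‖z‖⁻¹ • z‖ ^ 2 ≤ K * (8 / 3 * ‖z' - z‖) ^ 2 :=
    mul_le_mul_of_nonneg_left h1 hK0
  have h3 : ‖z'‖ * ‖g (‖z'‖⁻¹ • z') - A (‖z'‖⁻¹ • z')‖ ≤ 5 / 4 * (K * (8 / 3 * ‖z' - z‖) ^ 2) :=
    mul_le_mul hs (hA.trans h2) (norm_nonneg _) (by norm_num)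
  refine h3.trans ?_
  have h4 : 0 ≤ K * ‖z' - z‖ ^ 2 := by positivity
  nlinarith

/-- The second order estimate of the norm. -/
lemma cone_N (hX : Smooth X) {z z' : X} (hz : z ≠ 0) (hz' : z' ≠ 0) {K δ : ℝ} (hK0 : 0 ≤ K)
    (hs : 3 / 4 ≤ ‖z‖) (hd : ‖z' - z‖ ≤ δ / 2)
    (hx : ∀ w : X, ‖w‖ < δ → ‖‖z‖⁻¹ • z + w‖ + ‖‖z‖⁻¹ • z - w‖ - 2 ≤ K * ‖w‖ ^ 2) (hδ : 0 < δ) :
    ‖‖z'‖ - ‖z‖ - chi z (z' - z)‖ ≤ 10 * K * ‖z' - z‖ ^ 2 := by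
  obtain ⟨s, hsd⟩ : ∃ s, s = ‖z‖ := ⟨_, rfl⟩
  rw [← hsd] at hs hx ⊢
  have hs0 : 0 < s := by linarith
  obtain ⟨x, hxd⟩ : ∃ x, x = s⁻¹ • z := ⟨_, rfl⟩
  rw [← hxd] at hx
  have hx1 : ‖x‖ = 1 := by
    rw [hxd, hsd]
    exact unit_of_ne hz
  have hx0 : x ≠ 0 := by
    intro h0
    rw [h0, norm_zero] at hx1
    exact zero_ne_one hx1
  obtain ⟨w, hwd⟩ : ∃ w, w = z' - z := ⟨_, rfl⟩
  rw [← hwd] at hd ⊢
  obtain ⟨u, hud⟩ : ∃ u, u = s⁻¹ • w := ⟨_, rfl⟩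
  have hinv : s⁻¹ ≤ 4 / 3 := by
    rw [inv_le_comm₀ hs0 (by norm_num)]
    linarith
  have hun : ‖u‖ = s⁻¹ * ‖w‖ := by
    rw [hud, norm_smul, norm_inv, Real.norm_of_nonneg hs0.le]
  have hwn : 0 ≤ ‖w‖ := norm_nonneg w
  have hu1 : ‖u‖ < δ := by
    rw [hun]
    have h1 : s⁻¹ * ‖w‖ ≤ 4 / 3 * (δ / 2) := mul_le_mul hinv hd hwn (by norm_num)
    linarith
  have hzx : z = s • x := by
    rw [hxd, smul_smul, mul_inv_cancel₀ hs0.ne', one_smul]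
  have hwu : w = s • u := by
    rw [hud, smul_smul, mul_inv_cancel₀ hs0.ne', one_smul]
  have hz'e : z' = s • (x + u) := by
    rw [smul_add, ← hzx, ← hwu, hwd]
    abel
  have hchi : chi z = chi x := by
    rw [hxd, hsd]
    exact (chi_unit hz).symm
  have hself : chi x x = 1 := by rw [hX.chi_self hx0, hx1]
  have hval : ‖z'‖ - s - chi z w = s * (‖x + u‖ - 1 - chi x u) := by
    rw [hz'e, norm_smul, Real.norm_of_nonneg hs0.le, hchi, hwu, map_smul, smul_eq_mul]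
    ring
  have hlow : 0 ≤ ‖x + u‖ - 1 - chi x u := by
    have := chi_le x (x + u)
    rw [map_add, hself] at this
    linarith
  have hup : ‖x + u‖ - 1 - chi x u ≤ K * ‖u‖ ^ 2 := by
    have h1 := hx u hu1
    have h2 := chi_le x (x - u)
    rw [map_sub, hself] at h2
    linarith
  rw [hval, Real.norm_eq_abs, abs_of_nonneg (by positivity)]
  have h3 : s * (K * ‖u‖ ^ 2) = s⁻¹ * (K * ‖w‖ ^ 2) := by
    rw [hun]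
    field_simp
  have h4 : s * (‖x + u‖ - 1 - chi x u) ≤ s⁻¹ * (K * ‖w‖ ^ 2) := by
    rw [← h3]
    exact mul_le_mul_of_nonneg_left hup hs0.le
  refine h4.trans ?_
  have h5 : 0 ≤ K * ‖w‖ ^ 2 := by positivity
  nlinarith

variable [FiniteDimensional ℝ X] [FiniteDimensional ℝ Y]

/-- **The cone over the patch.** -/
theorem exists_cone [Nontrivial X] (H : SphereIso g h) (hX : Smooth X) (hY : Smooth Y)
    (hR : ∀ x : X, ‖x‖ = 1 → Far.Reg x) :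
    ∃ (x₁ : X) (ρ : ℝ) (Ah : X → X →L[ℝ] Y) (Cq : ℝ), ‖x₁‖ = 1 ∧ 0 < ρ ∧ 0 ≤ Cq ∧
      (∀ (z : X) (c : ℝ), 0 < c → Ah (c • z) = Ah z) ∧
      (∀ z ∈ ball x₁ ρ, ‖z‖ = 1 → Ah z z = g z) ∧
      (∀ z ∈ ball x₁ ρ, ∀ z' ∈ ball x₁ ρ,
        ‖radial g z' - radial g z - Ah z (z' - z)‖ ≤ Cq * ‖z' - z‖ ^ 2) ∧
      (∀ z ∈ ball x₁ ρ, ∀ z' ∈ ball x₁ ρ, ‖‖z'‖ - ‖z‖ - chi z (z' - z)‖ ≤ Cq * ‖z' - z‖ ^ 2) := by
  obtain ⟨x₁, r, k, hx₁, hr, hpatch⟩ := exists_patch H hX hY hR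
  obtain ⟨K, hK⟩ : ∃ K : ℝ, K = (k : ℝ) + 1 := ⟨_, rfl⟩
  have hK0 : 0 < K := by
    rw [hK]
    positivity
  obtain ⟨δ, hδ⟩ : ∃ δ : ℝ, δ = 1 / K := ⟨_, rfl⟩
  have hδ0 : 0 < δ := by
    rw [hδ]
    positivity
  have hsel : ∀ x : X, ∃ A : X →L[ℝ] Y, ‖x‖ = 1 → ‖x - x₁‖ < r → A x = g x ∧
      ∀ y, ‖y‖ = 1 → ‖y - x‖ < δ → ‖g y - A y‖ ≤ K * ‖y - x‖ ^ 2 := by
    intro x
    by_cases hx : ‖x‖ = 1 ∧ ‖x - x₁‖ < r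
    · obtain ⟨-, -, A, -, h2, h3⟩ := hpatch x hx.1 hx.2
      refine ⟨A, fun _ _ => ⟨h2, fun y hy hyd => ?_⟩⟩
      rw [hK]
      exact h3 y hy (by rw [← hK, ← hδ]; exact hyd)
    · exact ⟨0, fun h1 h2 => absurd ⟨h1, h2⟩ hx⟩
  choose Asel hAsel using hsel
  obtain ⟨ρ, hρ⟩ : ∃ ρ, ρ = min (1 / 4) (min (r / 4) (δ / 16)) := ⟨_, rfl⟩
  have hρ0 : 0 < ρ := by
    rw [hρ]
    positivity
  have hρ1 : ρ ≤ 1 / 4 := by rw [hρ]; exact min_le_left _ _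
  have hρ2 : ρ ≤ r / 4 := by rw [hρ]; exact (min_le_right _ _).trans (min_le_left _ _)
  have hρ3 : ρ ≤ δ / 16 := by rw [hρ]; exact (min_le_right _ _).trans (min_le_right _ _)
  have hfacts : ∀ z ∈ ball x₁ ρ, z ≠ 0 ∧ 3 / 4 ≤ ‖z‖ ∧ ‖z‖ ≤ 5 / 4 ∧ ‖‖z‖⁻¹ • z‖ = 1 ∧
      ‖‖z‖⁻¹ • z - x₁‖ < r := by
    intro z hz
    rw [mem_ball, dist_eq_norm] at hz
    have h1 : |‖z‖ - ‖x₁‖| ≤ ‖z - x₁‖ := abs_norm_sub_norm_le z x₁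
    rw [hx₁] at h1
    have h2 := abs_le.1 h1
    have h3 : 3 / 4 ≤ ‖z‖ := by linarith [h2.1]
    have h4 : ‖z‖ ≤ 5 / 4 := by linarith [h2.2]
    have hz0 : z ≠ 0 := by
      intro h0
      rw [h0, norm_zero] at h3
      norm_num at h3
    refine ⟨hz0, h3, h4, unit_of_ne hz0, ?_⟩
    have h5 := normalize_dist (v₀ := x₁) hz0
    rw [hx₁, inv_one, one_smul] at h5
    refine h5.trans_lt ?_
    rw [div_lt_iff₀ (by linarith)]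
    nlinarith
  have hbetween : ∀ z ∈ ball x₁ ρ, ∀ z' ∈ ball x₁ ρ,
      ‖z' - z‖ < 2 * ρ ∧ ‖‖z'‖⁻¹ • z' - ‖z‖⁻¹ • z‖ ≤ 8 / 3 * ‖z' - z‖ := by
    intro z hz z' hz'
    obtain ⟨-, h3, -, -, -⟩ := hfacts z' hz'
    obtain ⟨hz'0, -, -, -, -⟩ := hfacts z' hz'
    rw [mem_ball, dist_eq_norm] at hz hz'
    have h1 : ‖z' - z‖ < 2 * ρ := by
      have e : z' - z = (z' - x₁) - (z - x₁) := by abel
      rw [e]
      have := norm_sub_le (z' - x₁) (z - x₁)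
      linarith
    refine ⟨h1, ?_⟩
    have h5 := normalize_dist (v₀ := z) hz'0
    refine h5.trans ?_
    rw [div_le_iff₀ (by linarith)]
    have h6 := norm_nonneg (z' - z)
    nlinarith
  refine ⟨x₁, ρ, fun z => Asel (‖z‖⁻¹ • z), 10 * K, hx₁, hρ0, by positivity, ?_, ?_, ?_, ?_⟩
  · intro z c hc
    have e : ‖c • z‖⁻¹ • (c • z) = ‖z‖⁻¹ • z := by
      by_cases hz : z = 0
      · simp [hz]
      have hn : ‖z‖ ≠ 0 := norm_ne_zero_iff.2 hz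
      rw [norm_smul, Real.norm_of_nonneg hc.le, smul_smul]
      congr 1
      field_simp
    simp only [e]
  · intro z hz hz1
    obtain ⟨-, -, -, h4, h5⟩ := hfacts z hz
    have h6 := (hAsel _ h4 h5).1
    have e : ‖z‖⁻¹ • z = z := by rw [hz1, inv_one, one_smul]
    simp only [e] at h6 ⊢
    exact h6
  · intro z hz z' hz'
    obtain ⟨hz0, -, -, h4, h5⟩ := hfacts z hz
    obtain ⟨hz'0, -, h7, h8, -⟩ := hfacts z' hz'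
    obtain ⟨h9, h10⟩ := hbetween z hz z' hz'
    obtain ⟨h11, h12⟩ := hAsel _ h4 h5
    refine cone_T hz0 hz'0 h11 hK0.le (h12 _ h8 ?_) h7 h10
    have h13 : 8 / 3 * ‖z' - z‖ < 8 / 3 * (2 * ρ) := mul_lt_mul_of_pos_left h9 (by norm_num)
    linarith
  · intro z hz z' hz'
    obtain ⟨hz0, h3, -, h4, h5⟩ := hfacts z hz
    obtain ⟨hz'0, -, -, -, -⟩ := hfacts z' hz'
    obtain ⟨h9, -⟩ := hbetween z hz z' hz'
    refine cone_N hX hz0 hz'0 hK0.le h3 (δ := δ) (by linarith) (fun w hw => ?_) hδ0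
    obtain ⟨-, h6, -⟩ := hpatch _ h4 h5
    rw [hK]
    exact h6 w (by rw [← hK, ← hδ]; exact hw)

end Cone

end Vale.Agent.Lib.P084.Str
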