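import Mathlib
import Vale.Agent.Lib.P084.Str.Cone

/-! The gradient map of a smooth strictly convex norm is a homeomorphism; a Sard type argument
gives a point of twice differentiability with nondegenerate second derivative. -/

namespace Vale.Agent.Lib.P084.Str

open Set Metric Filter Topology MeasureTheory
open Vale.Agent.Lib.P084

section Gm

variable {X : Type*} [NormedAddCommGroup X] [NormedSpace ℝ X]

/-- The gradient map. -/
noncomputable def Gm (z : X) : StrongDual ℝ X := ‖z‖ • chi z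

lemma Gm_zero : Gm (0 : X) = 0 := by simp [Gm]

lemma norm_chi_eq_one (hs : Smooth X) {z : X} (hz : z ≠ 0) : ‖chi z‖ = 1 := by
  refine le_antisymm (chi_norm_le z) ?_
  have h1 := (chi z).le_opNorm z
  rw [hs.chi_self hz, Real.norm_of_nonneg (norm_nonneg z)] at h1
  have hn : 0 < ‖z‖ := norm_pos_iff.2 hz
  nlinarith

lemma Gm_norm (hs : Smooth X) (z : X) : ‖Gm z‖ = ‖z‖ := by
  by_cases hz : z = 0
  · simp [hz, Gm_zero]
  rw [Gm, norm_smul, norm_norm, norm_chi_eq_one hs hz, mul_one]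

lemma Gm_continuous [FiniteDimensional ℝ X] (hs : Smooth X) : Continuous (Gm : X → StrongDual ℝ X) := by
  rw [continuous_iff_continuousAt]
  intro z
  by_cases hz : z = 0
  · subst hz
    rw [ContinuousAt, Gm_zero, tendsto_zero_iff_norm_tendsto_zero]
    simp only [Gm_norm hs]
    exact tendsto_norm_zero
  · exact continuous_norm.continuousAt.smul (hs.chi_continuousAt hz)

lemma Gm_injective [StrictConvexSpace ℝ X] (hs : Smooth X) :
    Function.Injective (Gm : X → StrongDual ℝ X) := by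
  intro z z' he
  have hn : ‖z‖ = ‖z'‖ := by rw [← Gm_norm hs z, ← Gm_norm hs z', he]
  by_cases hz : z = 0
  · subst hz
    rw [norm_zero, eq_comm, norm_eq_zero] at hn
    exact hn.symm
  have hz' : z' ≠ 0 := by
    intro h0
    rw [h0, norm_zero, norm_eq_zero] at hn
    exact hz hn
  have hpos : ‖z‖ ≠ 0 := norm_ne_zero_iff.2 hz
  have hc : chi z = chi z' := by
    have h1 : ‖z‖ • chi z = ‖z‖ • chi z' := by
      have h2 := he
      rw [Gm, Gm, ← hn] at h2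
      exact h2
    exact smul_right_injective _ hpos h1
  have h3 : chi z z' = ‖z'‖ := by rw [hc, hs.chi_self hz']
  have h4 := ray_of_chi hs hz hz' h3
  rw [← hn, div_self hpos, one_smul] at h4
  exact h4.symm

lemma Gm_surjective [FiniteDimensional ℝ X] (hs : Smooth X) :
    Function.Surjective (Gm : X → StrongDual ℝ X) := by
  intro ψ
  by_cases hψ : ψ = 0
  · exact ⟨0, by rw [hψ, Gm_zero]⟩
  have : Nontrivial X := by
    by_contra hnt
    rw [not_nontrivial_iff_subsingleton] at hnt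
    exact hψ (ContinuousLinearMap.ext fun v => by
      rw [Subsingleton.elim v 0]
      simp)
  have hK : IsCompact (sphere (0 : X) 1) := isCompact_sphere _ _
  obtain ⟨v₀, hv₀⟩ := exists_norm_eq X (zero_le_one (α := ℝ))
  have hne : (sphere (0 : X) 1).Nonempty := ⟨v₀, by simpa using hv₀⟩
  obtain ⟨x, hx, hmax⟩ := hK.exists_isMaxOn hne ψ.continuous.continuousOn
  have hx1 : ‖x‖ = 1 := by simpa using hx
  have hx0 : x ≠ 0 := by
    intro h0
    rw [h0, norm_zero] at hx1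
    exact zero_ne_one hx1
  have hnψ : 0 < ‖ψ‖ := norm_pos_iff.2 hψ
  have hvalle : ψ x ≤ ‖ψ‖ := by
    have := ψ.le_opNorm x
    rw [hx1, mul_one] at this
    exact (le_abs_self _).trans this
  have hM : ‖ψ‖ ≤ ψ x := by
    have hval0 : 0 ≤ ψ x := by
      have h1 : ψ (-x) ≤ ψ x := hmax (by simpa using hx1)
      rw [map_neg] at h1
      linarith
    refine ψ.opNorm_le_bound hval0 fun v => ?_
    by_cases hv : v = 0
    · simp [hv]
    have hvn : 0 < ‖v‖ := norm_pos_iff.2 hv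
    have hu : ‖‖v‖⁻¹ • v‖ = 1 := unit_of_ne hv
    have h1 : ψ (‖v‖⁻¹ • v) ≤ ψ x := hmax (by simpa using hu)
    have h2 : ψ (-(‖v‖⁻¹ • v)) ≤ ψ x := hmax (by simpa using hu)
    rw [map_smul, smul_eq_mul] at h1
    rw [map_neg, map_smul, smul_eq_mul] at h2
    rw [Real.norm_eq_abs, abs_le]
    have h3 : ψ v ≤ ψ x * ‖v‖ := by
      rw [inv_mul_le_iff₀ hvn] at h1
      linarith
    have h4 : -(ψ v) ≤ ψ x * ‖v‖ := by
      have : -(‖v‖⁻¹ * ψ v) = ‖v‖⁻¹ * (-ψ v) := by ring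
      rw [this, inv_mul_le_iff₀ hvn] at h2
      linarith
    constructor <;> linarith
  have hval : ψ x = ‖ψ‖ := le_antisymm hvalle hM
  have hchi : chi x = ‖ψ‖⁻¹ • ψ := by
    refine hs.chi_eq hx0 ?_ ?_
    · rw [norm_smul, norm_inv, norm_norm, inv_mul_cancel₀ hnψ.ne']
    · rw [_root_.smul_apply, hval, smul_eq_mul, inv_mul_cancel₀ hnψ.ne', hx1]
  refine ⟨‖ψ‖ • x, ?_⟩
  rw [Gm, chi_smul hnψ x, hchi, norm_smul, norm_norm, hx1, mul_one, smul_smul,
    mul_inv_cancel₀ hnψ.ne', one_smul]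

lemma Gm_isOpenMap [FiniteDimensional ℝ X] [StrictConvexSpace ℝ X] (hs : Smooth X) :
    IsOpenMap (Gm : X → StrongDual ℝ X) := by
  have hp : IsProperMap (Gm : X → StrongDual ℝ X) := by
    rw [isProperMap_iff_tendsto_cocompact]
    refine ⟨Gm_continuous hs, ?_⟩
    rw [← Metric.cobounded_eq_cocompact, ← Metric.cobounded_eq_cocompact,
      ← tendsto_norm_atTop_iff_cobounded]
    simp only [Gm_norm hs]
    exact tendsto_norm_cobounded_atTop
  have hh : IsHomeomorph (Gm : X → StrongDual ℝ X) :=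
    isHomeomorph_iff_continuous_isClosedMap_bijective.2
      ⟨Gm_continuous hs, hp.isClosedMap, Gm_injective hs, Gm_surjective hs⟩
  exact hh.isOpenMap

end Gm

section Sard

variable {X Y : Type*} [NormedAddCommGroup X] [NormedSpace ℝ X] [NormedAddCommGroup Y]
  [NormedSpace ℝ Y] [FiniteDimensional ℝ X] [FiniteDimensional ℝ Y]

/-- The gradient map is Lipschitz where the gradient is. -/
lemma Gm_lipschitz {s : Set X} {L : ℝ} (hL0 : 0 ≤ L) (hb : ∀ z ∈ s, ‖z‖ ≤ 2)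
    (hL : ∀ z₁ ∈ s, ∀ z₂ ∈ s, ‖chi z₁ - chi z₂‖ ≤ L * ‖z₁ - z₂‖) {z₁ z₂ : X} (h₁ : z₁ ∈ s)
    (h₂ : z₂ ∈ s) : ‖Gm z₁ - Gm z₂‖ ≤ (2 * L + 1) * ‖z₁ - z₂‖ := by
  have e : Gm z₁ - Gm z₂ = ‖z₁‖ • (chi z₁ - chi z₂) + (‖z₁‖ - ‖z₂‖) • chi z₂ := by
    rw [Gm, Gm]
    module
  rw [e]
  refine (norm_add_le _ _).trans ?_
  rw [norm_smul, norm_smul, norm_norm, Real.norm_eq_abs]
  have h3 : ‖z₁‖ * ‖chi z₁ - chi z₂‖ ≤ 2 * (L * ‖z₁ - z₂‖) :=
    mul_le_mul (hb z₁ h₁) (hL z₁ h₁ z₂ h₂) (norm_nonneg _) (by norm_num)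
  have h4 : |‖z₁‖ - ‖z₂‖| * ‖chi z₂‖ ≤ ‖z₁ - z₂‖ * 1 :=
    mul_le_mul (abs_norm_sub_norm_le _ _) (chi_norm_le z₂) (norm_nonneg _) (norm_nonneg _)
  linarith

variable [StrictConvexSpace ℝ X]

/-- **Sard step.** On a ball where `Ah` and the gradient are Lipschitz there is a point where both
are differentiable, and where the derivative of the gradient is nondegenerate on the tangent
hyperplane. -/
theorem exists_good_point (hX : Smooth X) {Ah : X → X →L[ℝ] Y} {x₁ : X} {r L : ℝ} (hr : 0 < r)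
    (hL0 : 0 ≤ L) (hb : ∀ z ∈ ball x₁ r, ‖z‖ ≤ 2) (h0 : ∀ z ∈ ball x₁ r, z ≠ 0)
    (hLA : ∀ z₁ ∈ ball x₁ r, ∀ z₂ ∈ ball x₁ r, ‖Ah z₁ - Ah z₂‖ ≤ L * ‖z₁ - z₂‖)
    (hLc : ∀ z₁ ∈ ball x₁ r, ∀ z₂ ∈ ball x₁ r, ‖chi z₁ - chi z₂‖ ≤ L * ‖z₁ - z₂‖) :
    ∃ z ∈ ball x₁ r, ∃ (BBz : X →L[ℝ] X →L[ℝ] Y) (HHz : X →L[ℝ] X →L[ℝ] ℝ),
      HasFDerivAt Ah BBz z ∧ HasFDerivAt (chi : X → StrongDual ℝ X) HHz z ∧
      ∀ w, chi z w = 0 → HHz w = 0 → w = 0 := by
  classical
  by_contra hcon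
  push Not at hcon
  let _ : MeasurableSpace X := borel X
  have _ : BorelSpace X := ⟨rfl⟩
  obtain ⟨n, hn⟩ : ∃ n : ℕ, n = Module.finrank ℝ X := ⟨_, rfl⟩
  have hμ : Measure.IsAddHaarMeasure (μH[(Module.finrank ℝ X : ℝ)] : Measure X) :=
    isAddHaarMeasure_hausdorffMeasure
  obtain ⟨μ, hμd⟩ : ∃ μ : Measure X, μ = μH[(Module.finrank ℝ X : ℝ)] := ⟨_, rfl⟩
  rw [← hμd] at hμ
  -- the Lipschitz constants
  obtain ⟨K, hK⟩ : ∃ K : NNReal, (K : ℝ) = L := ⟨⟨L, hL0⟩, rfl⟩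
  have hlipA : LipschitzOnWith K Ah (ball x₁ r) := by
    refine LipschitzOnWith.of_dist_le_mul fun z₁ h₁ z₂ h₂ => ?_
    rw [dist_eq_norm, dist_eq_norm, hK]
    exact hLA z₁ h₁ z₂ h₂
  have hlipc : LipschitzOnWith K (chi : X → StrongDual ℝ X) (ball x₁ r) := by
    refine LipschitzOnWith.of_dist_le_mul fun z₁ h₁ z₂ h₂ => ?_
    rw [dist_eq_norm, dist_eq_norm, hK]
    exact hLc z₁ h₁ z₂ h₂
  have hae := (hlipA.ae_differentiableWithinAt_of_mem (μ := μ)).and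
    (hlipc.ae_differentiableWithinAt_of_mem (μ := μ))
  -- the bad set
  obtain ⟨N, hN⟩ : ∃ N : Set X, N = {z | ¬ ((z ∈ ball x₁ r → DifferentiableWithinAt ℝ Ah (ball x₁ r) z) ∧
      (z ∈ ball x₁ r → DifferentiableWithinAt ℝ (chi : X → StrongDual ℝ X) (ball x₁ r) z))} :=
    ⟨_, rfl⟩
  have hNnull : μ N = 0 := by
    rw [hN]
    exact ae_iff.1 hae
  -- the map to `X`
  have hfr : Module.finrank ℝ (StrongDual ℝ X) = Module.finrank ℝ X := Far.finrank_strongDual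
  obtain ⟨e⟩ : Nonempty (StrongDual ℝ X ≃L[ℝ] X) := ⟨ContinuousLinearEquiv.ofFinrankEq hfr⟩
  obtain ⟨F, hF⟩ : ∃ F : X → X, F = fun z => e (Gm z) := ⟨_, rfl⟩
  have hFlip : LipschitzOnWith (‖(e : StrongDual ℝ X →L[ℝ] X)‖₊ * Real.toNNReal (2 * L + 1)) F
      (ball x₁ r) := by
    have hG : LipschitzOnWith (Real.toNNReal (2 * L + 1)) (Gm : X → StrongDual ℝ X) (ball x₁ r) := by
      refine LipschitzOnWith.of_dist_le_mul fun z₁ h₁ z₂ h₂ => ?_
      rw [dist_eq_norm, dist_eq_norm, Real.coe_toNNReal _ (by positivity)]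
      exact Gm_lipschitz hL0 hb hLc h₁ h₂
    rw [hF]
    exact (e : StrongDual ℝ X →L[ℝ] X).lipschitz.comp_lipschitzOnWith hG
  have hFN : μ (F '' N) = 0 := by
    have hNsub : N ⊆ ball x₁ r := by
      intro z hz
      rw [hN] at hz
      by_contra hzb
      exact hz ⟨fun h => absurd h hzb, fun h => absurd h hzb⟩
    have h1 := (hFlip.mono hNsub).hausdorffMeasure_image_le (d := (Module.finrank ℝ X : ℝ))
      (Nat.cast_nonneg _)
    rw [← hμd, hNnull, mul_zero] at h1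
    exact le_antisymm h1 zero_le
  -- the good set
  obtain ⟨D, hD⟩ : ∃ D : Set X, D = ball x₁ r \ N := ⟨_, rfl⟩
  have hgood : ∀ z ∈ D, ∃ (BBz : X →L[ℝ] X →L[ℝ] Y) (HHz : X →L[ℝ] X →L[ℝ] ℝ),
      HasFDerivAt Ah BBz z ∧ HasFDerivAt (chi : X → StrongDual ℝ X) HHz z := by
    intro z hz
    rw [hD, hN] at hz
    obtain ⟨hzb, hz2⟩ := hz
    have hz3 : (z ∈ ball x₁ r → DifferentiableWithinAt ℝ Ah (ball x₁ r) z) ∧
      (z ∈ ball x₁ r → DifferentiableWithinAt ℝ (chi : X → StrongDual ℝ X) (ball x₁ r) z) := by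
      by_contra h
      exact hz2 h
    have hnb := isOpen_ball.mem_nhds hzb
    exact ⟨_, _, ((hz3.1 hzb).differentiableAt hnb).hasFDerivAt,
      ((hz3.2 hzb).differentiableAt hnb).hasFDerivAt⟩
  have hderiv : ∀ z ∈ D, ∃ F' : X →L[ℝ] X, HasFDerivAt F F' z ∧ F'.det = 0 := by
    intro z hz
    obtain ⟨BBz, HHz, h1, h2⟩ := hgood z hz
    have hzb : z ∈ ball x₁ r := by
      rw [hD] at hz
      exact hz.1
    obtain ⟨w, hw1, hw2, hw3⟩ := hcon z hzb BBz HHz h1 h2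
    have h3 : HasFDerivAt (fun y : X => ‖y‖ • (chi y : StrongDual ℝ X))
        (‖z‖ • HHz + (chi z).smulRight (chi z)) z := (hX.hasFDerivAt (h0 z hzb)).smul h2
    have h4 : HasFDerivAt F ((e : StrongDual ℝ X →L[ℝ] X).comp
        (‖z‖ • HHz + (chi z).smulRight (chi z))) z := by
      rw [hF]
      exact (e : StrongDual ℝ X →L[ℝ] X).hasFDerivAt.comp z h3
    refine ⟨_, h4, ?_⟩
    have hker : ((e : StrongDual ℝ X →L[ℝ] X).comp
        (‖z‖ • HHz + (chi z).smulRight (chi z))) w = 0 := by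
      simp [hw1, hw2]
    rw [ContinuousLinearMap.det]
    refine LinearMap.det_eq_zero_iff_ker_ne_bot.2 fun hbot => hw3 ?_
    have hmem : w ∈ LinearMap.ker (((e : StrongDual ℝ X →L[ℝ] X).comp
        (‖z‖ • HHz + (chi z).smulRight (chi z))) : X →ₗ[ℝ] X) := by
      rw [LinearMap.mem_ker]
      exact hker
    rw [hbot] at hmem
    simpa using hmem
  choose! F' hF'1 hF'2 using hderiv
  have hFD : μ (F '' D) = 0 :=
    addHaar_image_eq_zero_of_det_fderivWithin_eq_zero μ (fun z hz => (hF'1 z hz).hasFDerivWithinAt) hF'2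
  have hcov : F '' ball x₁ r ⊆ F '' D ∪ F '' N := by
    rw [← image_union]
    refine image_mono fun z hz => ?_
    by_cases hzN : z ∈ N
    · exact Or.inr hzN
    · exact Or.inl (by rw [hD]; exact ⟨hz, hzN⟩)
  have hzero : μ (F '' ball x₁ r) = 0 := by
    refine measure_mono_null hcov ?_
    exact measure_union_null hFD hFN
  have hopen : IsOpen (F '' ball x₁ r) := by
    have h1 : IsOpenMap F := by
      rw [hF]
      exact e.toHomeomorph.isOpenMap.comp (Gm_isOpenMap hX)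
    exact h1 _ isOpen_ball
  have hne : (F '' ball x₁ r).Nonempty := ⟨F x₁, mem_image_of_mem _ (mem_ball_self hr)⟩
  exact (hopen.measure_pos μ hne).ne' hzero

end Sard

end Vale.Agent.Lib.P084.Str
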