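import Mathlib
import Vale.Agent.Lib.P084.Str.Good

/-! Existence of second order (Peano) data at a point of the sphere. -/

namespace Vale.Agent.Lib.P084.Str

open Set Metric Filter Topology
open Vale.Agent.Lib.P084

section Homog

variable {X W : Type*} [NormedAddCommGroup X] [NormedSpace ℝ X] [NormedAddCommGroup W]
  [NormedSpace ℝ W]

/-- The derivative of a function that is constant on a ray vanishes along the ray. -/
lemma homog_zero {f : X → W} {f' : X →L[ℝ] W} {x₀ : X} (hf : HasFDerivAt f f' x₀)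
    (hom : ∀ c : ℝ, 0 < c → f (c • x₀) = f x₀) : f' x₀ = 0 := by
  have hl : HasDerivAt (fun t : ℝ => t • x₀) x₀ 1 := by
    simpa using (hasDerivAt_id (1 : ℝ)).smul_const x₀
  have h1 : HasDerivAt (fun t : ℝ => f (t • x₀)) (f' x₀) 1 :=
    HasFDerivAt.comp_hasDerivAt_of_eq (1 : ℝ) hf hl (by simp)
  have h2 : (fun t : ℝ => f (t • x₀)) =ᶠ[𝓝 1] fun _ => f x₀ := by
    filter_upwards [lt_mem_nhds (zero_lt_one (α := ℝ))] with t ht
    exact hom t ht
  have h3 : HasDerivAt (fun t : ℝ => f (t • x₀)) 0 1 :=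
    (hasDerivAt_const (1 : ℝ) (f x₀)).congr_of_eventuallyEq h2
  exact h1.unique h3

/-- The derivative of the gradient is positive semidefinite. -/
lemma psd_of_taylor (hX : Smooth X) {x₀ : X} (hx₀ : x₀ ≠ 0) {HH : X →L[ℝ] X →L[ℝ] ℝ}
    (hH : HasFDerivAt (chi : X → StrongDual ℝ X) HH x₀) (w : X) : 0 ≤ HH w w := by
  by_contra hneg
  push Not at hneg
  obtain ⟨ε, hεd⟩ : ∃ ε, ε = -HH w w / (4 * (‖w‖ ^ 2 + 1)) := ⟨_, rfl⟩
  have hε : 0 < ε := by
    rw [hεd]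
    have : 0 < -HH w w := by linarith
    positivity
  have hev : ∀ᶠ z in 𝓝 x₀, HasFDerivAt (fun z : X => ‖z‖) (chi z) z := by
    filter_upwards [isOpen_ne.mem_nhds hx₀] with z hz
    exact hX.hasFDerivAt hz
  have h1 := peano_taylor hev hH hε
  obtain ⟨δ, hδ, hb⟩ := Metric.eventually_nhds_iff.1 h1
  obtain ⟨t, htd⟩ : ∃ t : ℝ, t = δ / (2 * (‖w‖ + 1)) := ⟨_, rfl⟩
  have ht0 : 0 < t := by
    rw [htd]
    positivity
  have hmem : dist (x₀ + t • w) x₀ < δ := by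
    rw [dist_eq_norm, add_sub_cancel_left, norm_smul, Real.norm_of_nonneg ht0.le, htd]
    rw [div_mul_eq_mul_div, div_lt_iff₀ (by positivity)]
    have := norm_nonneg w
    nlinarith
  have h2 := @hb (x₀ + t • w) hmem
  rw [add_sub_cancel_left, Real.norm_eq_abs] at h2
  have h3 := hX.support hx₀ (x₀ + t • w)
  rw [add_sub_cancel_left] at h3
  have h4 := (abs_le.1 h2).2
  simp only [map_smul, _root_.smul_apply, smul_eq_mul, norm_smul, Real.norm_of_nonneg ht0.le] at h2 h3 h4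
  have h5 : -(ε * (t * ‖w‖) ^ 2) ≤ 1 / 2 * (t * (t * HH w w)) := by
    linarith
  have h6 : ε * (t * ‖w‖) ^ 2 = t ^ 2 * (ε * ‖w‖ ^ 2) := by ring
  have h7 : 4 * (ε * (‖w‖ ^ 2 + 1)) = -HH w w := by
    rw [hεd]
    field_simp
  have h8 : 0 < t ^ 2 := by positivity
  have h9 : t ^ 2 * (1 / 2 * HH w w + ε * ‖w‖ ^ 2) < 0 := by
    refine mul_neg_of_pos_of_neg h8 ?_
    have := mul_pos hε (by positivity : (0 : ℝ) < ‖w‖ ^ 2 + 1)
    nlinarith
  rw [h6] at h5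
  nlinarith

/-- The null vectors of a positive semidefinite symmetric form are in its kernel. -/
lemma null_of_psd {HH : X →L[ℝ] X →L[ℝ] ℝ} (hsym : ∀ a b, HH a b = HH b a)
    (hpsd : ∀ w, 0 ≤ HH w w) {w : X} (h : HH w w = 0) : HH w = 0 := by
  refine ContinuousLinearMap.ext fun c => ?_
  have h1 : ∀ s : ℝ, 0 ≤ HH c c * (s * s) + (2 * HH w c) * s + 0 := by
    intro s
    have h2 := hpsd (w + s • c)
    simp only [map_add, map_smul, _root_.add_apply, _root_.smul_apply, smul_eq_mul, h] at h2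
    rw [hsym c w] at h2
    nlinarith
  have h3 := discrim_le_zero h1
  rw [discrim] at h3
  simp only [_root_.zero_apply]
  nlinarith [sq_nonneg (HH w c)]

end Homog

section Exist

variable {X Y : Type*} [NormedAddCommGroup X] [NormedSpace ℝ X]
  [NormedAddCommGroup Y] [NormedSpace ℝ Y] {g : X → Y} {h : Y → X}
  [FiniteDimensional ℝ X] [FiniteDimensional ℝ Y]

/-- Peano data at the normalised point, from good data at a point of the cone. -/
theorem peano_of_good (H : SphereIso g h) (hX : Smooth X) (hY : Smooth Y) {x₁ : X} {ρ Cq : ℝ}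
    {Ah : X → X →L[ℝ] Y} (hhom : ∀ (z : X) (c : ℝ), 0 < c → Ah (c • z) = Ah z)
    (hAz : ∀ z ∈ ball x₁ ρ, ‖z‖ = 1 → Ah z z = g z)
    (hT : ∀ z ∈ ball x₁ ρ, ∀ z' ∈ ball x₁ ρ,
      ‖radial g z' - radial g z - Ah z (z' - z)‖ ≤ Cq * ‖z' - z‖ ^ 2)
    (hN : ∀ z ∈ ball x₁ ρ, ∀ z' ∈ ball x₁ ρ, ‖‖z'‖ - ‖z‖ - chi z (z' - z)‖ ≤ Cq * ‖z' - z‖ ^ 2)
    {z : X} (hz0 : z ≠ 0) (hzm : ‖z‖⁻¹ • z ∈ ball x₁ ρ)
    {BBz : X →L[ℝ] X →L[ℝ] Y} {HHz : X →L[ℝ] X →L[ℝ] ℝ} (hBz : HasFDerivAt Ah BBz z)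
    (hHz : HasFDerivAt (chi : X → StrongDual ℝ X) HHz z)
    (hnd : ∀ w, chi z w = 0 → HHz w = 0 → w = 0) :
    ∃ (x₀ : X) (A : X →L[ℝ] Y) (Λ : Y →L[ℝ] X) (BB : X →L[ℝ] X →L[ℝ] Y)
      (HH : X →L[ℝ] X →L[ℝ] ℝ), Peano g h x₀ A Λ BB HH := by
  obtain ⟨s, hs⟩ : ∃ s, s = ‖z‖ := ⟨_, rfl⟩
  have hs0 : 0 < s := by
    rw [hs]
    exact norm_pos_iff.2 hz0
  obtain ⟨x₀, hx₀d⟩ : ∃ x₀, x₀ = s⁻¹ • z := ⟨_, rfl⟩
  have hx₀1 : ‖x₀‖ = 1 := by
    rw [hx₀d, hs]
    exact unit_of_ne hz0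
  have hx₀0 : x₀ ≠ 0 := by
    intro h0
    rw [h0, norm_zero] at hx₀1
    exact zero_ne_one hx₀1
  have hx₀m : x₀ ∈ ball x₁ ρ := by
    rw [hx₀d, hs]
    exact hzm
  have hzs : s • x₀ = z := by
    rw [hx₀d, smul_smul, mul_inv_cancel₀ hs0.ne', one_smul]
  -- derivatives at the normalised point
  obtain ⟨Sc, hSc⟩ : ∃ Sc : X →L[ℝ] X, Sc = s • ContinuousLinearMap.id ℝ X := ⟨_, rfl⟩
  have hSd : HasFDerivAt (fun y : X => s • y) Sc x₀ := by
    rw [hSc]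
    exact (hasFDerivAt_id x₀).const_smul s
  have hBB : HasFDerivAt Ah (BBz.comp Sc) x₀ := by
    have h1 : HasFDerivAt (fun y => Ah (s • y)) (BBz.comp Sc) x₀ :=
      HasFDerivAt.comp x₀ (by rw [hzs]; exact hBz) hSd
    exact h1.congr_of_eventuallyEq (Eventually.of_forall fun y => (hhom y s hs0).symm)
  have hHH : HasFDerivAt (chi : X → StrongDual ℝ X) (HHz.comp Sc) x₀ := by
    have h1 : HasFDerivAt (fun y : X => (chi (s • y) : StrongDual ℝ X)) (HHz.comp Sc) x₀ :=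
      HasFDerivAt.comp x₀ (by rw [hzs]; exact hHz) hSd
    exact h1.congr_of_eventuallyEq (Eventually.of_forall fun y => (chi_smul hs0 y).symm)
  have hnear : ball x₁ ρ ∈ 𝓝 x₀ := isOpen_ball.mem_nhds hx₀m
  have hdT : ∀ᶠ y in 𝓝 x₀, HasFDerivAt (radial g) (Ah y) y := by
    filter_upwards [hnear] with y hy
    exact quad_deriv isOpen_ball hT hy
  have hdN : ∀ᶠ y in 𝓝 x₀, HasFDerivAt (fun z : X => ‖z‖) (chi y) y := by
    filter_upwards [hnear] with y hy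
    exact quad_deriv isOpen_ball hN hy
  have hHsym : ∀ a b, (HHz.comp Sc) a b = (HHz.comp Sc) b a :=
    second_derivative_symmetric_of_eventually_of_real hdN hHH
  have hAx : Ah x₀ x₀ = g x₀ := hAz x₀ hx₀m hx₀1
  have hO : BigO g x₀ (Ah x₀) := by
    refine ⟨Cq, ?_⟩
    filter_upwards [hnear] with y hy hy1
    have h1 := hT x₀ hx₀m y hy
    rw [radial_of_unit g hx₀1, radial_of_unit g hy1, map_sub, hAx] at h1
    have e : g y - g x₀ - (Ah x₀ y - g x₀) = g y - Ah x₀ y := by abel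
    rwa [e] at h1
  obtain ⟨Λ, hΛ1, hΛ2⟩ := first_inverse H hX hY hx₀1 hAx hO
  refine ⟨x₀, Ah x₀, Λ, BBz.comp Sc, HHz.comp Sc, ?_⟩
  refine { iso := H, smX := hX, smY := hY, unit := hx₀1, Ax := hAx, left := hΛ1, right := hΛ2,
           bigO := hO, B_sym := ?_, B_x := ?_, H_sym := hHsym, H_x := ?_, H_pos := ?_, T_exp := ?_,
           chi_exp := hHH }
  · exact second_derivative_symmetric_of_eventually_of_real hdT hBB
  · intro b
    have h1 := homog_zero hBB fun c hc => hhom x₀ c hc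
    rw [h1, _root_.zero_apply]
  · intro b
    have h1 := homog_zero hHH fun c hc => chi_smul hc x₀
    rw [h1, _root_.zero_apply]
  · intro w hw hw0
    have hpsd := psd_of_taylor hX hx₀0 hHH
    refine lt_of_le_of_ne (hpsd w) fun he => hw0 ?_
    have h1 := null_of_psd hHsym hpsd he.symm
    refine hnd w ?_ ?_
    · rw [← hw, hx₀d, hs]
      exact (congrFun (congrArg _ (chi_unit hz0)) w).symm
    · have h2 : s • HHz w = 0 := by
        have h3 : (HHz.comp Sc) w = s • HHz w := by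
          rw [hSc]
          simp
        rw [← h3, h1]
      exact (smul_eq_zero.1 h2).resolve_left hs0.ne'
  · intro ε hε
    filter_upwards [peano_taylor hdT hBB hε] with y hy hy1
    rw [radial_of_unit g hx₀1, radial_of_unit g hy1, map_sub, hAx] at hy
    have e : g y - g x₀ - (Ah x₀ y - g x₀) = g y - Ah x₀ y := by abel
    rwa [e] at hy

variable [StrictConvexSpace ℝ X]

/-- **Existence of Peano data.** -/
theorem exists_peano [Nontrivial X] (H : SphereIso g h) (hX : Smooth X) (hY : Smooth Y)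
    (hR : ∀ x : X, ‖x‖ = 1 → Far.Reg x) :
    ∃ (x₀ : X) (A : X →L[ℝ] Y) (Λ : Y →L[ℝ] X) (BB : X →L[ℝ] X →L[ℝ] Y)
      (HH : X →L[ℝ] X →L[ℝ] ℝ), Peano g h x₀ A Λ BB HH := by
  obtain ⟨x₁, ρ, Ah, Cq, hx₁, hρ, hCq, hhom, hAz, hT, hN⟩ := exists_cone H hX hY hR
  obtain ⟨r, hr⟩ : ∃ r, r = min (ρ / 4) (1 / 2) := ⟨_, rfl⟩
  have hr0 : 0 < r := by
    rw [hr]
    positivity
  have hr1 : r ≤ ρ / 4 := by rw [hr]; exact min_le_left _ _
  have hr2 : r ≤ 1 / 2 := by rw [hr]; exact min_le_right _ _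
  have hsub : ball x₁ r ⊆ ball x₁ (ρ / 4) := ball_subset_ball hr1
  have hnorm : ∀ z ∈ ball x₁ r, 1 / 2 ≤ ‖z‖ ∧ ‖z‖ ≤ 2 := by
    intro z hz
    rw [mem_ball, dist_eq_norm] at hz
    have h1 : |‖z‖ - ‖x₁‖| ≤ ‖z - x₁‖ := abs_norm_sub_norm_le z x₁
    rw [hx₁] at h1
    have h2 := abs_le.1 h1
    constructor <;> [linarith [h2.1]; linarith [h2.2]]
  have hne : ∀ z ∈ ball x₁ r, z ≠ 0 := by
    intro z hz h0
    have := (hnorm z hz).1
    rw [h0, norm_zero] at this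
    norm_num at this
  obtain ⟨z, hz, BBz, HHz, hBz, hHz, hnd⟩ := exists_good_point (Y := Y) hX (Ah := Ah) (x₁ := x₁)
    (r := r) (L := 6 * Cq) hr0 (by positivity) (fun z hz => (hnorm z hz).2) hne
    (fun z₁ h₁ z₂ h₂ => quad_lip hCq hT (hsub h₁) (hsub h₂))
    (fun z₁ h₁ z₂ h₂ => quad_lip hCq hN (hsub h₁) (hsub h₂))
  have hzm : ‖z‖⁻¹ • z ∈ ball x₁ ρ := by
    have h1 := normalize_dist (v₀ := x₁) (hne z hz)
    rw [hx₁, inv_one, one_smul] at h1
    rw [mem_ball, dist_eq_norm]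
    refine h1.trans_lt ?_
    have h2 := (hnorm z hz).1
    rw [div_lt_iff₀ (by linarith)]
    rw [mem_ball, dist_eq_norm] at hz
    nlinarith
  exact peano_of_good H hX hY hhom hAz hT hN (hne z hz) hzm hBz hHz hnd

end Exist

end Vale.Agent.Lib.P084.Str
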