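import Mathlib
import Vale.Agent.Lib.P084.Str.Exist

/-! **Every finite-dimensional strictly convex space of dimension at least three has the
Mazur-Ulam property.** -/

namespace Vale.Agent.Lib.P084.Str

open Set Metric Filter Topology
open Vale.Agent.Lib.P084

section Main

variable {X Y : Type*} [NormedAddCommGroup X] [NormedSpace ℝ X]
  [NormedAddCommGroup Y] [NormedSpace ℝ Y]

/-- Strict convexity passes through isometries of spheres. -/
lemma strictConvex_of_iso [StrictConvexSpace ℝ X] {g : X → Y} {h : Y → X} (H : SphereIso g h) :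
    StrictConvexSpace ℝ Y := by
  refine StrictConvexSpace.of_pairwise_sphere_norm_ne_two ?_
  intro y₁ hy₁ y₂ hy₂ hne hsum
  have hu₁ : ‖y₁‖ = 1 := by simpa using hy₁
  have hu₂ : ‖y₂‖ = 1 := by simpa using hy₂
  obtain ⟨m, hm⟩ : ∃ m : Y, m = (1 / 2 : ℝ) • (y₁ + y₂) := ⟨_, rfl⟩
  have hmu : ‖m‖ = 1 := by
    rw [hm, norm_smul, hsum]
    norm_num
  have d1 : ‖m - y₁‖ = (1 / 2) * ‖y₁ - y₂‖ := by
    have e : m - y₁ = (1 / 2 : ℝ) • (y₂ - y₁) := by
      rw [hm]
      module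
    rw [e, norm_smul, norm_sub_rev y₂ y₁]
    norm_num
  have d2 : ‖m - y₂‖ = (1 / 2) * ‖y₁ - y₂‖ := by
    have e : m - y₂ = (1 / 2 : ℝ) • (y₁ - y₂) := by
      rw [hm]
      module
    rw [e, norm_smul]
    norm_num
  have hd1 := H.iso_h m y₁ hmu hu₁
  have hd2 := H.iso_h m y₂ hmu hu₂
  have hd3 := H.iso_h y₁ y₂ hu₁ hu₂
  have ha := H.map_h y₁ hu₁
  have hb := H.map_h y₂ hu₂
  have hc := H.map_h m hmu
  obtain ⟨a, had⟩ : ∃ a, a = h y₁ := ⟨_, rfl⟩
  obtain ⟨b, hbd⟩ : ∃ b, b = h y₂ := ⟨_, rfl⟩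
  obtain ⟨c, hcd⟩ : ∃ c, c = h m := ⟨_, rfl⟩
  rw [← had] at ha hd1 hd3
  rw [← hbd] at hb hd2 hd3
  rw [← hcd] at hc hd1 hd2
  rw [d1] at hd1
  rw [d2] at hd2
  have h1 : a - c = c - b := by
    refine eq_of_norm_eq_of_norm_add_eq ?_ ?_
    · rw [norm_sub_rev a c, hd1, hd2]
    · have e : a - c + (c - b) = a - b := by abel
      rw [e, hd3, norm_sub_rev a c, hd1, hd2]
      ring
  have h2 : a + b = (2 : ℝ) • c := by
    rw [two_smul]
    have : a + b - (c + c) = 0 := by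
      have e : a + b - (c + c) = (a - c) - (c - b) := by abel
      rw [e, h1, sub_self]
    exact sub_eq_zero.1 this
  have h3 : a = b := by
    refine eq_of_norm_eq_of_norm_add_eq (by rw [ha, hb]) ?_
    rw [h2, norm_smul, hc, ha, hb]
    norm_num
  have h4 : ‖y₁ - y₂‖ = 0 := by
    rw [← hd3, h3, sub_self, norm_zero]
  exact hne (sub_eq_zero.1 (norm_eq_zero.1 h4))

/-- Second differences bounded at all unit vectors give differentiability of the norm. -/
lemma smooth_of_reg (hR : ∀ x : X, ‖x‖ = 1 → Far.Reg x) : Smooth X := by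
  intro x₀ hx₀ 
  have hn : 0 < ‖x₀‖ := norm_pos_iff.2 hx₀
  have hu : ‖‖x₀‖⁻¹ • x₀‖ = 1 := unit_of_ne hx₀
  have hd : DifferentiableAt ℝ (fun z : X => ‖z‖) (‖x₀‖⁻¹ • x₀) := by
    by_contra hd
    exact Far.not_reg_of hu (Far.second_diff_of_not_differentiable hu hd) (hR _ hu)
  have h1 := (hd.hasFDerivAt.hasFDerivAt_norm_smul_pos hn).differentiableAt
  have e : ‖x₀‖ • ‖x₀‖⁻¹ • x₀ = x₀ := by
    rw [smul_smul, mul_inv_cancel₀ hn.ne', one_smul]
  rwa [e] at h1

/-- A point which is not regular has arbitrarily large second differences. -/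
lemma second_diff_of_not_reg {x₀ : X} (hx₀ : ‖x₀‖ = 1) (hR : ¬ Far.Reg x₀) (C δ : ℝ) (hδ : 0 < δ) :
    ∃ z : X, ‖z‖ < δ ∧ C * ‖z‖ ^ 2 < ‖x₀ + z‖ + ‖x₀ - z‖ - 2 := by
  by_contra hcon
  push Not at hcon
  refine hR ⟨C, ?_⟩
  refine Metric.eventually_nhds_iff.2 ⟨δ, hδ, fun {z} hz => ?_⟩
  rw [dist_zero_right] at hz
  have := hcon z hz
  rw [hx₀]
  linarith

/-- **Theorem.** A finite-dimensional strictly convex normed space of dimension at least three has
the Mazur-Ulam property. -/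
theorem strict_all [FiniteDimensional ℝ X] [StrictConvexSpace ℝ X]
    (hdim : 3 ≤ Module.finrank ℝ X) (f : sphere (0 : X) 1 ≃ᵢ sphere (0 : Y) 1) :
    ∃ T : X ≃ₗᵢ[ℝ] Y, ∀ x : sphere (0 : X) 1, T x = f x := by
  have : Nontrivial X := Module.nontrivial_of_finrank_pos (R := ℝ) (by omega)
  have : FiniteDimensional ℝ Y := finiteDimensional_of_sphere f
  obtain ⟨g, h, H, hgf⟩ := exists_sphereIso f
  have : StrictConvexSpace ℝ Y := strictConvex_of_iso H
  by_cases hXreg : ∀ x : X, ‖x‖ = 1 → Far.Reg x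
  · by_cases hYreg : ∀ y : Y, ‖y‖ = 1 → Far.Reg y
    · have hX : Smooth X := smooth_of_reg hXreg
      have hY : Smooth Y := smooth_of_reg hYreg
      obtain ⟨x₀, A, Λ, BB, HH, P⟩ := exists_peano H hX hY hXreg
      obtain ⟨T, hT⟩ := linear_of_peano P hdim
      refine ⟨T, fun x => ?_⟩
      rw [hT x (by simpa using x.2), hgf]
    · push Not at hYreg
      obtain ⟨y₀, hy₀, hn⟩ := hYreg
      obtain ⟨T, hT⟩ := Far.far_strict hy₀ (second_diff_of_not_reg hy₀ hn) f.symm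
      refine ⟨T.symm, fun x => ?_⟩
      have h1 := hT (f x)
      rw [IsometryEquiv.symm_apply_apply] at h1
      rw [← h1, LinearIsometryEquiv.symm_apply_apply]
  · push Not at hXreg
    obtain ⟨x₀, hx₀, hn⟩ := hXreg
    exact Far.far_strict hx₀ (second_diff_of_not_reg hx₀ hn) f

end Main

end Vale.Agent.Lib.P084.Str
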